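import Crest.Agent.H1KR.Defs
import Crest.Agent.H2.KS5

/-! Kadison–Ringrose, tracial part 1: forms, matrix units, designs. -/

set_option autoImplicit false
set_option maxHeartbeats 400000
open scoped InnerProductSpace ComplexConjugate
open Finset Crest.Agent.H1VN Crest.Agent.H2.KS

noncomputable section
namespace Crest.Agent.H1KR

/-- Sesquilinear forms. -/
abbrev Fm (A : Type*) [CStarAlgebra A] := A →ₗ⋆[ℂ] A →ₗ[ℂ] ℂ

variable {A : Type*} [CStarAlgebra A]

/-- Precomposition of a form with linear maps. -/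
def Fm.pre (B : Fm A) (L L' : A →ₗ[ℂ] A) : Fm A := (B ∘ₛₗ L).compl₂ L'

@[simp] lemma Fm.pre_apply (B : Fm A) (L L' : A →ₗ[ℂ] A) (z x : A) :
    B.pre L L' z x = B (L z) (L' x) := rfl

/-- Two-sided multiplication. -/
def lr (u v : A) : A →ₗ[ℂ] A := LinearMap.mulRight ℂ v ∘ₗ LinearMap.mulLeft ℂ u

@[simp] lemma lr_apply (u v x : A) : lr u v x = u * x * v := rfl

/-- The `L²` inner product. -/
def B0 (T : Tr A) : Fm A :=
  LinearMap.mk₂'ₛₗ (starRingEnd ℂ) (RingHom.id ℂ) (fun z x => T.τ (star z * x))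
    (fun a b x => by simp [add_mul]) (fun c a x => by simp)
    (fun a b x => by simp [mul_add]) (fun c a x => by simp)

@[simp] lemma B0_apply (T : Tr A) (z x : A) : B0 T z x = T.τ (star z * x) := rfl

/-- Admissible forms. -/
structure Adm (T : Tr A) (B : Fm A) (C η δ : ℝ) : Prop where
  l1 : ∀ z₁ z₂ x, ‖B (z₁ * z₂) x‖ ≤ C * (‖T.J z₁‖ * ‖T.J z₂‖ * ‖x‖)
  ac : ∀ (κ : Type) [Fintype κ] (z x : κ → A) (R : ℝ), ‖∑ i, star (x i) * x i‖ ≤ R →
    ‖∑ i, x i * star (x i)‖ ≤ R → ∑ i, ‖T.J (x i)‖ ^ 2 ≤ δ * R →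
    ‖∑ i, B (z i) (x i)‖ ^ 2 ≤ η * R * ∑ i, ‖T.J (z i)‖ ^ 2

variable {T : Tr A}

lemma Adm.l2 {B : Fm A} {C η δ : ℝ} (h : Adm T B C η δ) (z x : A) :
    ‖B z x‖ ≤ C * (‖T.J z‖ * ‖x‖) := by
  simpa [T.norm_J_one] using h.l1 z 1 x

lemma norm_τ_star_mul (z x : A) : ‖T.τ (star z * x)‖ ≤ ‖T.J z‖ * ‖T.J x‖ := by
  simpa [T.J_star] using T.norm_τ_mul_le (star z) x

lemma adm_B0 {C η δ : ℝ} (hC : 1 ≤ C) (h : δ ≤ η) : Adm T (B0 T) C η δ where
  l1 z₁ z₂ x := by
    rw [B0_apply, star_mul, mul_assoc, T.tr, mul_assoc]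
    refine (norm_τ_star_mul _ _).trans ?_
    have h1 := T.J_mul_le x (star z₂)
    rw [T.J_star] at h1
    have h2 := mul_le_mul_of_nonneg_left h1 (norm_nonneg (T.J z₁))
    have h3 : 0 ≤ ‖T.J z₁‖ * ‖T.J z₂‖ * ‖x‖ := by positivity
    nlinarith
  ac κ _ z x R h1 _ h3 := by
    have hR : 0 ≤ R := (norm_nonneg _).trans h1
    have h4 : ‖∑ i, B0 T (z i) (x i)‖ ≤ ∑ i, ‖T.J (z i)‖ * ‖T.J (x i)‖ :=
      (norm_sum_le _ _).trans (sum_le_sum fun i _ => norm_τ_star_mul _ _)
    refine (pow_le_pow_left₀ (norm_nonneg _) h4 2).trans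
      ((sum_mul_sq_le_sq_mul_sq _ _ _).trans ?_)
    have h5 : 0 ≤ ∑ i, ‖T.J (z i)‖ ^ 2 := by positivity
    have h6 : δ * R ≤ η * R := mul_le_mul_of_nonneg_right h hR
    rw [mul_comm]
    exact mul_le_mul_of_nonneg_right (h3.trans h6) h5

lemma norm_conj_le {u : A} (hu : u ∈ unitary A) (x : A) : ‖star u * x * u‖ = ‖x‖ := by
  rw [CStarRing.norm_mul_mem_unitary _ hu, CStarRing.norm_mem_unitary_mul _ (Unitary.star_mem hu)]

lemma u1 {u : A} (hu : u ∈ unitary A) (x : A) : star u * (u * x) = x := by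
  rw [← mul_assoc, hu.1, one_mul]
lemma u2 {u : A} (hu : u ∈ unitary A) (x : A) : u * (star u * x) = x := by
  rw [← mul_assoc, hu.2, one_mul]

lemma J_lr {u v : A} (hu : u ∈ unitary A) (hv : v ∈ unitary A) (x : A) :
    ‖T.J (u * x * v)‖ = ‖T.J x‖ := by rw [T.J_mul_unit hv, T.J_unit_mul hu]

lemma norm_lr {u v : A} (hu : u ∈ unitary A) (hv : v ∈ unitary A) (x : A) :
    ‖u * x * v‖ = ‖x‖ := by
  rw [CStarRing.norm_mul_mem_unitary _ hv, CStarRing.norm_mem_unitary_mul _ hu]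

lemma Adm.pre {B : Fm A} {C η δ : ℝ} (h : Adm T B C η δ) {u v u' v' : A} (hu : u ∈ unitary A)
    (hv : v ∈ unitary A) (hu' : u' ∈ unitary A) (hv' : v' ∈ unitary A) :
    Adm T (B.pre (lr u v) (lr u' v')) C η δ where
  l1 z₁ z₂ x := by
    have := h.l1 (u * z₁) (z₂ * v) (u' * x * v')
    rw [T.J_unit_mul hu, T.J_mul_unit hv, norm_lr hu' hv'] at this
    simpa [mul_assoc] using this
  ac κ _ z x R h1 h2 h3 := by
    have := h.ac κ (fun i => u * z i * v) (fun i => u' * x i * v') R ?_ ?_ ?_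
    · simpa [J_lr hu hv] using this
    · have e : ∑ i, star (u' * x i * v') * (u' * x i * v') =
          star v' * (∑ i, star (x i) * x i) * v' := by
        rw [mul_sum, sum_mul]
        exact sum_congr rfl fun i _ => by simp [mul_assoc, u1 hu']
      rwa [e, norm_conj_le hv']
    · have e : ∑ i, (u' * x i * v') * star (u' * x i * v') =
          u' * (∑ i, x i * star (x i)) * star u' := by
        rw [mul_sum, sum_mul]
        exact sum_congr rfl fun i _ => by simp [mul_assoc, u2 hv']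
      rwa [e, norm_lr hu' (Unitary.star_mem hu')]
    · simpa [J_lr hu' hv'] using h3

/-! ### Matrix units -/

variable {ι : Type} [Fintype ι] [DecidableEq ι] {e : ι → ι → A}

lemma MU.mul' (h : MU e) (a b c d : ι) (x : A) :
    e a b * (e c d * x) = if b = c then e a d * x else 0 := by
  rw [← mul_assoc, h.mul]; split_ifs <;> simp

lemma MU.mm (h : MU e) (a b d : ι) : e a b * e b d = e a d := by simp [h.mul]
lemma MU.mm' (h : MU e) (a b d : ι) (x : A) : e a b * (e b d * x) = e a d * x := by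
  simp [h.mul']

lemma MU.ne (h : MU e) (T : Tr A) : Nonempty ι := by
  by_contra hn
  rw [not_nonempty_iff] at hn
  have := congrArg T.τ h.sum
  simp [T.one] at this

lemma MU.card_pos (h : MU e) (T : Tr A) : (0 : ℝ) < Fintype.card ι := by
  have := h.ne T
  exact_mod_cast Fintype.card_pos

lemma MU.card_ne (h : MU e) (T : Tr A) : (Fintype.card ι : ℂ) ≠ 0 := by
  have := h.ne T
  exact_mod_cast Fintype.card_ne_zero

/-- The trace of `e a b * y` for `y` in the relative commutant. -/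
lemma MU.τ_mul (h : MU e) (T : Tr A) {y : A} (hy : ∀ a b, e a b * y = y * e a b) (a b : ι) :
    T.τ (e a b * y) = if a = b then T.τ y / Fintype.card ι else 0 := by
  have key : ∀ a c, T.τ (e a a * y) = T.τ (e c c * y) := fun a c => by
    rw [← h.mm a c a, mul_assoc, T.tr, mul_assoc, ← hy, h.mm']
  split_ifs with hab
  · subst hab
    rw [eq_div_iff (h.card_ne T)]
    have : T.τ y = ∑ c, T.τ (e c c * y) := by rw [← map_sum, ← sum_mul, h.sum, one_mul]
    rw [this, sum_congr rfl fun c _ => key c a]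
    simp [mul_comm]
  · rw [← h.mm a a b, mul_assoc, T.tr, mul_assoc, ← hy, h.mul']
    simp [Ne.symm hab]

lemma MU.τ_e (h : MU e) (T : Tr A) (a b : ι) :
    T.τ (e a b) = if a = b then 1 / (Fintype.card ι : ℂ) else 0 := by
  simpa [T.one] using h.τ_mul T (y := 1) (by simp) a b

lemma MU.J_sq (h : MU e) (T : Tr A) (a b : ι) : ‖T.J (e a b)‖ ^ 2 = 1 / Fintype.card ι := by
  rw [T.norm_J_sq, h.star, h.mm, h.τ_e]
  simp

variable (e) in
/-- The element with a given scalar matrix. -/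
def mat (R : Matrix ι ι ℂ) : A := ∑ a, ∑ b, R a b • e a b

lemma MU.e_mul_mat (h : MU e) (R : Matrix ι ι ℂ) (a b : ι) :
    e a b * mat e R = ∑ d, R b d • e a d := by
  simp only [mat, mul_sum, mul_smul_comm, h.mul]
  rw [sum_eq_single b] <;> simp +contextual [eq_comm]

lemma MU.mat_mul_e (h : MU e) (R : Matrix ι ι ℂ) (a b : ι) :
    mat e R * e a b = ∑ c, R c a • e c b := by
  simp only [mat, sum_mul, smul_mul_assoc, h.mul]
  refine sum_congr rfl fun c _ => ?_
  rw [sum_eq_single a] <;> simp +contextual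

lemma MU.mat_mul (h : MU e) (R R' : Matrix ι ι ℂ) : mat e R * mat e R' = mat e (R * R') := by
  conv_lhs => rw [mat]
  simp only [sum_mul, smul_mul_assoc, h.e_mul_mat, smul_sum, smul_smul]
  simp only [mat, Matrix.mul_apply, sum_smul]
  exact sum_congr rfl fun a _ => sum_comm

lemma MU.mat_star (h : MU e) (R : Matrix ι ι ℂ) : Star.star (mat e R) = mat e (Star.star R) := by
  simp only [mat, star_sum, star_smul, h.star, Matrix.star_apply]
  exact sum_comm

lemma MU.mat_one (h : MU e) : mat e 1 = 1 := by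
  simp only [mat, Matrix.one_apply, ite_smul, one_smul, zero_smul, sum_ite_eq, mem_univ, if_true,
    h.sum]

lemma MU.mat_unit (h : MU e) {R : Matrix ι ι ℂ} (hR : R ∈ unitary (Matrix ι ι ℂ)) :
    mat e R ∈ unitary A :=
  ⟨by rw [h.mat_star, h.mat_mul, hR.1, h.mat_one], by rw [h.mat_star, h.mat_mul, hR.2, h.mat_one]⟩

lemma sesq_sum (B : Fm A) {κ κ' : Type*} [Fintype κ] [Fintype κ'] (c : κ → ℂ) (c' : κ' → ℂ)
    (z : κ → A) (x : κ' → A) :
    B (∑ i, c i • z i) (∑ j, c' j • x j) = ∑ i, ∑ j, (conj (c i) * c' j) * B (z i) (x j) := by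
  simp only [map_sum, LinearMap.sum_apply, map_smulₛₗ, LinearMap.smul_apply, RingHom.id_apply,
    smul_eq_mul]
  rw [sum_comm]
  exact sum_congr rfl fun i _ => by
    rw [mul_sum]; exact sum_congr rfl fun j _ => by ring

variable (e) in
/-- `h` preserves the diagonal of the matrix algebra under right multiplication. -/
def Inv (h : A) : Prop :=
  ∀ B : Fm A, ∑ a, ∑ b, B (e a b * h) (e a b * h) = ∑ a, ∑ b, B (e a b) (e a b)

lemma MU.inv_mat (h : MU e) {R : Matrix ι ι ℂ} (hR : R ∈ unitary (Matrix ι ι ℂ)) :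
    Inv e (mat e R) := fun B => by
  refine sum_congr rfl fun a _ => ?_
  simp only [h.e_mul_mat, sesq_sum]
  rw [sum_comm]
  refine sum_congr rfl fun d _ => ?_
  rw [sum_comm]
  have : ∀ d', ∑ b, conj (R b d) * R b d' = if d = d' then 1 else 0 := fun d' => by
    simpa [Matrix.mul_apply, Matrix.one_apply] using congrFun (congrFun hR.1 d) d'
  simp only [← sum_mul, this]
  simp

lemma MU.inv_mat' (h : MU e) {R : Matrix ι ι ℂ} (hR : R ∈ unitary (Matrix ι ι ℂ)) (B : Fm A) :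
    ∑ a, ∑ b, B (mat e R * e a b) (mat e R * e a b) = ∑ a, ∑ b, B (e a b) (e a b) := by
  rw [sum_comm, sum_comm (f := fun a b => B (e a b) (e a b))]
  refine sum_congr rfl fun b _ => ?_
  simp only [h.mat_mul_e, sesq_sum]
  rw [sum_comm]
  refine sum_congr rfl fun c _ => ?_
  rw [sum_comm]
  have : ∀ c', ∑ a, conj (R c a) * R c' a = if c' = c then 1 else 0 := fun c' => by
    simpa [Matrix.mul_apply, Matrix.one_apply, mul_comm] using congrFun (congrFun hR.2 c') c
  simp only [← sum_mul, this]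
  simp

/-! ### The monomial ensemble -/

/-- The sample space. -/
abbrev Om (ι : Type) (N : ℕ) := Equiv.Perm ι × (ι → ZMod N)

variable {N : ℕ} [NeZero N]

lemma Dm_unit (ω : Om ι N) : Dm ℂ ω ∈ unitary (Matrix ι ι ℂ) := ⟨Dm_ct_mul ω, Dm_mul_ct ω⟩

lemma Dm_apply (ω : Om ι N) (b a : ι) : Dm ℂ ω b a = if ω.1 a = b then chi N (ω.2 a) else 0 := by
  simp [Dm]

lemma card_Om : (Fintype.card (Om ι N) : ℂ) = (Fintype.card ι).factorial * N ^ Fintype.card ι := by
  simp [Fintype.card_perm, ZMod.card]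

lemma Dm_des (hN : 1 < N) (p q : ι × ι) :
    ∑ ω : Om ι N, conj (Dm ℂ ω p.1 p.2) * Dm ℂ ω q.1 q.2 =
      if p = q then (Fintype.card (Om ι N) : ℂ) / Fintype.card ι else 0 := by
  obtain ⟨b, a⟩ := p
  obtain ⟨b', a'⟩ := q
  have : Nonempty ι := ⟨a⟩
  have hp : ∑ ε : ι → ZMod N, conj (chi N (ε a)) * chi N (ε a') =
      if a = a' then (N : ℂ) ^ Fintype.card ι else 0 := by
    have := phase_avg (N := N) (fun _ : Unit => a) (fun _ : Unit => a') (by simpa) (by simpa)
    simp only [univ_unique, prod_singleton] at this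
    rw [this]
    congr 1
    refine propext ⟨fun h => ?_, fun h => by simp [h]⟩
    have := h a
    by_contra hne
    simp [cnt, Ne.symm hne] at this
  rw [Fintype.sum_prod_type]
  simp only [Dm_apply]
  have e1 : ∀ π : Equiv.Perm ι, ∑ ε : ι → ZMod N, conj (if π a = b then chi N (ε a) else 0) *
      (if π a' = b' then chi N (ε a') else 0) =
      if π a = b ∧ (b, a) = (b', a') then (N : ℂ) ^ Fintype.card ι else 0 := fun π => by
    by_cases h1 : π a = b <;> by_cases h2 : π a' = b' <;> simp [h1, h2, hp]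
    · subst h1 h2; by_cases h3 : a = a' <;> simp [h3]
    · intro h3 h4; subst h3 h4; exact absurd h1 h2
  simp only [e1]
  split_ifs with h
  · simp only [h, and_true]
    rw [← sum_filter, sum_const, nsmul_eq_mul]
    have := card_perm_ext (fun _ : Unit => a) (fun _ : Unit => b) (fun _ _ _ => rfl)
      (fun _ _ _ => rfl)
    simp only [forall_const, Fintype.card_unique] at this
    obtain ⟨rfl, rfl⟩ := Prod.mk.inj h
    rw [this, card_Om, eq_div_iff (by exact_mod_cast Fintype.card_ne_zero),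
      ← Nat.mul_factorial_pred (Fintype.card_ne_zero (α := ι))]
    push_cast; ring
  · simp [h]

/-- One-design property of the monomial ensemble. -/
lemma des (hN : 1 < N) (B : Fm A) (z x : ι → ι → A) :
    ∑ ω : Om ι N, B (∑ a, ∑ b, Dm ℂ ω a b • z a b) (∑ a, ∑ b, Dm ℂ ω a b • x a b) =
      (Fintype.card (Om ι N) : ℂ) / Fintype.card ι * ∑ a, ∑ b, B (z a b) (x a b) := by
  have e1 : ∀ (ω : Om ι N) (z : ι → ι → A), ∑ a, ∑ b, Dm ℂ ω a b • z a b =
      ∑ p : ι × ι, Dm ℂ ω p.1 p.2 • z p.1 p.2 := fun ω z => (Fintype.sum_prod_type' _).symm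
  rw [← Fintype.sum_prod_type' (fun a b => B (z a b) (x a b))]
  simp only [e1, sesq_sum]
  rw [sum_comm, mul_sum]
  refine sum_congr rfl fun p _ => ?_
  rw [sum_comm]
  simp only [← sum_mul, Dm_des hN]
  simp

variable (e) in
/-- The random monomial unitary. -/
def rr (ω : Om ι N) : A := mat e (Dm ℂ ω)

lemma MU.rr_unit (h : MU e) (ω : Om ι N) : rr e ω ∈ unitary A := h.mat_unit (Dm_unit ω)

lemma MU.star_rr (h : MU e) (ω : Om ι N) : Star.star (rr e ω) = rr e (H2.KS.flip ω) := by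
  rw [rr, h.mat_star, rr, ← Dm_ct]; rfl

lemma des_rr (hN : 1 < N) (B : Fm A) :
    ∑ ω : Om ι N, B (rr e ω) (rr e ω) =
      (Fintype.card (Om ι N) : ℂ) / Fintype.card ι * ∑ a, ∑ b, B (e a b) (e a b) :=
  des hN B e e

lemma Inv.rr {h : A} (hh : Inv e h) (hN : 1 < N) (B : Fm A) :
    ∑ ω : Om ι N, B (rr e ω * h) (rr e ω * h) = ∑ ω : Om ι N, B (rr e ω) (rr e ω) := by
  have := des_rr (e := e) hN (B.pre (lr 1 h) (lr 1 h))
  simp only [Fm.pre_apply, lr_apply, one_mul] at this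
  rw [this, des_rr hN, hh]

end Crest.Agent.H1KR
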