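import Crest.Agent.H1KR.C9
import Crest.Agent.H9.KD1

/-! Kadison–Ringrose, tracial part 10: cutting off the singular part. -/

set_option autoImplicit false
set_option maxHeartbeats 400000
open scoped InnerProductSpace ComplexConjugate ComplexStarModule
open Finset Function Filter Topology Crest.Agent.H1VN Crest.Agent.H2.KS

noncomputable section
namespace Crest.Agent.H1KR

variable {A : Type*} [CStarAlgebra A] {T : Tr A}

/-- `ev` as a linear functional. -/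
def evL (μ : List (ℝ × A)) : (A → ℂ) →ₗ[ℂ] ℂ where
  toFun := ev μ
  map_add' F G := by simp [ev, List.sum_map_add, mul_add]
  map_smul' c F := by simp [ev, ← List.sum_map_mul_left, mul_left_comm]

lemma ev_le {μ : List (ℝ × A)} (hμ : IsMean μ) {F : A → ℂ} {ε : ℝ}
    (h : ∀ u ∈ unitary A, ‖F u‖ ≤ ε) : ‖ev μ F‖ ≤ ε := by
  have : ‖ev μ F‖ ≤ (μ.map Prod.fst).sum * ε := by
    have h1 := hμ.1
    clear hμ
    induction μ with
    | nil => simp [ev]
    | cons q μ ih =>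
      have h2 := ih fun r hr => h1 r (List.mem_cons_of_mem _ hr)
      have h3 := h1 q List.mem_cons_self
      simp only [ev, List.map_cons, List.sum_cons, add_mul] at h2 ⊢
      refine (norm_add_le _ _).trans (add_le_add ?_ h2)
      rw [norm_smul, Real.norm_of_nonneg h3.1]
      exact mul_le_mul_of_nonneg_left (h _ h3.2) h3.1
  rwa [hμ.2, one_mul] at this

lemma ev_τ (T : Tr A) (μ : List (ℝ × A)) (y a : A) (F G : A → A) :
    T.τ (y * (ev μ F - a * ev μ G)) = evL μ fun u => T.τ (y * (F u - a * G u)) := by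
  change _ = ev μ fun u => T.τ (y * (F u - a * G u))
  induction μ with
  | nil => simp [ev]
  | cons q μ ih =>
    simp only [ev, List.map_cons, List.sum_cons] at ih ⊢
    rw [← ih]
    simp only [mul_add, mul_sub, map_add, map_sub,
      mul_smul_comm, LinearMap.map_smul_of_tower, smul_sub]
    ring

lemma Adm.mono {B : Fm A} {C η δ η' δ' : ℝ} (h : Adm T B C η δ) (h1 : η ≤ η') (h2 : δ' ≤ δ) :
    Adm T B C η' δ' :=
  ⟨h.l1, fun κ _ z x R k1 k2 k3 => by
    have hR : 0 ≤ R := (norm_nonneg _).trans k1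
    exact (h.ac κ z x R k1 k2 (k3.trans (by gcongr))).trans (by gcongr)⟩

/-- The form attached to a map and an element. -/
def Bf (T : Tr A) (φ : A →L[ℂ] A) (y : A) : Fm A := (B0 T).pre .id (lr 1 y ∘ₗ φ.toLinearMap)

lemma Bf_apply (φ : A →L[ℂ] A) (y z x : A) : Bf T φ y z x = T.τ (star z * (φ x * y)) := by
  simp [Bf]

lemma Bf_l1 (φ : A →L[ℂ] A) (y z₁ z₂ x : A) :
    ‖Bf T φ y (z₁ * z₂) x‖ ≤ ‖φ‖ * ‖y‖ * (‖T.J z₁‖ * ‖T.J z₂‖ * ‖x‖) := by
  have := (adm_B0 (T := T) le_rfl (le_refl 0)).l1 z₁ z₂ (φ x * y)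
  rw [Bf_apply]
  refine this.trans ?_
  calc _ ≤ 1 * (‖T.J z₁‖ * ‖T.J z₂‖ * (‖φ‖ * ‖x‖ * ‖y‖)) := by
        gcongr; exact (norm_mul_le _ _).trans (by gcongr; exact φ.le_opNorm x)
    _ = _ := by ring

variable [PartialOrder A] [StarOrderedRing A]

lemma groth {H : Type*} [NormedAddCommGroup H] [InnerProductSpace ℂ H] (u : A →L[ℂ] H) :
    ∃ g : A →ₗ[ℝ] ℝ, (∀ a, 0 ≤ a → 0 ≤ g a) ∧ ∀ x, ‖u x‖ ^ 2 ≤ g (star x * x) + g (x * star x) := by
  have hc : 0 ≤ 4 * ‖u‖ ^ 2 := by positivity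
  have hu := H9.KA.sa_col u.toLinearMap ‖u‖ u.le_opNorm (norm_nonneg _)
  generalize 4 * ‖u‖ ^ 2 = c at hc hu
  let T' : Set (A × ℝ) := {p | ∃ (ι : Type) (_ : Fintype ι) (v : ι → A) (y : A),
    (∀ i, IsSelfAdjoint (v i)) ∧ p.1 = ∑ i, v i * v i - y ∧ p.2 ≤ ∑ i, ‖u (v i)‖ ^ 2 - c * ‖y‖}
  obtain ⟨g, hg⟩ := H9.KD.hb_cone T' ⟨Empty, inferInstance, Empty.elim, 0, by simp, by simp, by simp⟩
    (by
      rintro p ⟨ι, _, v, y, h0, h1, h2⟩ q ⟨ι', _, v', y', h0', h1', h2'⟩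
      refine ⟨ι ⊕ ι', inferInstance, Sum.elim v v', y + y', by simp [h0, h0'], ?_, ?_⟩
      · simp only [Prod.fst_add, h1, h1', Fintype.sum_sum_type, Sum.elim_inl, Sum.elim_inr]
        abel
      · simp only [Prod.snd_add, Fintype.sum_sum_type, Sum.elim_inl, Sum.elim_inr]
        have := mul_le_mul_of_nonneg_left (norm_add_le y y') hc
        linarith) (by
      rintro t ht p ⟨ι, _, v, y, h0, h1, h2⟩
      refine ⟨ι, inferInstance, fun i => √t • v i, t • y,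
        fun i => (IsSelfAdjoint.all _).smul (h0 i), ?_, ?_⟩
      · simp only [Prod.smul_fst, h1, smul_sub, smul_sum, smul_mul_smul_comm,
          Real.mul_self_sqrt ht.le]
      · simp only [Prod.smul_snd, ContinuousLinearMap.map_smul_of_tower, norm_smul, mul_pow,
          smul_eq_mul, Real.norm_eq_abs, sq_abs, Real.sq_sqrt ht.le, abs_of_pos ht, ← mul_sum]
        nlinarith) (by
      rintro r ⟨ι, _, v, y, h0, h1, h2⟩
      have hy : y = ∑ i, v i * v i := (sub_eq_zero.mp h1.symm).symm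
      have := hu ι v h0
      rw [← hy] at this
      simp only [ContinuousLinearMap.coe_coe] at h2 this
      linarith) (by
      rintro x r -
      exact ⟨-(c * ‖x‖), Empty, inferInstance, Empty.elim, x, by simp, by simp, by simp⟩)
  have k : ∀ v, IsSelfAdjoint v → ‖u v‖ ^ 2 ≤ g (v * v) := fun v hv =>
    hg _ _ ⟨Unit, inferInstance, fun _ => v, 0, fun _ => hv, by simp, by simp⟩
  refine ⟨g, fun a ha => ?_, fun x => ?_⟩
  · rw [← CFC.sqrt_mul_sqrt_self a]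
    exact (sq_nonneg _).trans (k _ (.of_nonneg (CFC.sqrt_nonneg a)))
  · obtain ⟨a, b, ha, hb, rfl⟩ : ∃ a b : A, IsSelfAdjoint a ∧ IsSelfAdjoint b ∧
        x = a + Complex.I • b := ⟨_, _, (ℜ x).2, (ℑ x).2, (realPart_add_I_smul_imaginaryPart x).symm⟩
    have e : star (a + Complex.I • b) * (a + Complex.I • b) +
        (a + Complex.I • b) * star (a + Complex.I • b) = (2 : ℝ) • (a * a + b * b) := by
      simp only [star_add, star_smul, ha.star_eq, hb.star_eq, mul_add, add_mul, smul_mul_assoc,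
        mul_smul_comm, smul_smul, RCLike.star_def, Complex.conj_I, ← Complex.coe_smul]
      match_scalars <;> simp <;> norm_num
    rw [← map_add, e, map_smul, map_add, map_add, map_smul, smul_eq_mul]
    have h1 := norm_add_le (u a) (Complex.I • u b)
    rw [norm_smul, Complex.norm_I, one_mul] at h1
    refine (pow_le_pow_left₀ (norm_nonneg _) h1 2).trans (add_sq_le.trans ?_)
    linarith [k a ha, k b hb]

lemma sq_le_self {c : A} (h0 : 0 ≤ c) (h1 : c ≤ 1) : c * c ≤ c := by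
  conv_lhs => rw [← cfc_id' ℝ c, ← cfc_mul _ _ c (by fun_prop) (by fun_prop)]
  conv_rhs => rw [← cfc_id' ℝ c]
  refine cfc_mono fun t ht => ?_
  have h2 := spectrum_nonneg_of_nonneg h0 ht
  have h3 : t ≤ 1 := (CFC.le_one_iff c).1 h1 t ht
  nlinarith

lemma cut (T : Tr A) (g : A →ₗ[ℝ] ℝ) (hg : ∀ a, 0 ≤ a → 0 ≤ g a) {η : ℝ} (hη : 0 < η) :
    ∃ δ > 0, ∀ δ₀ > 0, ∃ a₀ : A, 0 ≤ a₀ ∧ a₀ ≤ 1 ∧ (T.τ a₀).re ≤ δ₀ ∧ ∀ (a : A) (R : ℝ), 0 ≤ a →
      ‖a‖ ≤ R → (T.τ a).re ≤ δ * R → g ((1 - a₀) * a * (1 - a₀)) ≤ η * R := by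
  let S : Set ℝ := {r | ∀ δ > 0, ∃ a : A, 0 ≤ a ∧ a ≤ 1 ∧ (T.τ a).re ≤ δ ∧ r ≤ g a}
  have h0 : (0 : ℝ) ∈ S := fun δ hδ => ⟨0, le_rfl, zero_le_one, by simp [hδ.le], by simp⟩
  have hb : BddAbove S := ⟨g 1, fun r hr => by
    obtain ⟨a, -, h1, -, h2⟩ := hr 1 one_pos
    have := hg _ (sub_nonneg.2 h1)
    rw [map_sub] at this; linarith⟩
  obtain ⟨r, hr, hr'⟩ := exists_lt_of_lt_csSup ⟨0, h0⟩ (show sSup S - η / 2 < sSup S by linarith)
  have : sSup S + η / 2 ∉ S := fun h => by have := le_csSup hb h; linarith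
  simp only [S, Set.mem_setOf_eq] at this
  push Not at this
  obtain ⟨δ, hδ, H⟩ := this
  refine ⟨δ / 2, by positivity, fun δ₀ hδ₀ => ?_⟩
  obtain ⟨a₀, a1, a2, a3, a4⟩ := hr (min δ₀ (δ / 2)) (by positivity)
  refine ⟨a₀, a1, a2, a3.trans (min_le_left _ _), fun a R ha hR hτ => ?_⟩
  have c0 : 0 ≤ 1 - a₀ := sub_nonneg.2 a2
  have c1 : 1 - a₀ ≤ 1 := sub_le_self _ a1
  have cs : IsSelfAdjoint (1 - a₀) := .of_nonneg c0
  rcases ((norm_nonneg _).trans hR).eq_or_lt with h | h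
  · subst h; rw [norm_le_zero_iff.1 hR]; simp
  have b0 : 0 ≤ R⁻¹ • a := smul_nonneg (by positivity) ha
  have b1 : R⁻¹ • a ≤ 1 := (CStarAlgebra.norm_le_one_iff_of_nonneg _ b0).1 (by
    rw [norm_smul, norm_inv, Real.norm_of_nonneg h.le, inv_mul_le_iff₀ h, mul_one]; exact hR)
  have b2 : (T.τ ((1 - a₀) * a * (1 - a₀))).re ≤ (T.τ a).re := by
    obtain ⟨b, rfl⟩ := CStarAlgebra.nonneg_iff_eq_star_mul_self.1 ha
    have e : (1 - a₀) * (star b * b) * (1 - a₀) = star (b * (1 - a₀)) * (b * (1 - a₀)) := by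
      rw [star_mul, cs.star_eq]; simp only [mul_assoc]
    rw [e, ← T.norm_J_sq, ← T.norm_J_sq]
    gcongr
    exact (T.J_mul_le' _ _).trans (mul_le_of_le_one_right (norm_nonneg _)
      ((CStarAlgebra.norm_le_one_iff_of_nonneg _ c0).2 c1))
  have := H (a₀ + (1 - a₀) * (R⁻¹ • a) * (1 - a₀)) (add_nonneg a1 (cs.conjugate_nonneg b0))
    (by
      have := cs.conjugate_le_conjugate b1
      rw [mul_one] at this
      exact le_sub_iff_add_le'.1 (this.trans (sq_le_self c0 c1))) (by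
      rw [map_add, Complex.add_re, mul_smul_comm, smul_mul_assoc, LinearMap.map_smul_of_tower,
        Complex.smul_re, smul_eq_mul]
      have : R⁻¹ * (T.τ ((1 - a₀) * a * (1 - a₀))).re ≤ δ / 2 := by
        rw [inv_mul_le_iff₀ h]; linarith
      linarith [min_le_right δ₀ (δ / 2)])
  rw [map_add, mul_smul_comm, smul_mul_assoc, map_smul, smul_eq_mul] at this
  have h2 : R⁻¹ * g ((1 - a₀) * a * (1 - a₀)) ≤ η := by linarith
  rwa [inv_mul_le_iff₀ h, mul_comm] at h2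

lemma cut_adm {B : Fm A} {C η δ : ℝ} (hC : 0 ≤ C)
    (l1 : ∀ z₁ z₂ x, ‖B (z₁ * z₂) x‖ ≤ C * (‖T.J z₁‖ * ‖T.J z₂‖ * ‖x‖)) {g : A →ₗ[ℝ] ℝ}
    (hg : ∀ a, 0 ≤ a → 0 ≤ g a)
    (dom : ∀ z x, ‖B z x‖ ≤ ‖T.J z‖ * √(g (star x * x) + g (x * star x))) {c : A} (c0 : 0 ≤ c)
    (c1 : c ≤ 1) (H : ∀ (a : A) (R : ℝ), 0 ≤ a → ‖a‖ ≤ R → (T.τ a).re ≤ δ * R →
      g (c * a * c) ≤ η * R) : Adm T (B.pre (lr c c) (lr c c)) C (2 * η) δ := by
  have cs : IsSelfAdjoint c := .of_nonneg c0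
  have nc : ‖c‖ ≤ 1 := (CStarAlgebra.norm_le_one_iff_of_nonneg _ c0).2 c1
  have j1 : ∀ z, ‖T.J (c * z)‖ ≤ ‖T.J z‖ := fun z =>
    (T.J_mul_le _ _).trans (mul_le_of_le_one_left (norm_nonneg _) nc)
  have j2 : ∀ z, ‖T.J (z * c)‖ ≤ ‖T.J z‖ := fun z =>
    (T.J_mul_le' _ _).trans (mul_le_of_le_one_right (norm_nonneg _) nc)
  have mono : ∀ {a b}, a ≤ b → g a ≤ g b := fun {a b} h => by
    have := hg _ (sub_nonneg.2 h); rw [map_sub] at this; linarith
  have cc : c * c ≤ 1 := (sq_le_self c0 c1).trans c1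
  refine ⟨fun z₁ z₂ x => ?_, fun κ _ z x R h1 h2 h3 => ?_⟩
  · have := l1 (c * z₁) (z₂ * c) (c * x * c)
    simp only [Fm.pre_apply, lr_apply, ← mul_assoc c] at this ⊢
    rw [← mul_assoc] at this
    refine this.trans ?_
    gcongr
    · exact j1 _
    · exact j2 _
    · exact (norm_mul_le _ _).trans ((mul_le_of_le_one_right (norm_nonneg _) nc).trans
        ((norm_mul_le _ _).trans (mul_le_of_le_one_left (norm_nonneg _) nc)))
  · have h4 := (norm_sum_le _ _).trans (sum_le_sum fun i (_ : i ∈ univ) =>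
      dom (c * z i * c) (c * x i * c))
    refine (pow_le_pow_left₀ (norm_nonneg _) h4 2).trans ((sum_mul_sq_le_sq_mul_sq _ _ _).trans ?_)
    rw [mul_comm]
    have k1 := H _ R (sum_nonneg fun i _ => star_mul_self_nonneg (x i)) h1 (by
      simpa only [map_sum, Complex.re_sum, ← T.norm_J_sq] using h3)
    have k2 := H _ R (sum_nonneg fun i _ => mul_star_self_nonneg (x i)) h2 (by
      simpa only [map_sum, Complex.re_sum, T.tr (x _), ← T.norm_J_sq] using h3)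
    refine mul_le_mul ?_ (sum_le_sum fun i _ => ?_) (by positivity) ?_
    · simp only [mul_sum, sum_mul, map_sum] at k1 k2
      refine le_trans (sum_le_sum (g := fun i => g (c * (star (x i) * x i) * c) +
        g (c * (x i * star (x i)) * c)) fun i _ => ?_) (by rw [sum_add_distrib]; linarith)
      rw [Real.sq_sqrt (add_nonneg (hg _ (star_mul_self_nonneg _)) (hg _ (mul_star_self_nonneg _)))]
      refine add_le_add (mono ?_) (mono ?_)
      · simpa [cs.star_eq, mul_assoc] using star_left_conjugate_le_conjugate cc (x i * c)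
      · simpa [cs.star_eq, mul_assoc] using star_right_conjugate_le_conjugate cc (c * x i)
    · gcongr; exact (j2 _).trans (j1 _)
    · have := hg _ (cs.conjugate_nonneg (sum_nonneg fun i (_ : i ∈ univ) =>
        star_mul_self_nonneg (x i)))
      linarith

lemma exists_bd (T : Tr A) {a : A} (ha : 0 ≤ a) {κ : ℝ} (hκ : 0 < κ) : ∃ b d : A,
    IsSelfAdjoint b ∧ IsSelfAdjoint d ∧ b * d = d * b ∧ b * b + d * d = 1 ∧
    ‖T.J (b - 1)‖ ^ 2 ≤ (T.τ a).re / κ ^ 2 ∧ ‖T.J d‖ ^ 2 ≤ 2 * ((T.τ a).re / κ ^ 2) ∧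
    ∀ a', 0 ≤ a' → a' ≤ 1 → a' ≤ a → ‖a' * b‖ ≤ κ := by
  let f : ℝ → ℝ := fun r => κ ^ 2 / (κ ^ 2 + |r|)
  have hf : Continuous f := by
    refine continuous_const.div (by fun_prop) fun r => by positivity
  have f0 : ∀ r, 0 ≤ f r := fun r => by positivity
  have f1 : ∀ r, f r ≤ 1 := fun r => div_le_one_of_le₀ (by simp) (by positivity)
  have f2 : ∀ r, 0 ≤ r → 1 - f r ≤ (κ ^ 2)⁻¹ * r := fun r hr => by
    simp only [f, abs_of_nonneg hr]
    rw [one_sub_div (by positivity), add_sub_cancel_left, inv_mul_eq_div]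
    gcongr; linarith
  have f3 : ∀ r, 0 ≤ 1 - f r * f r := fun r => by nlinarith [f0 r, f1 r]
  have hs : IsSelfAdjoint a := .of_nonneg ha
  have hsp : ∀ t ∈ spectrum ℝ a, 0 ≤ t := fun t ht => spectrum_nonneg_of_nonneg ha ht
  have key : ∀ (h : ℝ → ℝ) (c : ℝ), Continuous h → (∀ r, 0 ≤ r → h r * h r ≤ c * ((κ ^ 2)⁻¹ * r)) →
      ‖T.J (cfc h a)‖ ^ 2 ≤ c * ((T.τ a).re / κ ^ 2) := fun h c hh H => by
    rw [T.norm_J_sq, (cfc_predicate h a : IsSelfAdjoint _).star_eq,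
      ← cfc_mul _ _ a (by fun_prop) (by fun_prop)]
    have : cfc (fun r => h r * h r) a ≤ (c * (κ ^ 2)⁻¹) • a := by
      conv_rhs => rw [← cfc_id' ℝ a, ← cfc_smul _ _ a (by fun_prop)]
      exact cfc_mono fun t ht => by simpa [mul_assoc] using H t (hsp t ht)
    refine (τ_mono T this).trans (le_of_eq ?_)
    rw [LinearMap.map_smul_of_tower, Complex.smul_re, smul_eq_mul]; ring
  refine ⟨cfc f a, cfc (fun r => √(1 - f r * f r)) a, cfc_predicate _ _, cfc_predicate _ _,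
    (cfc_commute_cfc _ _ a).eq, ?_, ?_, ?_, fun a' h0 h1 h2 => ?_⟩
  · rw [← cfc_mul _ _ a (by fun_prop) (by fun_prop), ← cfc_mul _ _ a (by fun_prop) (by fun_prop),
      ← cfc_add a _ _ (by fun_prop) (by fun_prop), ← cfc_const_one ℝ a]
    congr 1; funext r
    rw [Real.mul_self_sqrt (f3 r)]; ring
  · have := key (fun r => f r - 1) 1 (by fun_prop) fun r hr => by nlinarith [f0 r, f1 r, f2 r hr]
    rwa [cfc_sub _ _ a (by fun_prop) (by fun_prop), cfc_const_one ℝ a, one_mul] at this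
  · exact key _ 2 (by fun_prop) fun r hr => by
      rw [Real.mul_self_sqrt (f3 r)]; nlinarith [f0 r, f1 r, f2 r hr]
  · have sb : IsSelfAdjoint (cfc f a) := cfc_predicate _ _
    refine abs_le_of_sq_le_sq' ?_ hκ.le |>.2
    rw [sq, ← CStarRing.norm_star_mul_self]
    refine (CStarAlgebra.norm_le_norm_of_nonneg_of_le (star_mul_self_nonneg _)
      (b := cfc f a * a * cfc f a) ?_).trans ?_
    · simpa [sb.star_eq, (IsSelfAdjoint.of_nonneg h0).star_eq, mul_assoc] using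
        sb.conjugate_le_conjugate ((sq_le_self h0 h1).trans h2)
    · rw [cfc_sand hs hf]
      refine norm_cfc_le (by positivity) fun t ht => ?_
      have h3 := hsp t ht
      have h4 : f t * t ≤ κ ^ 2 := by
        simp only [f, abs_of_nonneg h3]
        rw [div_mul_eq_mul_div, div_le_iff₀ (by positivity)]; nlinarith [sq_nonneg (κ ^ 2)]
      rw [Real.norm_of_nonneg (by have := f0 t; positivity)]
      nlinarith [f0 t, f1 t, mul_nonneg (f0 t) h3]

end Crest.Agent.H1KR
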