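import Crest.Agent.H1KR.C10

/-! Kadison–Ringrose, tracial part 11: the theorem `TrMean`. -/

set_option autoImplicit false
set_option maxHeartbeats 400000
open scoped InnerProductSpace ComplexConjugate
open Finset Function Filter Topology Crest.Agent.H1VN Crest.Agent.H2.KS

noncomputable section
namespace Crest.Agent.H1KR

variable {A : Type*} [CStarAlgebra A] {T : Tr A}

/-- The unitaries `b ± i d`. -/
def sg (b d : A) (i : Bool) : A := b + (if i then Complex.I else -Complex.I) • d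

lemma sg_unit {b d : A} (hb : IsSelfAdjoint b) (hd : IsSelfAdjoint d) (h1 : b * d = d * b)
    (h2 : b * b + d * d = 1) (i : Bool) : sg b d i ∈ unitary A := by
  cases i <;> constructor <;>
  · simp only [sg, star_add, star_smul, hb.star_eq, hd.star_eq, mul_add, add_mul, smul_mul_assoc,
      mul_smul_comm, smul_smul, h1, ← h2, if_true, Bool.false_eq_true, if_false, RCLike.star_def,
      map_neg, Complex.conj_I, smul_add]
    match_scalars <;> simp

lemma sg_avg (B : Fm A) (b d u s : A) :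
    (Fintype.card (Bool × Bool) : ℂ)⁻¹ * ∑ i : Bool × Bool,
      B (sg b d i.1 * u * sg b d i.2 * s) (sg b d i.1 * u * sg b d i.2 * s) =
    B (b * u * b * s) (b * u * b * s) + (B (b * u * d * s) (b * u * d * s) +
      B (d * u * b * s) (d * u * b * s) + B (d * u * d * s) (d * u * d * s)) := by
  simp only [sg, Fintype.sum_prod_type, Fintype.sum_bool, mul_add, add_mul, smul_mul_assoc,
    mul_smul_comm, map_add, LinearMap.add_apply, map_smulₛₗ, LinearMap.smul_apply, RingHom.id_apply,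
    smul_eq_mul, if_true, Bool.false_eq_true, if_false, map_neg, Complex.conj_I, Fintype.card_prod,
    Fintype.card_bool]
  push_cast
  have h := Complex.I_mul_I
  grind

lemma est {B : Fm A} {C η δ κ κ' : ℝ} (hC : 0 ≤ C) (hκ : 0 ≤ κ)
    (l2 : ∀ z x, ‖B z x‖ ≤ C * (‖T.J z‖ * ‖x‖)) {a₀ b d u s : A}
    (hA : Adm T (B.pre (lr (1 - a₀) (1 - a₀)) (lr (1 - a₀) (1 - a₀))) C η δ) (nc : ‖1 - a₀‖ ≤ 1)
    (nb : ‖b‖ ≤ 1) (nd : ‖d‖ ≤ 1) (jb : ‖T.J (b - 1)‖ ≤ κ) (jd : ‖T.J d‖ ≤ κ) (hδ : κ ^ 2 ≤ δ)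
    (h1 : ‖a₀ * b‖ ≤ κ') (h2 : ‖b * s * a₀‖ ≤ κ') (hu : u ∈ unitary A) (hs : s ∈ unitary A) :
    ‖(Fintype.card (Bool × Bool) : ℂ)⁻¹ * ∑ i : Bool × Bool,
      B (sg b d i.1 * u * sg b d i.2 * s) (sg b d i.1 * u * sg b d i.2 * s) -
      B.pre (lr (1 - a₀) (1 - a₀)) (lr (1 - a₀) (1 - a₀)) (u * s) (u * s)‖ ≤
      5 * C * κ + 4 * C * κ' + 2 * √η := by
  have nm : ∀ {x y : A}, ‖x‖ ≤ 1 → ‖y‖ ≤ 1 → ‖x * y‖ ≤ 1 := fun hx hy =>
    (norm_mul_le _ _).trans (mul_le_one₀ hx (norm_nonneg _) hy)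
  have nl : ∀ {x y : A} {r : ℝ}, ‖x‖ ≤ r → ‖y‖ ≤ 1 → ‖x * y‖ ≤ r := fun hx hy =>
    (norm_mul_le _ _).trans ((mul_le_of_le_one_right (norm_nonneg _) hy).trans hx)
  have nr : ∀ {x y : A} {r : ℝ}, ‖x‖ ≤ 1 → ‖y‖ ≤ r → ‖x * y‖ ≤ r := fun hx hy =>
    (norm_mul_le _ _).trans ((mul_le_of_le_one_left (norm_nonneg _) hx).trans hy)
  have jl : ∀ {x y : A} {r : ℝ}, ‖T.J x‖ ≤ r → ‖y‖ ≤ 1 → ‖T.J (x * y)‖ ≤ r := fun hx hy =>
    (T.J_mul_le' _ _).trans ((mul_le_of_le_one_right (norm_nonneg _) hy).trans hx)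
  have jr : ∀ {x y : A} {r : ℝ}, ‖x‖ ≤ 1 → ‖T.J y‖ ≤ r → ‖T.J (x * y)‖ ≤ r := fun hx hy =>
    (T.J_mul_le _ _).trans ((mul_le_of_le_one_left (norm_nonneg _) hx).trans hy)
  have l3 : ∀ {B : Fm A}, (∀ z x, ‖B z x‖ ≤ C * (‖T.J z‖ * ‖x‖)) → ∀ {z x : A} {p q : ℝ},
      ‖T.J z‖ ≤ p → ‖x‖ ≤ q → ‖B z x‖ ≤ C * (p * q) := fun h z x p q hz hx => by
    have := (norm_nonneg _).trans hz
    exact (h z x).trans (by gcongr)
  have nu := nle hu
  have ns := nle hs
  have nw := nm (nm (nm nb nu) nb) ns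
  have t1 := l3 l2 (jl (jr (nm nb nu) jd) ns) (nm (nm (nm nb nu) nd) ns)
  have t2 := l3 l2 (jl (jl (jl jd nu) nb) ns) (nm (nm (nm nd nu) nb) ns)
  have t3 := l3 l2 (jl (jl (jl jd nu) nd) ns) (nm (nm (nm nd nu) nd) ns)
  have t4 : ‖b * u * b * s - (1 - a₀) * (b * u * b * s) * (1 - a₀)‖ ≤ κ' + κ' := by
    have : b * u * b * s - (1 - a₀) * (b * u * b * s) * (1 - a₀) =
        a₀ * b * u * b * s + (1 - a₀) * (b * u * (b * s * a₀)) := by noncomm_ring
    rw [this]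
    exact (norm_add_le _ _).trans (add_le_add (nl (nl (nl h1 nu) nb) ns) (nr nc (nr (nm nb nu) h2)))
  have t5 : ‖T.J (b * u * b * s - u * s)‖ ≤ κ + κ := by
    have : b * u * b * s - u * s = (b - 1) * u * b * s + u * (b - 1) * s := by noncomm_ring
    rw [this, map_add]
    exact (norm_add_le _ _).trans (add_le_add (jl (jl (jl jb nu) nb) ns) (jl (jr nu jb) ns))
  have t6 : ‖b * u * b * s - u * s‖ ≤ 2 :=
    (norm_sub_le _ _).trans (by linarith [nm nu ns])
  have t7 := l3 l2 ((T.J_le _).trans t4) nw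
  have t8 := l3 l2 ((T.J_le _).trans (nm (nm nc nw) nc)) t4
  have t9 := l3 hA.l2 t5 nw
  have t10 := hA.ac Unit (fun _ => u * s) (fun _ => b * u * b * s - u * s) 4
    (by rw [Fintype.sum_unique, CStarRing.norm_star_mul_self]; nlinarith [norm_nonneg (b * u * b * s - u * s)])
    (by rw [Fintype.sum_unique, CStarRing.norm_self_mul_star]; nlinarith [norm_nonneg (b * u * b * s - u * s)])
    (by rw [Fintype.sum_unique]; nlinarith [norm_nonneg (T.J (b * u * b * s - u * s))])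
  have t11 : ‖T.J (u * s)‖ = 1 := by simpa [T.norm_J_one] using T.J_unit_mul (mul_mem hu hs) 1
  rw [Fintype.sum_unique, Fintype.sum_unique, t11] at t10
  have t12 := Real.le_sqrt_of_sq_le (t10.trans_eq (show _ = 2 ^ 2 * η by ring))
  rw [Real.sqrt_mul (by norm_num), Real.sqrt_sq (by norm_num)] at t12
  rw [sg_avg]
  simp only [map_sub, LinearMap.sub_apply] at t7 t8 t9 t12
  simp only [Fm.pre_apply, lr_apply] at t9 t12 ⊢
  have t13 := norm_add₃_le.trans (add_le_add (add_le_add t1 t2) t3)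
  have t14 := (norm_add_le _ _).trans (add_le_add ((norm_add_le _ _).trans (add_le_add t7 t8))
    ((norm_add_le _ _).trans (add_le_add t9 t12)))
  refine le_trans (le_of_eq (congrArg norm ?_)) (((norm_add_le _ _).trans
    (add_le_add t14 t13)).trans (le_of_eq (by ring)))
  ring

theorem fin_mean (T : Tr A) (hE : Ext A) {X Z : A} (hP : Pauli X Z)
    (S : Finset ((A →L[ℂ] A) × A × unitary A)) {ε : ℝ} (hε : 0 < ε) : ∃ μ, IsMean μ ∧ ∀ c ∈ S,
      ‖ev μ (dg (rt (Bf T c.1 c.2.1) (c.2.2 * X * star c.2.2.1))) - ev μ (dg (Bf T c.1 c.2.1))‖ ≤ ε := by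
  let := CStarAlgebra.spectralOrder A
  have := CStarAlgebra.spectralOrderedRing A
  set C := 1 + ∑ c ∈ S, ‖c.1‖ * ‖c.2.1‖ with hC'
  have hC : 1 ≤ C := le_add_of_nonneg_right (by positivity)
  have hC0 : 0 < C := by linarith
  have l1 : ∀ c ∈ S, ∀ z₁ z₂ x, ‖Bf T c.1 c.2.1 (z₁ * z₂) x‖ ≤
      C * (‖T.J z₁‖ * ‖T.J z₂‖ * ‖x‖) := fun c hc z₁ z₂ x => by
    refine (Bf_l1 _ _ _ _ _).trans ?_
    have := single_le_sum (f := fun c : (A →L[ℂ] A) × A × unitary A => ‖c.1‖ * ‖c.2.1‖)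
      (fun c _ => by positivity) hc
    gcongr; linarith
  choose g g0 g1 using fun c : (A →L[ℂ] A) × A × unitary A =>
    groth (T.J ∘L (ContinuousLinearMap.mul ℂ A).flip c.2.1 ∘L c.1)
  have G0 : ∀ a, 0 ≤ a → 0 ≤ (∑ c ∈ S, g c) a := fun a ha => by
    rw [LinearMap.sum_apply]; exact sum_nonneg fun c _ => g0 c a ha
  have G1 : ∀ c ∈ S, ∀ a, 0 ≤ a → g c a ≤ (∑ c ∈ S, g c) a := fun c hc a ha => by
    rw [LinearMap.sum_apply]; exact single_le_sum (fun c _ => g0 c a ha) hc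
  have dom : ∀ c ∈ S, ∀ z x, ‖Bf T c.1 c.2.1 z x‖ ≤ ‖T.J z‖ *
      √((∑ c ∈ S, g c) (star x * x) + (∑ c ∈ S, g c) (x * star x)) := fun c hc z x => by
    rw [Bf_apply]
    refine (norm_τ_star_mul _ _).trans (mul_le_mul_of_nonneg_left (Real.le_sqrt_of_sq_le
      ((g1 c x).trans (add_le_add (G1 c hc _ (star_mul_self_nonneg _))
        (G1 c hc _ (mul_star_self_nonneg _))))) (norm_nonneg _))
  obtain ⟨η, hη, H⟩ := core T hE hP hC (ε := ε / 3) (by positivity) S.card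
  set η' := min η ((ε / 12) ^ 2) with hη'
  have η0 : 0 < η' := by positivity
  obtain ⟨δ₁, hδ₁, H1⟩ := cut T _ G0 (η := η' / 2) (by positivity)
  set δ := min δ₁ η with hδ'
  have δ0 : 0 < δ := by positivity
  set κ' := ε / (54 * C) with hκ'
  have κ0' : 0 < κ' := by positivity
  set κ := min κ' √δ with hκ
  have κ0 : 0 < κ := by positivity
  obtain ⟨a₀, a0, a1, a2, H2⟩ := H1 (κ ^ 2 / 2 * κ' ^ 2 / (S.card + 1)) (by positivity)
  have hs : ∀ c : (A →L[ℂ] A) × A × unitary A, c.2.2 * X * star c.2.2.1 ∈ unitary A :=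
    fun c => conj_unit c.2.2.2 hP.uX
  have p0 : ∀ s : A, 0 ≤ s * a₀ * star s := fun s => star_right_conjugate_nonneg a0 s
  set a := a₀ + ∑ c ∈ S, (c.2.2 * X * star c.2.2.1) * a₀ * star (c.2.2 * X * star c.2.2.1) with ha
  have a3 : (T.τ a).re / κ' ^ 2 ≤ κ ^ 2 / 2 := by
    rw [div_le_iff₀ (by positivity)]
    rw [le_div_iff₀ (by positivity)] at a2
    simp only [ha, map_add, map_sum, τ_conj T (hs _), sum_const, nsmul_eq_mul, Complex.add_re,
      Complex.mul_re, Complex.natCast_re, Complex.natCast_im]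
    linarith
  obtain ⟨b, d, hb, hd, bd, bd1, jb, jd, H3⟩ :=
    exists_bd T (a := a) (add_nonneg a0 (sum_nonneg fun c _ => p0 _)) κ0'
  have jb' : ‖T.J (b - 1)‖ ≤ κ := (abs_le_of_sq_le_sq' (by nlinarith) κ0.le).2
  have jd' : ‖T.J d‖ ≤ κ := (abs_le_of_sq_le_sq' (by nlinarith) κ0.le).2
  have nb : ∀ {b d : A}, IsSelfAdjoint b → IsSelfAdjoint d → b * b + d * d = 1 → ‖b‖ ≤ 1 :=
    fun {b d} hb hd h => by
      have := (CStarAlgebra.norm_le_one_iff_of_nonneg _ hb.mul_self_nonneg).2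
        (h ▸ le_add_of_nonneg_right hd.mul_self_nonneg)
      rw [hb.norm_mul_self] at this
      exact (abs_le_of_sq_le_sq' (by linarith) zero_le_one).2
  have c0 := sub_nonneg.2 a1
  have c1 : 1 - a₀ ≤ 1 := sub_le_self _ a0
  have hA : ∀ c ∈ S, Adm T ((Bf T c.1 c.2.1).pre (lr (1 - a₀) (1 - a₀)) (lr (1 - a₀) (1 - a₀)))
      C η' δ := fun c hc =>
    (cut_adm hC0.le (l1 c hc) G0 (dom c hc) c0 c1 H2).mono (by linarith) (min_le_left _ _)
  obtain ⟨Λ, ⟨μ, hμ, hΛ⟩, H4⟩ := H δ δ0 (min_le_right _ _) (S.toList.map fun c => c.2.2)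
    (by simp) (List.forall_mem_map.2 fun c _ => c.2.2.2)
  obtain ⟨ν, hν, hν'⟩ := Rep.avg fun i : Bool × Bool => Rep.map ⟨μ, hμ, fun _ => rfl⟩
    (f := fun u => sg b d i.1 * u * sg b d i.2) fun u hu =>
      mul_mem (mul_mem (sg_unit hb hd bd bd1 _) hu) (sg_unit hb hd bd bd1 _)
  refine ⟨ν, hν, fun c hc => ?_⟩
  have key : ∀ s ∈ unitary A, s * a₀ * star s ≤ a → ‖ev ν (dg (rt (Bf T c.1 c.2.1) s)) - ev μ
      (dg (rt ((Bf T c.1 c.2.1).pre (lr (1 - a₀) (1 - a₀)) (lr (1 - a₀) (1 - a₀))) s))‖ ≤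
      ε / 3 := fun s hs hs' => by
    rw [hν']
    change ‖_ * ∑ i, evL μ _ - evL μ _‖ ≤ _
    rw [← map_sum, ← smul_eq_mul, ← map_smul, ← map_sub]
    refine ev_le hμ fun u hu => ?_
    have k1 := H3 _ (p0 s) (by simpa [hs.2] using star_right_conjugate_le_conjugate a1 s) hs'
    rw [← norm_star, star_mul, hb.star_eq, (IsSelfAdjoint.of_nonneg (p0 s)).star_eq, ← mul_assoc,
      CStarRing.norm_mul_mem_unitary _ (Unitary.star_mem hs), ← mul_assoc] at k1
    have := est hC0.le κ0.le (fun z x => by simpa [T.norm_J_one] using l1 c hc z 1 x) (hA c hc)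
      ((CStarAlgebra.norm_le_one_iff_of_nonneg _ c0).2 c1) (nb hb hd bd1)
      (nb hd hb (add_comm (b * b) _ ▸ bd1)) jb' jd'
      ((Real.le_sqrt κ0.le δ0.le).1 (min_le_right _ _))
      (H3 _ a0 a1 (le_add_of_nonneg_right (sum_nonneg fun c _ => p0 _))) k1 hu hs
    simp only [Pi.sub_apply, Pi.smul_apply, Finset.sum_apply, comp_apply, smul_eq_mul, dg, rt,
      Fm.pre_apply, lr_apply, one_mul] at this ⊢
    refine this.trans ?_
    have k2 : √η' ≤ ε / 12 := Real.sqrt_le_iff.2 ⟨by positivity, min_le_right _ _⟩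
    have k3 : C * κ ≤ C * κ' := by gcongr; exact min_le_left _ _
    have k4 : C * κ' = ε / 54 := by rw [hκ']; field_simp
    linarith
  have k1 := key _ (hs c) (le_add_of_nonneg_of_le a0 (single_le_sum (f := fun c :
    (A →L[ℂ] A) × A × unitary A => (c.2.2 * X * star c.2.2.1) * a₀ * star (c.2.2 * X * star c.2.2.1))
    (fun c _ => p0 _) hc))
  have k2 := key 1 (one_mem _) (by
    rw [one_mul, star_one, mul_one]; exact le_add_of_nonneg_right (sum_nonneg fun c _ => p0 _))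
  have k3 := H4 _ ((hA c hc).mono (min_le_left _ _) le_rfl) c.2.2
    (List.mem_map.2 ⟨c, mem_toList.2 hc, rfl⟩)
  have e : ∀ B : Fm A, dg (rt B 1) = dg B := fun B => by funext u; simp [dg, rt]
  rw [e, e, norm_sub_rev] at k2
  rw [← hΛ, ← hΛ] at k3
  have := (norm_sub_le_norm_sub_add_norm_sub _ _ _).trans (add_le_add k1
    ((norm_sub_le_norm_sub_add_norm_sub _ _ _).trans (add_le_add k3 k2)))
  linarith

theorem trMean (A : Type*) [CStarAlgebra A] : TrMean A := fun T hE => by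
  obtain ⟨X, Z, hP, -⟩ := hE Unit (fun _ _ => 1) ⟨by simp, by simp, by simp⟩
  obtain ⟨l, hl, h1, h2⟩ := exists_filter IsMean (fun (c : (A →L[ℂ] A) × A × unitary A) μ =>
    ‖ev μ (dg (rt (Bf T c.1 c.2.1) (c.2.2 * X * star c.2.2.1))) - ev μ (dg (Bf T c.1 c.2.1))‖)
    (fun _ _ => norm_nonneg _) fun S ε hε => fin_mean T hE hP S hε
  refine ⟨l, hl, h1, fun φ y a => ?_⟩
  simp only [ev_τ]
  let G : (A →L[ℂ] A) → A → A → A → ℂ := fun φ y a u =>
    T.τ (y * (star u * φ (u * a) - a * (star u * φ u)))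
  let P : A → ℝ → Prop := fun a _ => ∀ φ y, Tendsto (fun μ => evL μ (G φ y a)) l (𝓝 0)
  have sm : ∀ (c : ℂ) a r, P a r → P (c • a) (‖c‖ * r) := fun c a r ha φ y => by
    have e : G φ y (c • a) = c • G φ y a := by funext u; simp [G, mul_sub]
    simpa [e] using (ha φ y).const_mul c
  have key := gen (N := ⊤) isClosed_univ hP trivial trivial P (fun a r b s ha hb φ y => by
      have e : G φ y (a + b) = G φ y a + G φ y b := by
        funext u; simp only [G, mul_add, add_mul, mul_sub, map_add, map_sub, Pi.add_apply]; ring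
      simpa [e] using (ha φ y).add (hb φ y)) sm
    (fun a r b s _ _ ha hb φ y => by
      have e : G φ y (a * b) = G (φ ∘L (ContinuousLinearMap.mul ℂ A).flip b) y a +
          G φ (y * a) b := by
        funext u; simp [G, mul_sub, mul_assoc]
      simpa [e] using (ha _ y).add (hb φ _))
    (fun _ _ _ _ h => h) (fun φ y => by
      have e : G φ y 1 = 0 := by funext u; simp [G]
      simp [e])
    (fun t ht _ φ y => by
      have hs := conj_unit ht hP.uX
      have e : G φ y (t * X * star t) = dg (rt (Bf T φ (y * (t * X * star t))) (t * X * star t)) -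
          dg (Bf T φ (y * (t * X * star t))) := by
        generalize t * X * star t = s at hs
        funext u
        simp only [G, dg, rt, Fm.pre_apply, lr_apply, one_mul, Bf_apply, Pi.sub_apply, mul_sub,
          map_sub, star_mul]
        rw [← mul_assoc (star s * star u), ← mul_assoc (star u), T.tr _ (y * s), T.tr _ (y * s)]
        simp only [mul_assoc, u2 hs]
      simp only [e, map_sub]
      exact tendsto_zero_iff_norm_tendsto_zero.2 (h2 (φ, y * (t * X * star t), ⟨t, ht⟩)))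
  have h0 : (0 : ℝ) < ‖a‖ + 1 := by positivity
  have := sm ((‖a‖ + 1 : ℝ) : ℂ) _ 48 (key (((‖a‖ + 1 : ℝ) : ℂ)⁻¹ • a) trivial (by
    rw [norm_smul, norm_inv, Complex.norm_real, Real.norm_of_nonneg h0.le, inv_mul_le_iff₀ h0]
    linarith)) φ y
  rwa [smul_smul, mul_inv_cancel₀ (by exact_mod_cast h0.ne'), one_smul] at this

end Crest.Agent.H1KR
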