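import Crest.Agent.H1KR.C1

/-! Kadison–Ringrose, tracial part 2: the crossing estimate. -/

set_option autoImplicit false
set_option maxHeartbeats 400000
open scoped InnerProductSpace ComplexConjugate
open Finset Crest.Agent.H1VN Crest.Agent.H2.KS

noncomputable section
namespace Crest.Agent.H1KR

variable {A : Type*} [CStarAlgebra A] [PartialOrder A] [StarOrderedRing A] {T : Tr A}

lemma τ_nonneg (T : Tr A) {a : A} (h : 0 ≤ a) : 0 ≤ (T.τ a).re := by
  obtain ⟨b, rfl⟩ := CStarAlgebra.nonneg_iff_eq_star_mul_self.1 h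
  exact T.pos b

lemma τ_mono (T : Tr A) {a b : A} (h : a ≤ b) : (T.τ a).re ≤ (T.τ b).re := by
  have := τ_nonneg T (sub_nonneg.2 h)
  rw [map_sub, Complex.sub_re] at this
  linarith

lemma cfc_sand {h : A} (hh : IsSelfAdjoint h) {f : ℝ → ℝ} (hf : Continuous f) :
    cfc f h * h * cfc f h = cfc (fun t => f t * t * f t) h := by
  rw [cfc_mul _ _ h (by fun_prop) (by fun_prop), cfc_mul _ _ h (by fun_prop) (by fun_prop),
    cfc_id' ℝ h]

lemma split_el (T : Tr A) (w : A) {l : ℝ} (hl : 0 < l) : ∃ v : A, ‖w - v‖ ≤ l ∧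
    star v * v ≤ star w * w ∧ v * star v ≤ w * star w ∧
    ‖T.J v‖ ^ 2 ≤ ‖T.J (star w * w)‖ ^ 2 / l ^ 2 := by
  set h := star w * w with hh
  have h0 : 0 ≤ h := star_mul_self_nonneg w
  have hs : IsSelfAdjoint h := .of_nonneg h0
  have hsp : ∀ t ∈ spectrum ℝ h, 0 ≤ t := fun t ht => spectrum_nonneg_of_nonneg h0 ht
  let f : ℝ → ℝ := fun t => min 1 (t / l ^ 2)
  have hf : Continuous f := by fun_prop
  have hf0 : ∀ t, 0 ≤ t → 0 ≤ f t := fun t ht => le_min zero_le_one (by positivity)
  have hf1 : ∀ t, f t ≤ 1 := fun t => min_le_left _ _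
  have hf2 : ∀ t, f t ≤ t / l ^ 2 := fun t => min_le_right _ _
  have sφ : star (cfc f h) = cfc f h := (cfc_predicate f h : IsSelfAdjoint _).star_eq
  have e1 : star (w * cfc f h) * (w * cfc f h) = cfc (fun t => f t * t * f t) h := by
    rw [← cfc_sand hs hf, star_mul, sφ, hh]; simp only [mul_assoc]
  refine ⟨w * cfc f h, ?_, ?_, ?_, ?_⟩
  · have e : w - w * cfc f h = w * cfc (fun t => 1 - f t) h := by
      rw [cfc_sub _ _ h (by fun_prop) (by fun_prop), cfc_const_one ℝ h, mul_sub, mul_one]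
    have sψ : star (cfc (fun t => 1 - f t) h) = cfc (fun t => 1 - f t) h :=
      (cfc_predicate _ h : IsSelfAdjoint _).star_eq
    have e2 : star (w * cfc (fun t => 1 - f t) h) * (w * cfc (fun t => 1 - f t) h) =
        cfc (fun t => (1 - f t) * t * (1 - f t)) h := by
      rw [← cfc_sand hs (by fun_prop), star_mul, sψ, hh]; simp only [mul_assoc]
    rw [e]
    refine abs_le_of_sq_le_sq' ?_ hl.le |>.2
    rw [sq, ← CStarRing.norm_star_mul_self, e2]
    refine norm_cfc_le (by positivity) fun t ht => ?_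
    have h1 := hsp t ht
    have h2 := hf0 t h1
    have h3 := hf1 t
    rw [Real.norm_of_nonneg (by have := sub_nonneg.2 h3; positivity)]
    rcases le_total t (l ^ 2) with h4 | h4
    · have : (1 - f t) * (1 - f t) ≤ 1 := by nlinarith
      nlinarith
    · have : f t = 1 := min_eq_left (by rw [le_div_iff₀ (by positivity)]; linarith)
      rw [this]; simp; positivity
  · rw [e1]
    conv_rhs => rw [← cfc_id' ℝ h]
    refine cfc_mono fun t ht => ?_
    have h1 := hsp t ht
    have h2 := hf0 t h1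
    have h3 := hf1 t
    have : f t * f t ≤ 1 := by nlinarith
    nlinarith
  · have : cfc f h * cfc f h ≤ 1 := by
      rw [← cfc_mul _ _ h (by fun_prop) (by fun_prop), ← cfc_const_one ℝ h]
      refine cfc_mono fun t ht => ?_
      have h2 := hf0 t (hsp t ht)
      have h3 := hf1 t
      nlinarith
    have := star_right_conjugate_le_conjugate this w
    rw [star_mul, sφ]
    simpa only [mul_assoc, one_mul] using this
  · rw [T.norm_J_sq, T.norm_J_sq, e1, hs.star_eq]
    have : cfc (fun t => f t * t * f t) h ≤ (1 / l ^ 2 : ℝ) • (h * h) := by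
      conv_rhs => rw [← cfc_id' ℝ h, ← cfc_mul _ _ h (by fun_prop) (by fun_prop),
        ← cfc_smul _ _ h (by fun_prop)]
      refine cfc_mono fun t ht => ?_
      have h1 := hsp t ht
      have h2 := hf0 t h1
      have h3 := hf1 t
      have h4 := hf2 t
      have : f t * f t ≤ t / l ^ 2 := by nlinarith
      calc f t * t * f t = f t * f t * t := by ring
        _ ≤ t / l ^ 2 * t := mul_le_mul_of_nonneg_right this h1
        _ = _ := by simp; ring
    refine (τ_mono T this).trans (le_of_eq ?_)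
    rw [← Complex.coe_smul, map_smul, smul_eq_mul, Complex.re_ofReal_mul]; ring

variable {ι : Type} [Fintype ι] [DecidableEq ι] {e : ι → ι → A}

variable (e) in
/-- Matrix entries with respect to matrix units. -/
def ent (w : A) (b s : ι) : A := ∑ c, e c b * w * e s c

omit [PartialOrder A] [StarOrderedRing A] in
lemma MU.sand (h : MU e) (w : A) (a b s t : ι) : e a b * w * e s t = e a t * ent e w b s := by
  simp only [ent, mul_sum, mul_assoc, h.mul']
  rw [sum_eq_single t] <;> simp +contextual [eq_comm]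

omit [PartialOrder A] [StarOrderedRing A] in
lemma MU.ent_comm (h : MU e) (w : A) (b s a t : ι) :
    e a t * ent e w b s = ent e w b s * e a t := by
  rw [← h.sand]
  simp only [ent, sum_mul, mul_assoc, h.mul]
  rw [sum_eq_single a] <;> simp +contextual

omit [PartialOrder A] [StarOrderedRing A] in
lemma MU.star_ent (h : MU e) (w : A) (b s : ι) :
    Star.star (ent e w b s) = ent e (Star.star w) s b := by
  simp only [ent, star_sum, star_mul, h.star, mul_assoc]

omit [PartialOrder A] [StarOrderedRing A] in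
lemma MU.sum_ent (h : MU e) {w w' : A} (hw : w' * w = 1) :
    ∑ b, ∑ s, ent e w' s b * ent e w b s = (Fintype.card ι : ℝ) • (1 : A) := by
  have e1 : ∀ b s, ent e w' s b * ent e w b s = ∑ c, e c s * (w' * e b b * w) * e s c := by
    intro b s
    conv_lhs => rw [ent]
    rw [sum_mul]
    refine sum_congr rfl fun c _ => ?_
    rw [mul_assoc, ← h.sand w b b s c]; simp only [mul_assoc]
  simp only [e1]
  rw [sum_comm]
  have e2 : ∀ s, ∑ b, ∑ c, e c s * (w' * e b b * w) * e s c = 1 := fun s => by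
    rw [sum_comm]
    simp only [← sum_mul, ← mul_sum, h.sum, mul_one, hw, h.mm]
  simp [e2, ← Nat.cast_smul_eq_nsmul ℝ]

variable (T e) in
/-- The flatness functional. -/
def Fl (w : A) : ℝ := ∑ b, ∑ s, ‖T.J (star (ent e w b s) * ent e w b s)‖ ^ 2

omit [PartialOrder A] [StarOrderedRing A] in
lemma MU.sum_J_sand (h : MU e) (T : Tr A) {V : A} (hV : V ∈ unitary A) (s b : ι) :
    ∑ a, ∑ t, ‖T.J (e s t * V * e a b)‖ ^ 2 = 1 := by
  have : ∀ a, ∑ t, ‖T.J (e s t * V * e a b)‖ ^ 2 = 1 / Fintype.card ι := fun a => by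
    rw [← h.J_sq T a b]
    simp only [T.norm_J_sq, ← Complex.re_sum, ← map_sum, star_mul, h.star, mul_assoc, h.mm']
    simp only [← mul_sum]
    simp only [← mul_assoc (e _ _) V, ← sum_mul, h.sum, one_mul, u1 hV]
  simp only [this, sum_const, card_univ, nsmul_eq_mul]
  field_simp [(h.card_pos T).ne']

omit [PartialOrder A] [StarOrderedRing A] in
lemma MU.flat_part (h : MU e) {B : Fm A} {C η δ : ℝ} (hB : Adm T B C η δ) (hC : 0 ≤ C)
    {V : A} (hV : V ∈ unitary A) (s b : ι) (Y : A) :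
    ‖∑ a, ∑ t, B (e s t * V * e a b) (e a t * Y)‖ ≤ C * ‖Y‖ := by
  have hn := h.card_pos T
  set n : ℝ := (Fintype.card ι : ℝ) with hn'
  have h1 := des (N := 2) (by norm_num) B (fun a t => e s t * V * e a b) (fun a t => e a t * Y)
  have h2 := des (N := 2) (by norm_num) (B0 T) (fun a t => e s t * V * e a b)
    (fun a t => e s t * V * e a b)
  set z : Om ι 2 → A := fun ω => ∑ a, ∑ t, Dm ℂ ω a t • (e s t * V * e a b) with hz
  have hO : (0 : ℝ) < Fintype.card (Om ι 2) := by exact_mod_cast Fintype.card_pos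
  set m : ℝ := (Fintype.card (Om ι 2) : ℝ) with hm
  have h3 : ∑ ω, ‖T.J (z ω)‖ ^ 2 = m / n := by
    simp only [B0_apply, ← T.norm_J_sq'] at h2
    have h4 := h.sum_J_sand T hV s b
    have : ((∑ ω, ‖T.J (z ω)‖ ^ 2 : ℝ) : ℂ) = ((m / n * ∑ a, ∑ t,
        ‖T.J (e s t * V * e a b)‖ ^ 2 : ℝ) : ℂ) := by
      rw [hm, hn']; push_cast at h2 ⊢; exact h2
    rw [h4, mul_one] at this
    exact_mod_cast this
  have h5 : ∀ ω, ‖B (z ω) (∑ a, ∑ t, Dm ℂ ω a t • (e a t * Y))‖ ≤
      C * ‖Y‖ * ((‖T.J (z ω)‖ ^ 2 + 1 / n) / 2) := fun ω => by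
    have e1 : e s s * z ω = z ω := by
      simp only [hz, mul_sum, mul_smul_comm, mul_assoc, h.mm']
    have e2 : ∑ a, ∑ t, Dm ℂ ω a t • (e a t * Y) = rr e ω * Y := by
      simp only [rr, mat, sum_mul, smul_mul_assoc]
    have := hB.l1 (e s s) (z ω) (rr e ω * Y)
    rw [e1, CStarRing.norm_mem_unitary_mul _ (h.rr_unit ω)] at this
    rw [e2]
    refine this.trans ?_
    rw [← h.J_sq T s s, mul_assoc C]
    refine mul_le_mul_of_nonneg_left ?_ hC
    have := norm_nonneg Y
    nlinarith [sq_nonneg (‖T.J (z ω)‖ - ‖T.J (e s s)‖)]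
  have h6 := (norm_sum_le _ _).trans (sum_le_sum fun ω (_ : ω ∈ univ) => h5 ω)
  rw [h1, norm_mul, ← mul_sum, ← sum_div, sum_add_distrib, h3] at h6
  simp only [norm_div, Complex.norm_natCast, sum_const, card_univ, nsmul_eq_mul, ← hm,
    ← hn'] at h6
  have : (m / n + m * (1 / n)) / 2 = m / n := by ring
  rw [this, mul_comm] at h6
  exact le_of_mul_le_mul_right h6 (by positivity)

lemma norm_le_of_le_smul {a : A} {r : ℝ} (hr : 0 ≤ r) (h0 : 0 ≤ a) (h : a ≤ r • (1 : A)) :
    ‖a‖ ≤ r := by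
  rw [CStarAlgebra.norm_le_iff_le_algebraMap a hr h0, Algebra.algebraMap_eq_smul_one]; exact h

lemma MU.cross0 (h : MU e) {B : Fm A} {C η δ l : ℝ} (hB : Adm T B C η δ) (hC : 0 ≤ C)
    (hη : 0 ≤ η) (hl : 0 < l) {V w : A} (hV : V ∈ unitary A) (hw : w ∈ unitary A)
    (hF : Fl T e w ≤ Fintype.card ι * (δ * l ^ 2)) :
    ‖∑ s, ∑ t, ∑ a, ∑ b, B (e s t * V * e a b) (e a b * w * e s t)‖ ≤
      (Fintype.card ι : ℝ) ^ 2 * (C * l + √η) := by
  have hn := h.card_pos T
  set n : ℝ := (Fintype.card ι : ℝ) with hn'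
  choose v hv1 hv2 hv3 hv4 using fun b s => split_el T (ent e w b s) hl
  have e1 : ∑ s, ∑ t, ∑ a, ∑ b, B (e s t * V * e a b) (e a b * w * e s t) =
      ∑ b, ∑ s, ∑ a, ∑ t, B (e s t * V * e a b) (e a t * (ent e w b s - v b s)) +
      ∑ p : ι × ι × ι × ι, B (e p.2.1 p.2.2.2 * V * e p.2.2.1 p.1)
        (e p.2.2.1 p.2.2.2 * v p.1 p.2.1) := by
    simp only [Fintype.sum_prod_type, ← sum_add_distrib, ← map_add, ← mul_add, sub_add_cancel,
      h.sand]
    rw [sum_congr rfl fun s _ => sum_congr rfl fun t _ => sum_comm,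
      sum_congr rfl fun s _ => sum_comm, sum_comm]
    exact sum_congr rfl fun b _ => sum_congr rfl fun s _ => sum_comm
  rw [e1, mul_add]
  refine (norm_add_le _ _).trans (add_le_add ?_ ?_)
  · refine (norm_sum_le _ _).trans ((sum_le_sum fun b _ => (norm_sum_le _ _).trans
      (sum_le_sum fun s _ => (h.flat_part hB hC hV s b _).trans
        (mul_le_mul_of_nonneg_left (hv1 b s) hC))).trans (le_of_eq ?_))
    simp [hn']; ring
  · have := hB.ac (ι × ι × ι × ι) (fun p => e p.2.1 p.2.2.2 * V * e p.2.2.1 p.1)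
      (fun p => e p.2.2.1 p.2.2.2 * v p.1 p.2.1) (n ^ 2) ?_ ?_ ?_
    · simp only [Fintype.sum_prod_type, h.sum_J_sand T hV, sum_const, card_univ, nsmul_eq_mul,
        ← hn'] at this
      refine abs_le_of_sq_le_sq' ?_ (by positivity) |>.2
      rw [mul_pow, Real.sq_sqrt hη]
      simp only [Fintype.sum_prod_type]
      linarith
    · refine norm_le_of_le_smul (by positivity) (sum_nonneg fun p _ => star_mul_self_nonneg _) ?_
      have e2 : ∀ b s, ∑ a, ∑ t, Star.star (e a t * v b s) * (e a t * v b s) =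
          n • (Star.star (v b s) * v b s) := fun b s => by
        simp only [star_mul, h.star, mul_assoc, h.mm', ← mul_sum, ← sum_mul, h.sum, one_mul]
        simp [hn', ← Nat.cast_smul_eq_nsmul ℝ]
      simp only [Fintype.sum_prod_type, e2, ← smul_sum]
      rw [sq, ← smul_smul, ← h.sum_ent hw.1]
      refine smul_le_smul_of_nonneg_left (sum_le_sum fun b _ => sum_le_sum fun s _ => ?_) hn.le
      rw [← h.star_ent]; exact hv2 b s
    · refine norm_le_of_le_smul (by positivity) (sum_nonneg fun p _ => mul_star_self_nonneg _) ?_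
      have e2 : ∑ s, ∑ b, v b s * Star.star (v b s) ≤ n • (1 : A) := by
        rw [← h.sum_ent hw.2]
        refine sum_le_sum fun s _ => sum_le_sum fun b _ => ?_
        rw [← h.star_ent]; exact hv3 b s
      have e3 : ∑ p : ι × ι × ι × ι, e p.2.2.1 p.2.2.2 * v p.1 p.2.1 *
          Star.star (e p.2.2.1 p.2.2.2 * v p.1 p.2.1) =
          ∑ a, ∑ t, e a t * (∑ s, ∑ b, v b s * Star.star (v b s)) * Star.star (e a t) := by
        simp only [Fintype.sum_prod_type, mul_sum, sum_mul, star_mul, mul_assoc]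
        rw [sum_comm, sum_congr rfl fun s _ => sum_comm, sum_comm]
        refine sum_congr rfl fun a _ => ?_
        rw [sum_congr rfl fun s _ => sum_comm, sum_comm]
      rw [e3]
      refine (sum_le_sum fun a _ => sum_le_sum fun t _ =>
        star_right_conjugate_le_conjugate e2 (e a t)).trans (le_of_eq ?_)
      simp only [mul_smul_comm, smul_mul_assoc, mul_one, h.star, h.mm, ← smul_sum, sum_const,
        card_univ, h.sum]
      rw [← Nat.cast_smul_eq_nsmul ℝ, smul_smul, sq]
    · have e2 : ∀ b s, ∑ a, ∑ t, ‖T.J (e a t * v b s)‖ ^ 2 = n * ‖T.J (v b s)‖ ^ 2 := by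
        intro b s
        simp only [T.norm_J_sq, ← Complex.re_sum, ← map_sum, star_mul, h.star, mul_assoc, h.mm',
          ← mul_sum, ← sum_mul, h.sum, one_mul]
        simp [hn', ← Nat.cast_smul_eq_nsmul ℂ]
      simp only [Fintype.sum_prod_type, e2, ← mul_sum]
      have e3 : ∑ b, ∑ s, ‖T.J (v b s)‖ ^ 2 ≤ Fl T e w / l ^ 2 := by
        rw [Fl, sum_div]
        exact sum_le_sum fun b _ => by rw [sum_div]; exact sum_le_sum fun s _ => hv4 b s
      have e4 : Fl T e w / l ^ 2 ≤ n * δ := by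
        rw [div_le_iff₀ (by positivity)]; linarith
      nlinarith

variable (T e) in
/-- `w` is flat after twisting by unitaries of the matrix algebra. -/
def Flat (θ : ℝ) (w : A) : Prop :=
  ∃ R ∈ unitary (Matrix ι ι ℂ), ∃ R' ∈ unitary (Matrix ι ι ℂ),
    Fl T e (mat e R' * w * mat e R) ≤ Fintype.card ι * θ

/-- The crossing estimate. -/
lemma MU.cross (h : MU e) {B : Fm A} {C η δ l : ℝ} (hB : Adm T B C η δ) (hC : 0 ≤ C)
    (hη : 0 ≤ η) (hl : 0 < l) {V w : A} (hV : V ∈ unitary A) (hw : w ∈ unitary A)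
    (hF : Flat T e (δ * l ^ 2) w) {N : ℕ} [NeZero N] (hN : 1 < N) :
    ‖∑ g : Om ι N, ∑ k : Om ι N, B (rr e g * V * rr e k) (rr e k * w * rr e g)‖ ≤
      (Fintype.card (Om ι N) : ℝ) ^ 2 * (C * l + √η) := by
  obtain ⟨R, hR, R', hR', hF⟩ := hF
  have hρ := h.mat_unit hR
  have hρ' := h.mat_unit hR'
  have hn := h.card_pos T
  have key := h.cross0 (hB.pre hρ hρ' (one_mem _) (one_mem _)) hC hη hl hV
    (mul_mem (mul_mem hρ' hw) hρ) hF
  have e1 : ∀ g : A, ∑ k : Om ι N, B (g * V * rr e k) (rr e k * w * g) =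
      (Fintype.card (Om ι N) : ℂ) / Fintype.card ι *
        ∑ a, ∑ b, B (g * V * (e a b * mat e R')) (e a b * mat e R' * w * g) := fun g => by
    have h1 := des_rr (e := e) hN (B.pre (lr (g * V) 1) (lr 1 (w * g)))
    have h2 := h.inv_mat hR' (B.pre (lr (g * V) 1) (lr 1 (w * g)))
    rw [← h2] at h1
    simpa [mul_assoc] using h1
  have e2 : ∀ k : A, ∑ g : Om ι N, B (rr e g * V * k) (k * w * rr e g) =
      (Fintype.card (Om ι N) : ℂ) / Fintype.card ι *
        ∑ s, ∑ t, B (mat e R * e s t * V * k) (k * w * (mat e R * e s t)) := fun k => by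
    have h1 := des_rr (e := e) hN (B.pre (lr 1 (V * k)) (lr (k * w) 1))
    have h2 := h.inv_mat' hR (B.pre (lr 1 (V * k)) (lr (k * w) 1))
    rw [← h2] at h1
    simpa [mul_assoc] using h1
  simp only [e1]
  rw [← mul_sum, sum_comm, sum_congr rfl fun a _ => sum_comm]
  simp only [e2, ← mul_sum]
  rw [sum_congr rfl fun a _ => sum_comm, sum_comm, sum_congr rfl fun s _ =>
    sum_congr rfl fun a _ => sum_comm, sum_congr rfl fun s _ => sum_comm]
  simp only [Fm.pre_apply, lr_apply, one_mul, mul_one, mul_assoc] at key ⊢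
  rw [norm_mul, norm_mul, norm_div, Complex.norm_natCast, Complex.norm_natCast]
  refine (mul_le_mul_of_nonneg_left (mul_le_mul_of_nonneg_left key (by positivity))
    (by positivity)).trans (le_of_eq ?_)
  field_simp

end Crest.Agent.H1KR
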