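import Crest.Agent.H1KR.C2

/-! Kadison–Ringrose, tracial part 3: flat twists. -/

set_option autoImplicit false
set_option maxHeartbeats 400000
open scoped InnerProductSpace ComplexConjugate
open Finset Crest.Agent.H1VN Crest.Agent.H2.KS

noncomputable section
namespace Crest.Agent.H1KR

variable {A : Type*} [CStarAlgebra A] {T : Tr A}
variable {ι : Type} [Fintype ι] [DecidableEq ι] {e : ι → ι → A}

variable (e) in
/-- The conditional expectation onto the relative commutant. -/
def Ee (y : A) : A := (Fintype.card ι : ℂ)⁻¹ • ∑ a, ∑ b, e a b * y * e b a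

lemma MU.τ_Ee (h : MU e) (T : Tr A) (y : A) : T.τ (Ee e y) = T.τ y := by
  have : ∀ a b, T.τ (e a b * y * e b a) = T.τ (e b b * y) := fun a b => by
    rw [T.tr, ← mul_assoc, h.mm]
  simp only [Ee, map_smul, map_sum, this]
  have e1 : ∑ b, T.τ (e b b * y) = T.τ y := by rw [← map_sum, ← sum_mul, h.sum, one_mul]
  simp only [e1, sum_const, card_univ, nsmul_eq_mul, smul_eq_mul]
  field_simp [h.card_ne T]

lemma MU.Ee_comm (h : MU e) (y : A) (c d : ι) : e c d * Ee e y = Ee e y * e c d := by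
  simp only [Ee, mul_smul_comm, smul_mul_assoc, mul_sum, sum_mul, mul_assoc, h.mul', h.mul]
  congr 1
  rw [sum_comm]
  conv_rhs => rw [sum_comm]
  simp

lemma Ee_mul_left {x : A} (hx : ∀ a b, e a b * x = x * e a b) (y : A) :
    Ee e (x * y) = x * Ee e y := by
  simp only [Ee, mul_smul_comm, mul_sum, ← mul_assoc, hx]

lemma MU.Ee_fix (h : MU e) (T : Tr A) {x : A} (hx : ∀ a b, e a b * x = x * e a b) :
    Ee e x = x := by
  simp only [Ee, hx, mul_assoc, h.mm, ← mul_sum, sum_const, card_univ, ← smul_sum, h.sum]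
  rw [← Nat.cast_smul_eq_nsmul ℂ, mul_smul_comm, smul_smul, inv_mul_cancel₀ (h.card_ne T)]; simp

lemma MU.star_Ee (h : MU e) (y : A) : Star.star (Ee e y) = Ee e (Star.star y) := by
  simp only [Ee, star_smul, star_sum, star_mul, h.star, mul_assoc]
  simp

lemma Ee_sub (y z : A) : Ee e (y - z) = Ee e y - Ee e z := by
  simp only [Ee, mul_sub, sub_mul, sum_sub_distrib, smul_sub]

lemma Ee_add (y z : A) : Ee e (y + z) = Ee e y + Ee e z := by
  simp only [Ee, mul_add, add_mul, sum_add_distrib, smul_add]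

lemma Ee_smul (c : ℂ) (y : A) : Ee e (c • y) = c • Ee e y := by
  simp only [Ee, mul_smul_comm, smul_mul_assoc, ← smul_sum, smul_comm c]

lemma MU.J_Ee_sq (h : MU e) (T : Tr A) (y : A) :
    T.τ (Ee e y * Star.star y) = ((‖T.J (Ee e y)‖ ^ 2 : ℝ) : ℂ) := by
  rw [← h.τ_Ee T, Ee_mul_left (h.Ee_comm y), ← h.star_Ee, T.norm_J_sq', T.tr]

lemma MU.J_Ee_le (h : MU e) (T : Tr A) (y : A) : ‖T.J (Ee e y)‖ ≤ ‖T.J y‖ := by
  have h1 := T.norm_τ_mul_le (Ee e y) (Star.star y)
  rw [h.J_Ee_sq, T.J_star, Complex.norm_real, Real.norm_of_nonneg (by positivity), sq] at h1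
  rcases (norm_nonneg (T.J (Ee e y))).eq_or_lt with h0 | h0
  · rw [← h0]; exact norm_nonneg _
  · exact le_of_mul_le_mul_left h1 h0

lemma exists_fourier (ι : Type) [Fintype ι] [DecidableEq ι] [Nonempty ι] :
    ∃ F ∈ unitary (Matrix ι ι ℂ), ∀ a s, F a s * conj (F a s) = (Fintype.card ι : ℂ)⁻¹ := by
  set n := Fintype.card ι with hn
  haveI : NeZero n := ⟨Fintype.card_ne_zero⟩
  let φ : ι ≃ ZMod n := Fintype.equivOfCardEq (by simp [hn])
  have hn0 : (0 : ℝ) < n := by exact_mod_cast Fintype.card_pos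
  have hc : ((√n : ℝ) : ℂ)⁻¹ * ((√n : ℝ) : ℂ)⁻¹ = (n : ℂ)⁻¹ := by
    rw [← mul_inv, ← Complex.ofReal_mul, Real.mul_self_sqrt hn0.le]; simp
  let F : Matrix ι ι ℂ := Matrix.of fun a s => ((√n : ℝ) : ℂ)⁻¹ * chi n (φ a * φ s)
  have h1 : F * star F = 1 := by
    ext a c
    simp only [Matrix.mul_apply, Matrix.star_apply, F, Matrix.of_apply, Matrix.one_apply,
      RCLike.star_def, map_mul, map_inv₀, Complex.conj_ofReal, conj_chi]
    have : ∀ s, ((√n : ℝ) : ℂ)⁻¹ * chi n (φ a * φ s) * (((√n : ℝ) : ℂ)⁻¹ * chi n (-(φ c * φ s))) =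
        (n : ℂ)⁻¹ * chi n ((φ a - φ c) * φ s) := fun s => by
      rw [← hc, sub_mul, sub_eq_add_neg, chi_add]; ring
    simp only [this, ← mul_sum]
    rw [φ.sum_comp (fun z => chi n ((φ a - φ c) * z)), sum_chi_mul]
    simp only [sub_eq_zero, φ.injective.eq_iff]
    split_ifs <;> simp [NeZero.ne n]
  refine ⟨F, ⟨mul_eq_one_comm.1 h1, h1⟩, fun a s => ?_⟩
  simp only [F, Matrix.of_apply, map_mul, map_inv₀, Complex.conj_ofReal]
  rw [← hc, mul_mul_mul_comm, chi_mul_conj, mul_one]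

lemma cnt_two (x y x' y' : ι) : (∀ j, cnt ![x, y] j = cnt ![x', y'] j) ↔
    (x = x' ∧ y = y') ∨ (x = y' ∧ y = x') := by
  have : ∀ x y j : ι, cnt ![x, y] j = (if x = j then 1 else 0) + if y = j then 1 else 0 := by
    intro x y j; rw [cnt, card_filter, Fin.sum_univ_two]; rfl
  simp only [this]
  refine ⟨fun h => ?_, fun h j => ?_⟩
  · have h1 := h x
    have h2 := h y
    have h3 := h x'
    grind
  · rcases h with ⟨rfl, rfl⟩ | ⟨rfl, rfl⟩
    · rfl
    · exact add_comm _ _

/-- Phase twist of a matrix. -/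
def tw (F : Matrix ι ι ℂ) (ε : ι → ZMod 3) : Matrix ι ι ℂ := Dm ℂ (1, ε) * F

lemma tw_apply (F : Matrix ι ι ℂ) (ε : ι → ZMod 3) (a s : ι) :
    tw F ε a s = chi 3 (ε a) * F a s := by
  simp [tw, Matrix.mul_apply, Dm_apply]

lemma tw_unit {F : Matrix ι ι ℂ} (hF : F ∈ unitary (Matrix ι ι ℂ)) (ε : ι → ZMod 3) :
    tw F ε ∈ unitary (Matrix ι ι ℂ) := mul_mem (Dm_unit _) hF

variable (e) in
/-- Rotated diagonal projections. -/
def pj (R : Matrix ι ι ℂ) (s : ι) : A := mat e R * e s s * star (mat e R)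

lemma MU.pj_eq (h : MU e) (R : Matrix ι ι ℂ) (s : ι) :
    pj e R s = ∑ a, ∑ c, (R a s * conj (R c s)) • e a c := by
  simp only [pj, h.mat_star, h.mat_mul_e, sum_mul, smul_mul_assoc, h.e_mul_mat, smul_sum, smul_smul,
    Matrix.star_apply, RCLike.star_def]

lemma MU.two_des (h : MU e) (T : Tr A) {F : Matrix ι ι ℂ}
    (hF : ∀ a s, F a s * conj (F a s) = (Fintype.card ι : ℂ)⁻¹) (y : A) :
    ∑ ε : ι → ZMod 3, ∑ s, (T.τ (pj e (tw F ε) s * y * pj e (tw F ε) s * Star.star y)).re ≤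
      3 ^ Fintype.card ι * (‖T.J y‖ ^ 2 / Fintype.card ι + ‖T.J (Ee e y)‖ ^ 2) := by
  have hn0 := h.card_ne T
  have hn1 := h.card_pos T
  set n := Fintype.card ι with hn
  have coef : ∀ a c c' a', ∑ ε : ι → ZMod 3, ∑ s, (tw F ε a s * conj (tw F ε c s)) *
      (tw F ε c' s * conj (tw F ε a' s)) = 3 ^ n / n *
      ((if c = a then if a' = c' then 1 else 0 else 0) +
        (if a' = a then if c' = c then 1 else 0 else 0) -
        (if c = a then if c' = a then if a' = a then 1 else 0 else 0 else 0)) := by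
    intro a c c' a'
    have hp := phase_avg (N := 3) ![c, a'] ![a, c'] (by simp) (by simp)
    simp only [Fin.prod_univ_two, Matrix.cons_val_zero, Matrix.cons_val_one, cnt_two] at hp
    have : ∀ (ε : ι → ZMod 3) s, (tw F ε a s * conj (tw F ε c s)) *
        (tw F ε c' s * conj (tw F ε a' s)) = (conj (chi 3 (ε c) * chi 3 (ε a')) *
          (chi 3 (ε a) * chi 3 (ε c'))) * (F a s * conj (F c s) * (F c' s * conj (F a' s))) := by
      intro ε s; simp only [tw_apply, map_mul]; ring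
    simp only [this, ← mul_sum, ← sum_mul]
    rw [hp]
    have k1 : ∑ s, F a s * conj (F a s) * (F c' s * conj (F c' s)) = (n : ℂ)⁻¹ := by
      simp only [hF, sum_const, card_univ, nsmul_eq_mul, ← hn]; field_simp
    have k2 : ∑ s, F a s * conj (F c s) * (F c s * conj (F a s)) = (n : ℂ)⁻¹ := by
      rw [sum_congr rfl fun s _ => show _ = F a s * conj (F a s) * (F c s * conj (F c s)) by ring]
      simp only [hF, sum_const, card_univ, nsmul_eq_mul, ← hn]; field_simp
    by_cases h1 : c = a ∧ a' = c'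
    · obtain ⟨rfl, rfl⟩ := h1
      rw [k1]; by_cases h2 : a' = c <;> simp [h2, div_eq_mul_inv, hn]
    · by_cases h2 : c = c' ∧ a' = a
      · obtain ⟨rfl, rfl⟩ := h2
        have h3 : c ≠ a' := fun h => h1 ⟨h, h.symm⟩
        rw [k2]; simp [h3, div_eq_mul_inv, hn]
      · rw [if_neg (by tauto), zero_mul]
        split_ifs <;> grind
  have tot : ∑ ε : ι → ZMod 3, ∑ s, T.τ (pj e (tw F ε) s * y * pj e (tw F ε) s * Star.star y) =
      3 ^ n / n * (T.τ (y * Star.star y) + n * T.τ (Ee e y * Star.star y) -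
        ∑ a, T.τ (e a a * y * e a a * Star.star y)) := by
    have e1 : ∀ (ε : ι → ZMod 3) s, T.τ (pj e (tw F ε) s * y * pj e (tw F ε) s * Star.star y) =
        ∑ a, ∑ c, ∑ c', ∑ a', (tw F ε a s * conj (tw F ε c s)) *
          (tw F ε c' s * conj (tw F ε a' s)) * T.τ (e a c * y * e c' a' * Star.star y) := by
      intro ε s
      simp only [h.pj_eq, sum_mul, mul_sum, smul_mul_assoc, mul_smul_comm, map_sum, map_smul,
        smul_eq_mul, mul_assoc]
      rw [sum_congr rfl fun _ _ => sum_comm, sum_comm]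
      refine sum_congr rfl fun a _ => ?_
      rw [sum_congr rfl fun _ _ => sum_comm, sum_comm]
      exact sum_congr rfl fun _ _ => sum_congr rfl fun _ _ => sum_congr rfl fun _ _ => by ring
    simp only [e1]
    rw [sum_congr rfl fun _ _ => sum_comm, sum_comm]
    rw [sum_congr rfl fun a _ => by rw [sum_congr rfl fun _ _ => sum_comm, sum_comm]]
    rw [sum_congr rfl fun a _ => sum_congr rfl fun c _ => by
      rw [sum_congr rfl fun _ _ => sum_comm, sum_comm]]
    rw [sum_congr rfl fun a _ => sum_congr rfl fun c _ => sum_congr rfl fun c' _ => by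
      rw [sum_congr rfl fun _ _ => sum_comm, sum_comm]]
    simp only [← sum_mul, coef]
    simp only [mul_assoc (3 ^ n / n : ℂ), ← mul_sum, add_mul, sub_mul, ite_mul, one_mul, zero_mul,
      sum_add_distrib, sum_sub_distrib, sum_ite_irrel, sum_const_zero, sum_ite_eq, sum_ite_eq',
      mem_univ, if_true]
    congr 3
    · simp only [← map_sum, ← sum_mul, ← mul_sum, h.sum, one_mul, mul_one]
    · simp only [Ee, smul_mul_assoc, map_smul, smul_eq_mul, ← mul_assoc, ← hn,
        mul_inv_cancel₀ hn0, one_mul, sum_mul, map_sum]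
  have e2 : ∀ a, T.τ (e a a * y * e a a * Star.star y) = ((‖T.J (e a a * y * e a a)‖ ^ 2 : ℝ) : ℂ) :=
    fun a => by
      rw [← T.J_star, T.norm_J_sq', star_star]
      simp only [star_mul, h.star, mul_assoc, h.mm']
      rw [T.tr (e a a) (y * (e a a * (Star.star y * e a a)))]
      simp only [mul_assoc, h.mm]
      rw [T.tr (e a a)]; simp only [mul_assoc]
  have e3 : T.τ (y * Star.star y) = ((‖T.J y‖ ^ 2 : ℝ) : ℂ) := by rw [T.norm_J_sq', T.tr]
  simp only [← Complex.re_sum]
  rw [tot, h.J_Ee_sq, e3]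
  simp only [e2]
  have : 0 ≤ ∑ a, ‖T.J (e a a * y * e a a)‖ ^ 2 := by positivity
  have e4 : (3 ^ n / n : ℂ) = ((3 ^ n / n : ℝ) : ℂ) := by push_cast; rfl
  rw [e4, ← Complex.ofReal_sum, ← Complex.ofReal_natCast, ← Complex.ofReal_mul,
    ← Complex.ofReal_add, ← Complex.ofReal_sub, ← Complex.ofReal_mul, Complex.ofReal_re]
  calc _ ≤ 3 ^ n / n * (‖T.J y‖ ^ 2 + n * ‖T.J (Ee e y)‖ ^ 2) := by gcongr; linarith
    _ = _ := by field_simp

lemma MU.pj_proj (h : MU e) {R : Matrix ι ι ℂ} (hR : R ∈ unitary (Matrix ι ι ℂ)) (s : ι) :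
    Star.star (pj e R s) = pj e R s ∧ pj e R s * pj e R s = pj e R s := by
  have := h.mat_unit hR
  exact ⟨by simp [pj, h.star, mul_assoc], by simp [pj, mul_assoc, u1 this, h.mm']⟩

lemma MU.Fl_eq (h : MU e) (T : Tr A) (w : A) : Fl T e w = Fintype.card ι * ∑ b, ∑ s,
    (T.τ (e s s * (Star.star w * e b b * w) * e s s * (Star.star w * e b b * w))).re := by
  simp only [Fl, mul_sum]
  refine sum_congr rfl fun b _ => sum_congr rfl fun s _ => ?_
  set y := Star.star (ent e w b s) * ent e w b s with hy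
  have hc : ∀ a t, e a t * y = y * e a t := fun a t => by
    rw [hy, h.star_ent, ← mul_assoc, h.ent_comm, mul_assoc, h.ent_comm, mul_assoc]
  have e1 : e s s * (Star.star w * e b b * w) * e s s = e s s * y := by
    have h1 := h.sand w b b s s
    have h2 := h.sand (Star.star w) s s b b
    calc _ = (e s s * Star.star w * e b b) * (e b b * w * e s s) := by
          simp only [mul_assoc, h.mm']
      _ = _ := by
          rw [h1, h2, mul_assoc, ← mul_assoc (ent e _ s b), ← h.ent_comm, ← mul_assoc,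
            ← mul_assoc, h.mm, hy, h.star_ent, mul_assoc]
  have hs : Star.star y = y := by rw [hy, star_mul, star_star]
  clear_value y
  have e2 : T.τ (e s s * (Star.star w * e b b * w) * e s s * (Star.star w * e b b * w)) =
      T.τ (e s s * (y * y)) := by
    have : e s s * (y * y) = (e s s * y) * (e s s * y) := by
      rw [mul_assoc, ← mul_assoc y, ← hc, ← mul_assoc, ← mul_assoc, ← mul_assoc, h.mm, mul_assoc]
    rw [this, ← e1, ← mul_assoc (e s s * _ * e s s) (e s s * _) (e s s), T.tr _ (e s s)]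
    simp only [mul_assoc, h.mm']
  rw [e2, h.τ_mul T (fun a t => by rw [← mul_assoc, hc, mul_assoc, hc, mul_assoc]), if_pos rfl,
    T.norm_J_sq, hs, Complex.div_natCast_re]
  field_simp [(h.card_pos T).ne']

lemma MU.J_Ee_sq' (h : MU e) (T : Tr A) (y : A) : ‖T.J (Ee e y)‖ ^ 2 =
    (∑ a, ∑ c, (T.τ (e a c * y * e c a * Star.star y)).re) / Fintype.card ι := by
  have := congrArg Complex.re (h.J_Ee_sq T y)
  rw [Complex.ofReal_re] at this
  rw [← this]
  simp only [Ee, smul_mul_assoc, map_smul, smul_eq_mul, sum_mul, map_sum, ← Complex.re_sum]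
  rw [← Complex.div_natCast_re, div_eq_inv_mul]

variable (T e) in
/-- The mixing functional. -/
def Psi (w : A) : ℝ := (∑ a, ∑ c, ‖T.J (Ee e (w * e a c * star w))‖ ^ 2) / Fintype.card ι

lemma MU.flat (h : MU e) (T : Tr A) {w : A} (hw : w ∈ unitary A) {θ : ℝ}
    (hθ : 2 / Fintype.card ι + Psi T e w ≤ θ) : Flat T e θ w := by
  have := h.ne T
  have hn := h.card_pos T
  obtain ⟨F, hFu, hF⟩ := exists_fourier ι
  set n : ℝ := (Fintype.card ι : ℝ) with hn'
  have e1 : ∀ ε ε', Fl T e (mat e (Star.star (tw F ε')) * w * mat e (tw F ε)) =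
      n * ∑ b, ∑ s, (T.τ (pj e (tw F ε) s * (Star.star w * pj e (tw F ε') b * w) *
        pj e (tw F ε) s * Star.star (Star.star w * pj e (tw F ε') b * w))).re := by
    intro ε ε'
    rw [h.Fl_eq]
    congr 1
    refine sum_congr rfl fun b _ => sum_congr rfl fun s _ => ?_
    rw [← h.mat_star]
    simp only [pj, star_mul, star_star, h.star, mul_assoc]
    rw [T.tr (mat e (tw F ε))]; simp only [mul_assoc]
  have e2 : ∀ ε' b, ‖T.J (Star.star w * pj e (tw F ε') b * w)‖ ^ 2 = 1 / n := fun ε' b => by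
    have hρ := h.mat_unit (tw_unit hFu ε')
    rw [J_lr (Unitary.star_mem hw) hw, pj, J_lr hρ (Unitary.star_mem hρ), h.J_sq]
  have e3 : ∀ ε', ∑ b, ‖T.J (Ee e (Star.star w * pj e (tw F ε') b * w))‖ ^ 2 =
      (∑ a, ∑ c, ∑ b, (T.τ (pj e (tw F ε') b * (w * e c a * Star.star w) * pj e (tw F ε') b *
        Star.star (w * e c a * Star.star w))).re) / n := fun ε' => by
    simp only [h.J_Ee_sq', ← sum_div]
    congr 1
    rw [sum_comm]
    refine sum_congr rfl fun a _ => sum_comm.trans (sum_congr rfl fun c _ =>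
      sum_congr rfl fun b _ => ?_)
    simp only [star_mul, star_star, h.star, (h.pj_proj (tw_unit hFu ε') b).1, mul_assoc]
    rw [T.tr (e a c)]; simp only [mul_assoc]
    rw [T.tr (Star.star w)]; simp only [mul_assoc]
  have e4 : ∑ ε', ∑ b, ‖T.J (Ee e (Star.star w * pj e (tw F ε') b * w))‖ ^ 2 ≤
      3 ^ Fintype.card ι * (1 / n + Psi T e w) := by
    simp only [e3, ← sum_div]
    rw [sum_comm, sum_congr rfl fun a _ => sum_comm, div_le_iff₀ hn]
    refine (sum_le_sum fun a _ => sum_le_sum fun c _ => h.two_des T hF _).trans (le_of_eq ?_)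
    simp only [← mul_sum, sum_add_distrib, J_lr hw (Unitary.star_mem hw), h.J_sq, sum_const,
      card_univ, nsmul_eq_mul, ← hn', Psi]
    rw [sum_comm]; field_simp
  have e5 : ∑ p : (ι → ZMod 3) × (ι → ZMod 3),
      Fl T e (mat e (Star.star (tw F p.1)) * w * mat e (tw F p.2)) ≤
      ∑ _p : (ι → ZMod 3) × (ι → ZMod 3), n * θ := by
    simp only [Fintype.sum_prod_type, e1, ← mul_sum]
    refine mul_le_mul_of_nonneg_left ?_ hn.le
    rw [sum_congr rfl fun ε' _ => sum_comm]
    refine (sum_le_sum fun ε' _ => sum_le_sum fun b _ => h.two_des T hF _).trans ?_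
    simp only [← mul_sum, sum_add_distrib, e2, sum_const, card_univ, nsmul_eq_mul, ← hn',
      Fintype.card_pi, ZMod.card, prod_const]
    push_cast
    refine mul_le_mul_of_nonneg_left ?_ (by positivity)
    have : (3 : ℝ) ^ Fintype.card ι * (n * (1 / n / n)) = 3 ^ Fintype.card ι * (1 / n) := by
      field_simp
    have h3 : (0 : ℝ) < 3 ^ Fintype.card ι := by positivity
    have h4 : 2 / n = 1 / n + 1 / n := by ring
    nlinarith
  obtain ⟨p, -, hp⟩ := exists_le_of_sum_le univ_nonempty e5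
  exact ⟨_, tw_unit hFu p.2, _, Unitary.star_mem (tw_unit hFu p.1), hp⟩

end Crest.Agent.H1KR
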