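import Crest.Agent.H1KR.C3
import Crest.Agent.H1VN.Tower

/-! Kadison–Ringrose, tracial part 4: bounded generation by conjugates of a symmetry, and the
Hilbert space Dixmier lemma. -/

set_option autoImplicit false
set_option maxHeartbeats 400000
open scoped InnerProductSpace ComplexConjugate
open Finset Crest.Agent.H1VN Crest.Agent.H2.KS

noncomputable section
namespace Crest.Agent.H1KR

variable {A : Type*} [CStarAlgebra A] {T : Tr A}

lemma nle {u : A} (hu : u ∈ unitary A) : ‖u‖ ≤ 1 := Tr.norm_unit_le hu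

lemma half_le {a b : A} (ha : ‖a‖ ≤ 1) (hb : ‖b‖ ≤ 1) : ‖(1 / 2 : ℂ) • (a + b)‖ ≤ 1 := by
  rw [norm_smul]; have := norm_add_le a b; norm_num; linarith

theorem gen {N : StarSubalgebra ℂ A} (hN : IsClosed (N : Set A)) {X Z : A} (h : Pauli X Z)
    (hX : X ∈ N) (hZ : Z ∈ N) (P : A → ℝ → Prop)
    (add : ∀ a r b s, P a r → P b s → P (a + b) (r + s))
    (smul : ∀ (c : ℂ) a r, P a r → P (c • a) (‖c‖ * r))
    (mul : ∀ a r b s, ‖a‖ ≤ 1 → ‖b‖ ≤ 1 → P a r → P b s → P (a * b) (r + s))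
    (mono : ∀ a r s, r ≤ s → P a r → P a s) (one : P 1 0)
    (base : ∀ t ∈ unitary A, t ∈ N → P (t * X * star t) 1) :
    ∀ y ∈ N, ‖y‖ ≤ 1 → P y 48 := by
  have pX : P X 1 := by simpa using base 1 (one_mem _) (one_mem _)
  have hc : ((√2 : ℝ) : ℂ)⁻¹ * ((√2 : ℝ) : ℂ)⁻¹ = 1 / 2 := by
    rw [← mul_inv, ← Complex.ofReal_mul, Real.mul_self_sqrt (by norm_num)]; simp
  have pZ : P Z 1 := by
    have hs : star (((√2 : ℝ) : ℂ)⁻¹ • (X + Z)) = ((√2 : ℝ) : ℂ)⁻¹ • (X + Z) := by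
      simp [h.sX, h.sZ]
    have hh : (((√2 : ℝ) : ℂ)⁻¹ • (X + Z)) * (((√2 : ℝ) : ℂ)⁻¹ • (X + Z)) = 1 := by
      simp only [smul_mul_smul_comm, hc, mul_add, add_mul, h.XX, h.ZZ, h.ZX]; module
    have := base _ ⟨by rw [hs, hh], by rw [hs, hh]⟩ (N.smul_mem (add_mem hX hZ) _)
    rw [hs, smul_mul_assoc, smul_mul_smul_comm, hc] at this
    convert this using 1
    simp only [mul_add, add_mul, h.XX, h.ZZ, h.ZX, mul_assoc, h.ZX', h.XX', one_mul, mul_one,
      mul_neg, neg_mul]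
    module
  have np : ‖(1 / 2 : ℂ) • (1 + Z)‖ ≤ 1 := half_le (nle (one_mem _)) (nle h.uZ)
  have nq : ‖(1 / 2 : ℂ) • (1 + -Z)‖ ≤ 1 := half_le (nle (one_mem _)) (by simpa using nle h.uZ)
  have pp : P ((1 / 2 : ℂ) • (1 + Z)) (1 / 2) := by simpa using smul (1 / 2) _ _ (add _ _ _ _ one pZ)
  have pq : P ((1 / 2 : ℂ) • (1 + -Z)) (1 / 2) := by
    simpa using smul (1 / 2) _ _ (add _ _ _ _ one (smul (-1) _ _ pZ))
  have pu : ∀ u ∈ unitary A, u ∈ nxt N X Z → P u 5 := fun u hu hun => by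
    obtain ⟨h1, h2, h3⟩ := (mem_nxt h).1 hun
    obtain ⟨-, h4, h5⟩ := (mem_nxt h).1 (star_mem hun)
    have r2 : ∀ t, u * (X * t) = X * (u * t) := fun t => by rw [← mul_assoc, ← h2, mul_assoc]
    have r3 : ∀ t, u * (Z * t) = Z * (u * t) := fun t => by rw [← mul_assoc, ← h3, mul_assoc]
    have r4 : ∀ t, star u * (X * t) = X * (star u * t) := fun t => by
      rw [← mul_assoc, ← h4, mul_assoc]
    have r5 : ∀ t, star u * (Z * t) = Z * (star u * t) := fun t => by
      rw [← mul_assoc, ← h5, mul_assoc]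
    have key : ∀ σ : ℂ, σ * σ = 1 → star σ = σ →
        (1 / 2 : ℂ) • (1 + σ • Z) * u + (1 / 2 : ℂ) • (1 - σ • Z) ∈ unitary A := fun σ hσ hs => by
      constructor <;>
      · simp only [star_add, star_mul, star_smul, star_sub, star_one, h.sZ, hs, mul_add, add_mul,
          mul_sub, sub_mul, smul_mul_assoc, mul_smul_comm, mul_assoc, one_mul, mul_one, ← h3, ← h5,
          r3, r5, h.ZZ, h.ZZ', hu.1, hu.2, smul_add, smul_sub, smul_smul]
        match_scalars <;> simp <;> grind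
    have m1 : ∀ σ : ℂ, (1 / 2 : ℂ) • (1 + σ • Z) * u + (1 / 2 : ℂ) • (1 - σ • Z) ∈ N := fun σ =>
      add_mem (mul_mem (N.smul_mem (add_mem (one_mem _) (N.smul_mem hZ _)) _) h1)
        (N.smul_mem (sub_mem (one_mem _) (N.smul_mem hZ _)) _)
    have k : ∀ t ∈ unitary A, t ∈ N → P (t * X * star t * X) 2 ∧ ‖t * X * star t * X‖ ≤ 1 :=
      fun t ht htN => by
        have hu := mul_mem (mul_mem ht h.uX) (Unitary.star_mem ht)
        exact ⟨by simpa [one_add_one_eq_two] using mul _ _ _ _ (nle hu) (nle h.uX) (base t ht htN) pX,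
          nle (mul_mem hu h.uX)⟩
    obtain ⟨a1, a2⟩ := k _ (key 1 (by simp) (by simp)) (m1 1)
    obtain ⟨b1, b2⟩ := k _ (key (-1) (by simp) (by simp)) (m1 (-1))
    have := add _ _ _ _ (mul _ _ _ _ np a2 pp a1) (mul _ _ _ _ nq b2 pq b1)
    convert this using 1
    · simp only [star_add, star_mul, star_smul, star_sub, star_one, star_neg, h.sZ, mul_add, add_mul,
        mul_sub, sub_mul, smul_mul_assoc, mul_smul_comm, mul_assoc, one_mul, mul_one, ← h2, ← h3,
        ← h4, ← h5, r2, r3, r4, r5, h.ZZ, h.ZZ', h.XX, h.XX', h.ZX, h.ZX', hu.1, hu.2, smul_add,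
        smul_sub, smul_smul, mul_neg, neg_mul, smul_neg, neg_neg, neg_smul, one_smul]
      match_scalars <;> simp <;> norm_num
    · norm_num
  have pa : ∀ a ∈ nxt N X Z, ‖a‖ ≤ 1 → P a 10 := fun a ha h1 => by
    haveI : IsClosed ((nxt N X Z : StarSubalgebra ℂ A) : Set A) :=
      hN.inter (Set.isClosed_centralizer _)
    obtain ⟨u, c, e, hc⟩ := CStarAlgebra.exists_sum_four_unitary (⟨a, ha⟩ : nxt N X Z)
    have e' : a = ∑ i, c i • ((u i : nxt N X Z) : A) := by simpa using congrArg Subtype.val e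
    have k : ∀ i, P (c i • ((u i : nxt N X Z) : A)) (5 / 2) := fun i => by
      refine mono _ _ _ ?_ (smul (c i) _ _ (pu _ ⟨congrArg Subtype.val (u i).2.1,
        congrArg Subtype.val (u i).2.2⟩ (u i).1.2))
      have : ‖c i‖ ≤ ‖a‖ / 2 := hc i
      linarith
    rw [e', Fin.sum_univ_four]
    exact mono _ _ _ (by norm_num) (add _ _ _ _ (add _ _ _ _ (add _ _ _ _ (k 0) (k 1)) (k 2)) (k 3))
  intro y hy h1
  have k : ∀ g ∈ unitary A, g ∈ N → P (avg (pμ X Z) (g * y)) 10 ∧ ‖avg (pμ X Z) (g * y)‖ ≤ 1 :=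
    fun g hg hgN => by
      have : ‖avg (pμ X Z) (g * y)‖ ≤ 1 := (norm_avg_le (h.all hX hZ) _).trans
        (by rwa [CStarRing.norm_mem_unitary_mul _ hg])
      exact ⟨pa _ (avg_nxt h hX hZ (mul_mem hgN hy)) this, this⟩
  have k1 := k 1 (one_mem _) (one_mem _)
  have k2 := k X h.uX hX
  have k3 := k Z h.uZ hZ
  have k4 := k _ (mul_mem h.uZ h.uX) (mul_mem hZ hX)
  rw [one_mul] at k1
  rw [h.decomp y]
  exact mono _ _ _ (by norm_num) (add _ _ _ _ (add _ _ _ _ (add _ _ _ _ k1.1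
    (mul _ _ _ _ (nle h.uX) k2.2 pX k2.1)) (mul _ _ _ _ (nle h.uZ) k3.2 pZ k3.1))
    (mul _ _ _ _ (nle (mul_mem h.uX h.uZ)) k4.2 (mul _ _ _ _ (nle h.uX) (nle h.uZ) pX pZ) k4.1))

/-! ### The bimodule `L²(A)` -/

lemma J_dense (T : Tr A) : DenseRange (T.J : A →ₗ[ℂ] T.K) :=
  UniformSpace.Completion.denseRange_coe (α := T.L2)

/-- Two-sided multiplication on `L²`. -/
def LR (T : Tr A) (a b : A) : T.K →L[ℂ] T.K :=
  ((T.J : A →ₗ[ℂ] T.K) ∘ₗ lr a b).extendOfNorm (T.J : A →ₗ[ℂ] T.K)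

lemma J_lr_le (T : Tr A) (a b x : A) : ‖T.J (a * x * b)‖ ≤ ‖a‖ * ‖b‖ * ‖T.J x‖ := by
  refine (T.J_mul_le' _ _).trans ?_
  have := mul_le_mul_of_nonneg_right (T.J_mul_le a x) (norm_nonneg b)
  linarith

lemma LR_J (T : Tr A) (a b x : A) : LR T a b (T.J x) = T.J (a * x * b) :=
  LinearMap.extendOfNorm_eq (J_dense T) ⟨_, J_lr_le T a b⟩ x

lemma K_ind (T : Tr A) {p : T.K → Prop} (hc : IsClosed {c | p c}) (h : ∀ x, p (T.J x)) (c : T.K) :
    p c := (J_dense T).induction_on c hc h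

lemma LR_LR (T : Tr A) (a b a' b' : A) (c : T.K) :
    LR T a b (LR T a' b' c) = LR T (a * a') (b' * b) c :=
  K_ind T (p := fun c => LR T a b (LR T a' b' c) = LR T (a * a') (b' * b) c)
    (isClosed_eq (by fun_prop) (by fun_prop)) (fun x => by simp only [LR_J, mul_assoc]) c

lemma LR_one (T : Tr A) (c : T.K) : LR T 1 1 c = c :=
  K_ind T (p := fun c => LR T 1 1 c = c) (isClosed_eq (by fun_prop) (by fun_prop))
    (fun x => by simp [LR_J]) c

lemma LR_norm (T : Tr A) {a b : A} (ha : a ∈ unitary A) (hb : b ∈ unitary A) (c : T.K) :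
    ‖LR T a b c‖ = ‖c‖ :=
  K_ind T (p := fun c => ‖LR T a b c‖ = ‖c‖) (isClosed_eq (by fun_prop) (by fun_prop))
    (fun x => by simp only [LR_J, J_lr ha hb]) c

lemma LR_inner (T : Tr A) (a b x : A) (c : T.K) :
    ⟪c, T.J (a * x * b)⟫_ℂ = ⟪LR T (star a) (star b) c, T.J x⟫_ℂ :=
  K_ind T (p := fun c => ⟪c, T.J (a * x * b)⟫_ℂ = ⟪LR T (star a) (star b) c, T.J x⟫_ℂ)
    (isClosed_eq (by fun_prop) (by fun_prop)) (fun y => by
      simp only [LR_J, T.inner_J, star_mul, star_star]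
      rw [← mul_assoc, T.tr _ b]; simp only [mul_assoc]) c

/-- The elements commuting with a vector of `L²`. -/
def cen (T : Tr A) (c : T.K) : Subalgebra ℂ A where
  carrier := {a | LR T a 1 c = LR T 1 a c}
  mul_mem' {a b} ha hb := by
    have h1 : LR T (a * b) 1 c = LR T a 1 (LR T b 1 c) := by rw [LR_LR, mul_one]
    have h2 : LR T 1 (a * b) c = LR T 1 b (LR T 1 a c) := by rw [LR_LR, mul_one]
    show LR T (a * b) 1 c = LR T 1 (a * b) c
    rw [h1, h2, show LR T b 1 c = _ from hb, ← show LR T a 1 c = _ from ha, LR_LR, LR_LR]; simp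
  add_mem' {a b} ha hb := by
    have h1 : LR T (a + b) 1 c = LR T a 1 c + LR T b 1 c :=
      K_ind T (p := fun c => LR T (a + b) 1 c = LR T a 1 c + LR T b 1 c)
        (isClosed_eq (by fun_prop) (by fun_prop)) (fun x => by simp [LR_J, add_mul]) c
    have h2 : LR T 1 (a + b) c = LR T 1 a c + LR T 1 b c :=
      K_ind T (p := fun c => LR T 1 (a + b) c = LR T 1 a c + LR T 1 b c)
        (isClosed_eq (by fun_prop) (by fun_prop)) (fun x => by simp [LR_J, mul_add]) c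
    show LR T (a + b) 1 c = LR T 1 (a + b) c
    rw [h1, h2, show LR T b 1 c = _ from hb, show LR T a 1 c = _ from ha]
  algebraMap_mem' r :=
    K_ind T (p := fun c => LR T (algebraMap ℂ A r) 1 c = LR T 1 (algebraMap ℂ A r) c)
      (isClosed_eq (by fun_prop) (by fun_prop))
      (fun x => by simp [LR_J, Algebra.algebraMap_eq_smul_one]) c

lemma mem_cen {c : T.K} {a : A} : a ∈ cen T c ↔ LR T a 1 c = LR T 1 a c := Iff.rfl

/-- Orthogonality to all central vectors. -/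
def Orth (T : Tr A) (x : A) : Prop := ∀ c : T.K, (∀ a, a ∈ cen T c) → ⟪c, T.J x⟫_ℂ = 0

lemma cen_inner {c : T.K} (hc : ∀ a, a ∈ cen T c) (a b x : A) :
    ⟪c, T.J (a * x * b)⟫_ℂ = ⟪c, T.J (b * a * x)⟫_ℂ := by
  have := LR_inner T (b * a) 1 x c
  rw [mul_one] at this
  rw [LR_inner, this, star_mul, star_one]
  congr 1
  have h1 : LR T (star a) (star b) c = LR T (star a) 1 (LR T 1 (star b) c) := by simp [LR_LR]
  rw [h1, ← mem_cen.1 (hc _), LR_LR, mul_one]

lemma Orth.conj {x u : A} (h : Orth T x) (hu : u ∈ unitary A) : Orth T (u * x * star u) :=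
  fun c hc => by rw [cen_inner hc, hu.1, one_mul, h c hc]

variable {ι : Type} [Fintype ι] [DecidableEq ι] {e : ι → ι → A}

lemma MU.inner_Ee (h : MU e) {c : T.K} (hc : ∀ a, a ∈ cen T c) (x : A) :
    ⟪c, T.J (Ee e x)⟫_ℂ = ⟪c, T.J x⟫_ℂ := by
  have e0 : ∀ a b, ⟪c, T.J (e a b * x * e b a)⟫_ℂ = ⟪c, T.J (e b b * x)⟫_ℂ := fun a b => by
    rw [cen_inner hc, h.mm]
  simp only [Ee, map_smul, map_sum, inner_smul_right, inner_sum, e0]
  have e1 : ∑ b, ⟪c, T.J (e b b * x)⟫_ℂ = ⟪c, T.J x⟫_ℂ := by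
    rw [← inner_sum, ← map_sum, ← sum_mul, h.sum, one_mul]
  simp only [e1, sum_const, card_univ, nsmul_eq_mul]
  field_simp [h.card_ne T]

lemma Orth.Ee (h : MU e) {x : A} (hx : Orth T x) : Orth T (Ee e x) :=
  fun c hc => by rw [h.inner_Ee hc, hx c hc]

variable (e) in
/-- The relative commutant of a system of matrix units. -/
def Cm : StarSubalgebra ℂ A := StarSubalgebra.centralizer ℂ (Set.range fun p : ι × ι => e p.1 p.2)

lemma MU.mem_Cm (h : MU e) {y : A} : y ∈ Cm e ↔ ∀ a b, e a b * y = y * e a b := by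
  simp only [Cm, StarSubalgebra.mem_centralizer_iff, Set.forall_mem_range, Prod.forall, h.star]
  exact ⟨fun H a b => (H a b).1, fun H a b => ⟨H a b, H b a⟩⟩

lemma Cm_closed : IsClosed (Cm e : Set A) := Set.isClosed_centralizer _

lemma MU.expand (h : MU e) (y : A) : y = ∑ a, ∑ t, e a t * ent e y a t := by
  have : ∀ a t, e a t * ent e y a t = e a a * y * e t t := fun a t => (h.sand y a a t t).symm
  simp only [this, ← mul_sum, ← sum_mul, h.sum, one_mul, mul_one]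

lemma LR_inner' (T : Tr A) (a b : A) (c d : T.K) :
    ⟪c, LR T a b d⟫_ℂ = ⟪LR T (star a) (star b) c, d⟫_ℂ :=
  K_ind T (p := fun d => ⟪c, LR T a b d⟫_ℂ = ⟪LR T (star a) (star b) c, d⟫_ℂ)
    (isClosed_eq (by fun_prop) (by fun_prop)) (fun x => by rw [LR_J, LR_inner]) d

lemma cen_conj {c : T.K} {v : A} (hv : v ∈ unitary A) : LR T v (star v) c = c ↔ v ∈ cen T c := by
  rw [mem_cen]
  refine ⟨fun h => ?_, fun h => ?_⟩
  · have := congrArg (LR T 1 v) h
    rwa [LR_LR, one_mul, hv.1] at this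
  · have := congrArg (LR T 1 (star v)) h
    rwa [LR_LR, LR_LR, one_mul, one_mul, one_mul, hv.2, LR_one] at this

/-- Hilbert space Dixmier lemma. -/
lemma MU.dix (h : MU e) {y : A} (hy : y ∈ Cm e) (ho : Orth T y) {γ : ℝ}
    (hγ : ∀ v ∈ unitary A, v ∈ Cm e → ‖T.J (v * y * Star.star v) - T.J y‖ ≤ γ) :
    ‖T.J y‖ ≤ γ := by
  let S : Set T.K := {c | (∀ v ∈ unitary A, v ∈ Cm e → ‖LR T v (Star.star v) c - T.J y‖ ≤ γ) ∧
    (∀ d : T.K, (∀ a, a ∈ cen T d) → ⟪d, c⟫_ℂ = 0) ∧ ∀ a b, e a b ∈ cen T c}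
  have hcl : IsClosed S := by
    simp only [S, mem_cen, Set.setOf_and, Set.setOf_forall]
    refine (isClosed_iInter fun v => isClosed_iInter fun _ => isClosed_iInter fun _ =>
      isClosed_le (by fun_prop) (by fun_prop)).inter ((isClosed_iInter fun d =>
        isClosed_iInter fun _ => isClosed_eq (by fun_prop) (by fun_prop)).inter
      (isClosed_iInter fun a => isClosed_iInter fun b => isClosed_eq (by fun_prop) (by fun_prop)))
  have hne : T.J y ∈ S := ⟨fun v hv hv' => by rw [LR_J]; exact hγ v hv hv', ho, fun a b => by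
    rw [mem_cen, LR_J, LR_J, mul_one, one_mul, h.mem_Cm.1 hy]⟩
  have hcv : Convex ℝ S := by
    rintro c ⟨c1, c2, c3⟩ d ⟨d1, d2, d3⟩ s t hs ht hst
    refine ⟨fun v hv hv' => ?_, fun f hf => ?_, fun a b => ?_⟩
    · have : LR T v (Star.star v) (s • c + t • d) - T.J y =
          s • (LR T v (Star.star v) c - T.J y) + t • (LR T v (Star.star v) d - T.J y) := by
        rw [map_add, ContinuousLinearMap.map_smul_of_tower, ContinuousLinearMap.map_smul_of_tower,
          smul_sub, smul_sub, sub_add_sub_comm, ← add_smul, hst, one_smul]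
      rw [this]
      refine (norm_add_le _ _).trans ?_
      rw [norm_smul, norm_smul, Real.norm_of_nonneg hs, Real.norm_of_nonneg ht]
      have := c1 v hv hv'
      have := d1 v hv hv'
      calc _ ≤ s * γ + t * γ := by gcongr
        _ = γ := by rw [← add_mul, hst, one_mul]
    · rw [inner_add_right, ← Complex.coe_smul, ← Complex.coe_smul, inner_smul_right,
        inner_smul_right, c2 f hf, d2 f hf]; simp
    · have k1 := mem_cen.1 (c3 a b)
      have k2 := mem_cen.1 (d3 a b)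
      simp only [mem_cen, map_add, ContinuousLinearMap.map_smul_of_tower, k1, k2]
  have hinv : ∀ c ∈ S, ∀ v ∈ unitary A, v ∈ Cm e → LR T v (Star.star v) c ∈ S := by
    rintro c ⟨c1, c2, c3⟩ v hv hv'
    refine ⟨fun w hw hw' => ?_, fun f hf => ?_, fun a b => ?_⟩
    · rw [LR_LR, ← star_mul]; exact c1 _ (mul_mem hw hv) (mul_mem hw' hv')
    · have := (cen_conj (Unitary.star_mem hv)).2 (hf _)
      rw [LR_inner', this, c2 f hf]
    · have k1 := mem_cen.1 (c3 a b)
      have k2 : LR T (e a b) 1 (LR T v (Star.star v) c) =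
          LR T v (Star.star v) (LR T (e a b) 1 c) := by
        rw [LR_LR, LR_LR, mul_one, one_mul, h.mem_Cm.1 hv']
      rw [mem_cen, k2, k1, LR_LR, LR_LR, mul_one, one_mul, h.mem_Cm.1 (star_mem hv')]
  letI := InnerProductSpace.rclikeToReal ℂ T.K
  obtain ⟨m, hm, hmin⟩ := exists_norm_eq_iInf_of_complete_convex ⟨_, hne⟩ hcl.isComplete hcv 0
  have hle : ∀ c ∈ S, ‖m‖ ≤ ‖c‖ := fun c hc => by
    have := ciInf_le (f := fun w : S => ‖(0 : T.K) - w‖) ⟨0, by rintro _ ⟨w, rfl⟩; positivity⟩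
      ⟨c, hc⟩
    rw [← hmin] at this
    simpa using this
  have hfix : ∀ v ∈ unitary A, v ∈ Cm e → v ∈ cen T m := fun v hv hv' => by
    rw [← cen_conj hv]
    have h1 := LR_norm T hv (Unitary.star_mem hv) m
    have h2 := hle _ (hcv (hinv m hm v hv hv') hm (a := 1 / 2) (b := 1 / 2) (by norm_num)
      (by norm_num) (by norm_num))
    rw [← smul_add, norm_smul] at h2
    have h3 := parallelogram_law_with_norm ℂ (LR T v (Star.star v) m) m
    rw [h1] at h3
    rw [← sub_eq_zero, ← norm_eq_zero]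
    have h4 := norm_nonneg m
    have h5 := norm_nonneg (LR T v (Star.star v) m - m)
    norm_num at h2
    nlinarith
  have hall : ∀ a, a ∈ cen T m := fun a => by
    rw [h.expand a]
    refine sum_mem fun s _ => sum_mem fun t _ => mul_mem (hm.2.2 s t) ?_
    haveI : IsClosed ((Cm e : StarSubalgebra ℂ A) : Set A) := Cm_closed
    obtain ⟨u, c, e', -⟩ := CStarAlgebra.exists_sum_four_unitary
      (⟨ent e a s t, h.mem_Cm.2 fun a' b' => h.ent_comm _ _ _ _ _⟩ : Cm e)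
    have e'' : ent e a s t = ∑ i, c i • ((u i : Cm e) : A) := by
      simpa using congrArg Subtype.val e'
    rw [e'']
    exact sum_mem fun i _ => Subalgebra.smul_mem _ (hfix _ ⟨congrArg Subtype.val (u i).2.1,
      congrArg Subtype.val (u i).2.2⟩ (u i).1.2) _
  have h0 : m = 0 := inner_self_eq_zero.1 (hm.2.1 m hall)
  simpa [h0] using hm.1 1 (one_mem _) (one_mem _)

end Crest.Agent.H1KR
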