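import Crest.Agent.H1KR.C4

/-! Kadison–Ringrose, tracial part 5: existence of flat matrix units. -/

set_option autoImplicit false
set_option maxHeartbeats 400000
open scoped InnerProductSpace ComplexConjugate
open Finset Crest.Agent.H1VN Crest.Agent.H2.KS

noncomputable section
namespace Crest.Agent.H1KR

variable {A : Type*} [CStarAlgebra A] {T : Tr A}

/-- The matrix units of a Pauli pair. -/
def pm (X Z : A) (i j : Bool) : A :=
  (if i then X else 1) * ((1 / 2 : ℂ) • (1 + Z)) * (if j then X else 1)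

lemma pm_mu {X Z : A} (h : Pauli X Z) : MU (pm X Z) where
  mul a b c d := by
    cases a <;> cases b <;> cases c <;> cases d <;>
    · simp only [pm, if_true, Bool.false_eq_true, Bool.true_eq_false, if_false, mul_add, add_mul,
        smul_mul_assoc, mul_smul_comm, one_mul, mul_one, mul_assoc, h.XX, h.XX', h.ZZ, h.ZZ', h.ZX,
        h.ZX', mul_neg, neg_mul, smul_add, smul_neg, neg_neg]
      module
  star a b := by cases a <;> cases b <;> simp [pm, h.sX, h.sZ, mul_assoc]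
  sum := by
    simp only [Fintype.sum_bool, pm, if_true, Bool.false_eq_true, if_false, mul_add, add_mul,
      smul_mul_assoc, mul_smul_comm, one_mul, mul_one, mul_assoc, h.XX, h.XX', h.ZX, mul_neg]
    module

lemma pm_X {X Z : A} (h : Pauli X Z) (i j : Bool) : pm X Z i j * X = pm X Z i (!j) := by
  cases j <;> simp [pm, mul_assoc, h.XX]

lemma X_pm {X Z : A} (h : Pauli X Z) (i j : Bool) : X * pm X Z i j = pm X Z (!i) j := by
  cases i <;> simp [pm, mul_assoc, h.XX']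

lemma pm_inv {X Z : A} (h : Pauli X Z) : Inv (pm X Z) X := fun B => by
  simp only [pm_X h, Fintype.sum_bool, Bool.not_true, Bool.not_false]; ring

lemma pm_Ee {X Z : A} (h : Pauli X Z) (z : A) : Ee (pm X Z) (X * z * X) = Ee (pm X Z) z := by
  have : ∀ i j, pm X Z i j * (X * z * X) * pm X Z j i = pm X Z i (!j) * z * pm X Z (!j) i :=
    fun i j => by rw [← pm_X h, ← X_pm h]; simp only [mul_assoc]
  simp only [Ee, this, Fintype.sum_bool, Bool.not_true, Bool.not_false]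
  congr 1; abel

lemma pm_mem {X Z : A} {N : StarSubalgebra ℂ A} (hX : X ∈ N) (hZ : Z ∈ N) (i j : Bool) :
    pm X Z i j ∈ N := by
  refine mul_mem (mul_mem ?_ (N.smul_mem (add_mem (one_mem _) hZ) _)) ?_ <;> split_ifs <;>
    simp [hX, one_mem]

lemma _root_.Crest.Agent.H1VN.Pauli.conj {X Z t : A} (h : Pauli X Z) (ht : t ∈ unitary A) :
    Pauli (t * X * star t) (t * Z * star t) :=
  ⟨by simp [h.sX, mul_assoc], by simp [h.sZ, mul_assoc],
    by simp only [mul_assoc, u1 ht, h.XX', ht.2], by simp only [mul_assoc, u1 ht, h.ZZ', ht.2],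
    by simp only [mul_assoc, u1 ht, h.ZX', mul_neg]⟩

variable (A) in
/-- Bundled systems of matrix units. -/
structure MS where
  ι : Type
  fi : Fintype ι
  de : DecidableEq ι
  e : ι → ι → A
  mu : MU e

instance (s : MS A) : Fintype s.ι := s.fi
instance (s : MS A) : DecidableEq s.ι := s.de

variable (T) in
/-- Refinement. -/
def Ref (s s' : MS A) : Prop := (∀ h, Inv s.e h → Inv s'.e h) ∧
  (∀ y, ‖T.J (Ee s'.e y)‖ ≤ ‖T.J (Ee s.e y)‖) ∧ Fintype.card s.ι ≤ Fintype.card s'.ι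

lemma Ref.rfl (s : MS A) : Ref T s s := ⟨fun _ h => h, fun _ => le_rfl, le_rfl⟩

lemma Ref.trans {s s' s'' : MS A} (h : Ref T s s') (h' : Ref T s' s'') : Ref T s s'' :=
  ⟨fun x hx => h'.1 x (h.1 x hx), fun y => (h'.2.1 y).trans (h.2.1 y), h.2.2.trans h'.2.2⟩

lemma step (T : Tr A) (s : MS A) {X Z : A} (h : Pauli X Z) (hX : X ∈ Cm s.e) (hZ : Z ∈ Cm s.e) :
    ∃ s', Ref T s s' ∧ Fintype.card s'.ι = 2 * Fintype.card s.ι ∧
      ∀ y, Ee s'.e y = Ee (pm X Z) (Ee s.e y) := by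
  have hf := pm_mu h
  have hc : ∀ a b i j, s.e a b * pm X Z i j = pm X Z i j * s.e a b := fun a b i j =>
    s.mu.mem_Cm.1 (pm_mem hX hZ i j) a b
  have hc' : ∀ a b i j x, s.e a b * (pm X Z i j * x) = pm X Z i j * (s.e a b * x) :=
    fun a b i j x => by rw [← mul_assoc, hc, mul_assoc]
  let s' : MS A := ⟨Bool × s.ι, inferInstance, inferInstance,
    fun p q => pm X Z p.1 q.1 * s.e p.2 q.2,
    ⟨fun a b c d => by
      rw [mul_assoc, hc', s.mu.mul, hf.mul']
      by_cases h1 : b.1 = c.1 <;> by_cases h2 : b.2 = c.2 <;> simp [h1, h2, Prod.ext_iff],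
    fun a b => by rw [star_mul, hf.star, s.mu.star, hc],
    by rw [Fintype.sum_prod_type]; simp only [← mul_sum, s.mu.sum, mul_one, hf.sum]⟩⟩
  have hE : ∀ y, Ee s'.e y = Ee (pm X Z) (Ee s.e y) := fun y => by
    simp only [Ee, s', Fintype.sum_prod_type, mul_smul_comm, smul_mul_assoc, ← smul_sum, smul_smul,
      mul_sum, sum_mul, Fintype.card_prod, Nat.cast_mul, mul_inv, ← hc _ _ _ _, mul_assoc]
    congr 1
    refine sum_congr rfl fun i _ => sum_comm.trans (sum_congr rfl fun j _ =>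
      sum_congr rfl fun a _ => sum_congr rfl fun b _ => ?_)
    rw [hc']
  refine ⟨s', ⟨fun x hx B => ?_, fun y => ?_, by simp [s']; omega⟩, by simp [s'], hE⟩
  · simp only [s', Fintype.sum_prod_type]
    refine sum_congr rfl fun i _ => sum_comm.trans ((sum_congr rfl fun j _ => ?_).trans sum_comm)
    simpa [mul_assoc] using hx (B.pre (lr (pm X Z i j) 1) (lr (pm X Z i j) 1))
  · rw [hE]; exact hf.J_Ee_le T _

lemma ext_pauli (hE : Ext A) (s : MS A) : ∃ X Z : A, Pauli X Z ∧ X ∈ Cm s.e ∧ Z ∈ Cm s.e := by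
  obtain ⟨X, Z, h, hX, hZ⟩ := hE s.ι s.e s.mu
  exact ⟨X, Z, h, s.mu.mem_Cm.2 fun a b => (hX a b).symm, s.mu.mem_Cm.2 fun a b => (hZ a b).symm⟩

lemma enlarge (T : Tr A) (hE : Ext A) (s : MS A) (n : ℕ) :
    ∃ s', Ref T s s' ∧ n ≤ Fintype.card s'.ι := by
  induction n with
  | zero => exact ⟨s, .rfl s, Nat.zero_le _⟩
  | succ n ih =>
    obtain ⟨s', h1, h2⟩ := ih
    obtain ⟨X, Z, h, hX, hZ⟩ := ext_pauli hE s'
    obtain ⟨s'', k1, k2, -⟩ := step T s' h hX hZ
    have := s'.mu.ne T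
    have : 0 < Fintype.card s'.ι := Fintype.card_pos
    exact ⟨s'', h1.trans k1, by omega⟩

lemma contract (hE : Ext A) (s : MS A) {y : A} (hy : Orth T y) : ∃ s', Ref T s s' ∧
    ‖T.J (Ee s'.e y)‖ ^ 2 ≤ (1 - 1 / 10 ^ 4) * ‖T.J (Ee s.e y)‖ ^ 2 := by
  obtain ⟨X, Z, h, hX, hZ⟩ := ext_pauli hE s
  set z := Ee s.e y with hz
  have zc : z ∈ Cm s.e := s.mu.mem_Cm.2 (s.mu.Ee_comm y)
  by_cases H : ∀ t ∈ unitary A, t ∈ Cm s.e →
      ‖T.J (t * X * star t * z - z * (t * X * star t))‖ ≤ 1 * (‖T.J z‖ / 50)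
  · have h0 := norm_nonneg (T.J z)
    have key := gen Cm_closed h hX hZ (fun a r => ‖T.J (a * z - z * a)‖ ≤ r * (‖T.J z‖ / 50))
      (fun a r b s ha hb => by
        have : (a + b) * z - z * (a + b) = (a * z - z * a) + (b * z - z * b) := by noncomm_ring
        rw [this, map_add, add_mul]
        exact (norm_add_le _ _).trans (add_le_add ha hb))
      (fun c a r ha => by
        rw [smul_mul_assoc, mul_smul_comm, ← smul_sub, map_smul, norm_smul, mul_assoc]
        exact mul_le_mul_of_nonneg_left ha (norm_nonneg _))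
      (fun a r b s na nb ha hb => by
        have : a * b * z - z * (a * b) = (a * z - z * a) * b + a * (b * z - z * b) := by
          noncomm_ring
        rw [this, map_add, add_mul]
        refine (norm_add_le _ _).trans (add_le_add (le_trans ?_ ha) (le_trans ?_ hb))
        · exact (T.J_mul_le' _ _).trans (mul_le_of_le_one_right (norm_nonneg _) nb)
        · exact (T.J_mul_le _ _).trans (mul_le_of_le_one_left (norm_nonneg _) na))
      (fun a r s hrs ha => ha.trans (by gcongr)) (by simp) H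
    have := s.mu.dix zc (hy.Ee s.mu) (γ := 48 * (‖T.J z‖ / 50)) fun v hv hv' => by
      have e : v * z * star v - z = (v * z - z * v) * star v := by
        rw [sub_mul, mul_assoc z, hv.2, mul_one]
      rw [← map_sub, e, T.J_mul_unit (Unitary.star_mem hv)]
      exact key v hv' (nle hv)
    have h1 : ‖T.J z‖ = 0 := by linarith
    exact ⟨s, .rfl s, by rw [← hz, h1]; norm_num⟩
  · push Not at H
    obtain ⟨t, ht, ht', H⟩ := H
    have h' := h.conj ht
    obtain ⟨s', k1, -, k2⟩ := step T s h' (mul_mem (mul_mem ht' hX) (star_mem ht'))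
      (mul_mem (mul_mem ht' hZ) (star_mem ht'))
    refine ⟨s', k1, ?_⟩
    generalize t * X * star t = X' at *
    generalize t * Z * star t = Z' at *
    have e1 : Ee s'.e y = Ee (pm X' Z') ((1 / 2 : ℂ) • (X' * z * X' + z)) := by
      rw [k2, Ee_smul, Ee_add, pm_Ee h', ← hz]; module
    have e2 := (pm_mu h').J_Ee_le T ((1 / 2 : ℂ) • (X' * z * X' + z))
    rw [← e1, map_smul, norm_smul, map_add] at e2
    have e3 := parallelogram_law_with_norm ℂ (T.J (X' * z * X')) (T.J z)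
    have e4 : ‖T.J (X' * z * X') - T.J z‖ = ‖T.J (X' * z - z * X')‖ := by
      rw [← map_sub, ← T.J_mul_unit h'.uX, sub_mul, mul_assoc, h'.XX, mul_one]
    rw [e4, J_lr h'.uX h'.uX] at e3
    have h0 := norm_nonneg (T.J z)
    have h1 := norm_nonneg (T.J (Ee s'.e y))
    have e5 : (‖T.J z‖ / 50) ^ 2 ≤ ‖T.J (X' * z - z * X')‖ ^ 2 := by gcongr; linarith
    have e6 : ‖T.J (Ee s'.e y)‖ ^ 2 ≤ (1 / 2 * ‖T.J (X' * z * X') + T.J z‖) ^ 2 := by
      gcongr; simpa using e2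
    nlinarith

lemma kill (hE : Ext A) (s : MS A) {y : A} (hy : Orth T y) {ε : ℝ} (hε : 0 < ε) :
    ∃ s', Ref T s s' ∧ ‖T.J (Ee s'.e y)‖ ^ 2 ≤ ε := by
  have key : ∀ m : ℕ, ∃ s', Ref T s s' ∧
      ‖T.J (Ee s'.e y)‖ ^ 2 ≤ (1 - 1 / 10 ^ 4) ^ m * (‖T.J (Ee s.e y)‖ ^ 2 + 1) := fun m => by
    induction m with
    | zero => exact ⟨s, .rfl s, by simp⟩
    | succ m ih =>
      obtain ⟨s', h1, h2⟩ := ih
      obtain ⟨s'', k1, k2⟩ := contract hE s' hy
      refine ⟨s'', h1.trans k1, k2.trans ?_⟩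
      rw [pow_succ' _ m, mul_assoc]; gcongr
  obtain ⟨m, hm⟩ := exists_pow_lt_of_lt_one (x := ε / (‖T.J (Ee s.e y)‖ ^ 2 + 1))
    (y := 1 - 1 / 10 ^ 4) (by positivity) (by norm_num)
  obtain ⟨s', h1, h2⟩ := key m
  exact ⟨s', h1, h2.trans ((lt_div_iff₀ (by positivity)).1 hm).le⟩

lemma kill' (hE : Ext A) (s : MS A) {κ : Type*} (S : Finset κ) (y : κ → A)
    (hy : ∀ i ∈ S, Orth T (y i)) {ε : ℝ} (hε : 0 < ε) :
    ∃ s', Ref T s s' ∧ ∀ i ∈ S, ‖T.J (Ee s'.e (y i))‖ ^ 2 ≤ ε := by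
  classical
  induction S using Finset.induction_on with
  | empty => exact ⟨s, .rfl s, by simp⟩
  | insert a S _ ih =>
    obtain ⟨s', h1, h2⟩ := ih fun i hi => hy i (mem_insert_of_mem hi)
    obtain ⟨s'', k1, k2⟩ := kill hE s' (hy a (mem_insert_self _ _)) hε
    refine ⟨s'', h1.trans k1, fun i hi => ?_⟩
    rcases mem_insert.1 hi with rfl | hi
    · exact k2
    · exact (pow_le_pow_left₀ (norm_nonneg _) (k1.2.1 _) 2).trans (h2 i hi)

variable {ι : Type} [Fintype ι] [DecidableEq ι] {e : ι → ι → A}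
variable {ι' : Type} [Fintype ι'] [DecidableEq ι'] {e' : ι' → ι' → A}

lemma MU.Ee_e (h : MU e) (a c : ι) :
    Ee e (e a c) = (if a = c then (Fintype.card ι : ℂ)⁻¹ else 0) • (1 : A) := by
  simp only [Ee, mul_assoc, h.mul', h.mul]
  split_ifs with hac
  · subst hac; simp [h.mm, h.sum]
  · simp [hac, Ne.symm hac, h.mul]

lemma MU.symm (h : MU e) (h' : MU e') (T : Tr A) (w : A) :
    (∑ a, ∑ c, ‖T.J (Ee e' (w * e a c * Star.star w))‖ ^ 2) / Fintype.card ι =
    (∑ a, ∑ c, ‖T.J (Ee e (Star.star w * e' a c * w))‖ ^ 2) / Fintype.card ι' := by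
  simp only [h.J_Ee_sq', h'.J_Ee_sq', ← sum_div]
  rw [div_div, div_div, mul_comm]
  congr 1
  rw [sum_congr rfl fun a _ => sum_comm, sum_comm, sum_congr rfl fun a' _ =>
    sum_congr rfl fun a _ => sum_comm, sum_congr rfl fun a' _ => sum_comm, sum_comm]
  refine sum_congr rfl fun c' _ => sum_congr rfl fun a' _ => sum_congr rfl fun a _ =>
    sum_congr rfl fun c _ => ?_
  simp only [star_mul, star_star, h.star, h'.star, mul_assoc]
  rw [T.tr (e' a' c')]; simp only [mul_assoc]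
  rw [T.tr w]; simp only [mul_assoc]

theorem exists_flat (T : Tr A) (hE : Ext A) (s : MS A) (W : Finset A)
    (hW : ∀ w ∈ W, w ∈ unitary A) {θ : ℝ} (hθ : 0 < θ) (n : ℕ) :
    ∃ s', Ref T s s' ∧ n ≤ Fintype.card s'.ι ∧ ∀ w ∈ W, Flat T s'.e θ w := by
  obtain ⟨m, hm⟩ := exists_nat_ge (8 / θ)
  obtain ⟨s₀, h1, h2⟩ := enlarge T hE s (max n m)
  have hn := s₀.mu.card_pos T
  have hn1 : (1 : ℝ) ≤ Fintype.card s₀.ι := by
    have := s₀.mu.ne T
    exact_mod_cast Fintype.card_pos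
  have hm' : 8 / θ ≤ Fintype.card s₀.ι := hm.trans (by exact_mod_cast (le_max_right _ _).trans h2)
  set n₀ : ℝ := (Fintype.card s₀.ι : ℝ) with hn₀
  obtain ⟨s', k1, k2⟩ := kill' (T := T) hE s₀ (W ×ˢ (univ : Finset (s₀.ι × s₀.ι)))
    (fun p => star p.1 * (s₀.e p.2.1 p.2.2 - Ee s₀.e (s₀.e p.2.1 p.2.2)) * star (star p.1))
    (fun p hp => Orth.conj (fun c hc => by rw [map_sub, inner_sub_right, s₀.mu.inner_Ee hc, sub_self])
      (Unitary.star_mem (hW _ (mem_product.1 hp).1))) (ε := θ / (4 * n₀)) (by positivity)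
  refine ⟨s', h1.trans k1, ((le_max_left _ _).trans h2).trans k1.2.2, fun w hw => ?_⟩
  have hu := hW w hw
  refine s'.mu.flat T hu ?_
  have e1 : Psi T s'.e w ≤ (∑ a, ∑ c, ‖T.J (Ee s'.e (star w * s₀.e a c * w))‖ ^ 2) / n₀ := by
    rw [hn₀, ← s'.mu.symm s₀.mu, Psi]
    gcongr with a _ c _
    exact k1.2.1 _
  have e2 : ∀ a c, ‖T.J (Ee s'.e (star w * s₀.e a c * w))‖ ^ 2 ≤
      2 * (θ / (4 * n₀)) + if a = c then 2 / n₀ ^ 2 else 0 := fun a c => by
    have k3 := k2 (w, a, c) (mem_product.2 ⟨hw, mem_univ _⟩)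
    simp only [star_star, s₀.mu.Ee_e, mul_sub, sub_mul, Ee_sub, mul_smul_comm, smul_mul_assoc,
      mul_one, hu.1, Ee_smul, s'.mu.Ee_fix T (x := 1) (by simp), map_sub, map_smul] at k3
    have k4 := norm_le_norm_sub_add (T.J (Ee s'.e (star w * s₀.e a c * w)))
      ((if a = c then (Fintype.card s₀.ι : ℂ)⁻¹ else 0) • T.J 1)
    have k5 : ‖(if a = c then (Fintype.card s₀.ι : ℂ)⁻¹ else 0) • T.J 1‖ ^ 2 =
        (if a = c then 2 / n₀ ^ 2 else 0) / 2 := by
      rw [norm_smul, T.norm_J_one]; split_ifs <;> simp [hn₀]; field_simp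
    refine (pow_le_pow_left₀ (norm_nonneg _) k4 2).trans ((add_sq_le).trans ?_)
    linarith
  have e3 : ∑ a, ∑ c, ‖T.J (Ee s'.e (star w * s₀.e a c * w))‖ ^ 2 ≤ n₀ * (θ / 2 + 2 / n₀ ^ 2) := by
    refine (sum_le_sum fun a _ => sum_le_sum fun c _ => e2 a c).trans (le_of_eq ?_)
    simp only [sum_add_distrib, sum_const, card_univ, nsmul_eq_mul, ← hn₀, sum_ite_eq, mem_univ,
      if_true]
    field_simp; ring
  have e4 : Psi T s'.e w ≤ θ / 2 + 2 / n₀ ^ 2 := e1.trans (by rw [div_le_iff₀ hn]; linarith)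
  have e5 : 2 / (Fintype.card s'.ι : ℝ) ≤ 2 / n₀ := by
    gcongr; rw [hn₀]; exact_mod_cast k1.2.2
  have e6 : 2 / n₀ ^ 2 ≤ 2 / n₀ := by gcongr; nlinarith
  have e7 : 2 / n₀ ≤ θ / 4 := by
    rw [div_le_iff₀ hθ] at hm'; rw [div_le_iff₀ hn]; linarith
  linarith

end Crest.Agent.H1KR
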