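import Crest.Agent.H1KR.C5

/-! Kadison–Ringrose, tracial part 6: words in random monomial unitaries. -/

set_option autoImplicit false
set_option maxHeartbeats 400000
open scoped InnerProductSpace ComplexConjugate
open Finset Function Crest.Agent.H1VN Crest.Agent.H2.KS

noncomputable section
namespace Crest.Agent.H1KR

variable {A : Type*} [CStarAlgebra A] {T : Tr A} {k : ℕ}

/-- The word `∏ tₘ cₘ tₘ*`. -/
def wX (t : Fin k → A) : MultilinearMap ℂ (fun _ : Fin k => A) A :=
  (MultilinearMap.mkPiAlgebraFin ℂ k A).compLinearMap fun m => lr (t m) (star (t m))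

lemma wX_apply (t c : Fin k → A) :
    wX t c = (List.ofFn fun m => t m * c m * star (t m)).prod := by simp [wX]

lemma conj_unit {t c : A} (ht : t ∈ unitary A) (hc : c ∈ unitary A) :
    t * c * star t ∈ unitary A := mul_mem (mul_mem ht hc) (Unitary.star_mem ht)

lemma wX_unit {t c : Fin k → A} (ht : ∀ m, t m ∈ unitary A) (hc : ∀ m, c m ∈ unitary A) :
    wX t c ∈ unitary A := by
  rw [wX_apply]
  exact list_prod_mem (List.forall_mem_ofFn_iff.2 fun m => conj_unit (ht m) (hc m))

lemma slots {t c : Fin k → A} (ht : ∀ m, t m ∈ unitary A) (hc : ∀ m, c m ∈ unitary A)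
    {i j : Fin k} (hij : i < j) : ∃ U ∈ unitary A, ∃ V ∈ unitary A, ∃ Y ∈ unitary A,
      ((j : ℕ) = i + 1 → V = star (t i) * t j) ∧
      ∀ p q, wX t (update (update c i p) j q) = U * (p * V * q) * Y := by
  set L := List.ofFn fun m => t m * c m * star (t m) with hL
  have hLu : ∀ x ∈ L, x ∈ unitary A := List.forall_mem_ofFn_iff.2 fun m => conj_unit (ht m) (hc m)
  have hij' : (i : ℕ) < j := hij
  refine ⟨((L.take j).take i).prod * t i, mul_mem (list_prod_mem fun x hx =>
      hLu x (List.mem_of_mem_take (List.mem_of_mem_take hx))) (ht i),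
    star (t i) * ((L.take j).drop (i + 1)).prod * t j, mul_mem (mul_mem (Unitary.star_mem (ht i))
      (list_prod_mem fun x hx => hLu x (List.mem_of_mem_take (List.mem_of_mem_drop hx)))) (ht j),
    star (t j) * (L.drop (j + 1)).prod, mul_mem (Unitary.star_mem (ht j))
      (list_prod_mem fun x hx => hLu x (List.mem_of_mem_drop hx)), fun h => ?_, fun p q => ?_⟩
  · rw [h, List.drop_take_self]; simp
  · have e : (List.ofFn fun m => t m * update (update c i p) j q m * star (t m)) =
        (L.set i (t i * p * star (t i))).set j (t j * q * star (t j)) := by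
      refine List.ext_getElem (by simp [hL]) fun m h1 h2 => ?_
      simp only [hL, List.getElem_ofFn, List.getElem_set, update_apply, Fin.ext_iff]
      split_ifs with h3 h4 h5 h6 h7 h8 <;> first | omega | rfl | (subst_vars; rfl)
    have h1 : (j : ℕ) < L.length := by simp [hL]
    rw [wX_apply, e, List.prod_set, List.take_set, List.prod_set, List.drop_set_of_lt (by omega),
      if_pos (by simp; omega), if_pos (by simpa using h1)]
    simp only [mul_assoc]

lemma resample {κ Ω M : Type*} [Fintype κ] [DecidableEq κ] [Fintype Ω] [AddCommMonoid M] (i : κ)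
    (G : (κ → Ω) → M) : ∑ R : κ → Ω, ∑ g, G (update R i g) = Fintype.card Ω • ∑ R, G R := by
  have := Equiv.sum_comp (Function.Involutive.toPerm
    (fun p : (κ → Ω) × Ω => (update p.1 i p.2, p.1 i)) (fun p => by simp)) (fun p => G p.1)
  simp only [Fintype.sum_prod_type, Involutive.coe_toPerm, sum_const, card_univ,
    ← smul_sum] at this
  exact this

lemma resample2 {κ Ω M : Type*} [Fintype κ] [DecidableEq κ] [Fintype Ω] [AddCommMonoid M]
    (i j : κ) (G : (κ → Ω) → M) : ∑ R : κ → Ω, ∑ g, ∑ g', G (update (update R i g) j g') =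
      Fintype.card Ω • Fintype.card Ω • ∑ R, G R := by
  rw [resample i fun R => ∑ g', G (update R j g'), resample]

variable {ι : Type} [Fintype ι] [DecidableEq ι] {e : ι → ι → A} {N : ℕ} [NeZero N]

/-- Coefficients. -/
def cR (R : Fin k → Om ι N) (I : Fin k → ι × ι) : ℂ := ∏ m, Dm ℂ (R m) (I m).1 (I m).2

variable (e) in
/-- Words in matrix units. -/
def Xe (t : Fin k → A) (I : Fin k → ι × ι) : A := wX t fun m => e (I m).1 (I m).2

variable (e) in
/-- Words in monomial unitaries. -/
def XR (t : Fin k → A) (R : Fin k → Om ι N) : A := wX t fun m => rr e (R m)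

lemma wX_exp (t : Fin k → A) (γ : Fin k → ι × ι → ℂ) :
    wX t (fun m => ∑ p, γ m p • e p.1 p.2) = ∑ I : Fin k → ι × ι, (∏ m, γ m (I m)) • Xe e t I := by
  rw [MultilinearMap.map_sum]
  exact sum_congr rfl fun I _ => MultilinearMap.map_smul_univ _ _ _

lemma rr_eq (ω : Om ι N) : rr e ω = ∑ p : ι × ι, Dm ℂ ω p.1 p.2 • e p.1 p.2 :=
  (Fintype.sum_prod_type' _).symm

lemma XR_eq (t : Fin k → A) (R : Fin k → Om ι N) : XR e t R = ∑ I, cR R I • Xe e t I := by
  simp only [XR, rr_eq]; exact wX_exp t _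

lemma XR_perm (t : Fin k → A) (R : Fin k → Om ι N) (σ : Equiv.Perm (Fin k)) :
    XR e t (R ∘ σ) = ∑ I, cR R I • Xe e t (I ∘ σ) := by
  rw [XR_eq, ← Equiv.sum_comp (σ.symm.arrowCongr (Equiv.refl (ι × ι)))]
  refine sum_congr rfl fun I _ => ?_
  congr 1
  exact Equiv.prod_comp σ fun m => Dm ℂ (R m) (I m).1 (I m).2

lemma MU.XR_unit (h : MU e) {t : Fin k → A} (ht : ∀ m, t m ∈ unitary A) (R : Fin k → Om ι N) :
    XR e t R ∈ unitary A := wX_unit ht fun _ => h.rr_unit _

/-- Independent copies. -/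
lemma lemD (hN : 1 < N) (B : Fm A) (z x : (Fin k → ι × ι) → A) :
    ∑ R : Fin k → Om ι N, B (∑ I, cR R I • z I) (∑ I, cR R I • x I) =
      ((Fintype.card (Om ι N) : ℂ) / Fintype.card ι) ^ k * ∑ I, B (z I) (x I) := by
  have : ∀ I I' : Fin k → ι × ι, ∑ R : Fin k → Om ι N, conj (cR R I) * cR R I' =
      if I = I' then ((Fintype.card (Om ι N) : ℂ) / Fintype.card ι) ^ k else 0 := fun I I' => by
    simp only [cR, map_prod, ← prod_mul_distrib]
    rw [← Fintype.piFinset_univ, ← prod_univ_sum (fun _ => univ)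
      (fun m ω => conj (Dm ℂ ω (I m).1 (I m).2) * Dm ℂ ω (I' m).1 (I' m).2)]
    simp only [Dm_des hN]
    split_ifs with h
    · simp [h, div_pow]
    · obtain ⟨m, hm⟩ := Function.ne_iff.1 h
      exact prod_eq_zero (mem_univ m) (if_neg hm)
  simp only [sesq_sum]
  rw [sum_comm, mul_sum]
  refine sum_congr rfl fun p _ => ?_
  rw [sum_comm]
  simp only [← sum_mul, this]
  simp

/-- All row and all column indices are distinct. -/
def Dist (I : Fin k → ι × ι) : Prop :=
  Injective (fun m => (I m).1) ∧ Injective (fun m => (I m).2)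

instance (I : Fin k → ι × ι) : Decidable (Dist I) := Classical.dec _

lemma Dist.perm {I : Fin k → ι × ι} (h : Dist I) (σ : Equiv.Perm (Fin k)) : Dist (I ∘ σ) :=
  ⟨h.1.comp σ.injective, h.2.comp σ.injective⟩

lemma mom (hN : k < N) {I : Fin k → ι × ι} (hI : Dist I) (I' : Fin k → ι × ι) :
    ∑ ω : Om ι N, conj (cR (fun _ => ω) I) * cR (fun _ => ω) I' =
      ((Fintype.card ι - k).factorial * N ^ Fintype.card ι) *
        ∑ σ : Equiv.Perm (Fin k), if I' = I ∘ σ then 1 else 0 := by
  have hp := phase_avg (N := N) (fun m => (I m).2) (fun m => (I' m).2) (by simpa) (by simpa)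
  have e1 : ∀ (π : Equiv.Perm ι) (ε : ι → ZMod N) (I : Fin k → ι × ι), cR (fun _ => (π, ε)) I =
      if ∀ m, π (I m).2 = (I m).1 then ∏ m, chi N (ε (I m).2) else 0 := fun π ε I => by
    simp only [cR, Dm_apply, Fintype.prod_ite_zero]; congr
  rw [Fintype.sum_prod_type]
  simp only [e1]
  by_cases H : ∃ σ : Equiv.Perm (Fin k), I' = I ∘ σ
  · obtain ⟨σ, rfl⟩ := H
    rw [if_pos (c := ∀ j, cnt (fun m => (I m).2) j = cnt (fun m => ((I ∘ σ) m).2) j)
      fun j => (cnt_comp_perm (fun m => (I m).2) σ j).symm] at hp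
    have e2 : (∑ σ' : Equiv.Perm (Fin k), if I ∘ σ = I ∘ σ' then (1 : ℂ) else 0) = 1 := by
      rw [sum_eq_single σ, if_pos rfl]
      · exact fun σ' _ h => if_neg fun h' => h (Equiv.ext fun m =>
          hI.1 (congrArg Prod.fst (congrFun h' m)).symm)
      · simp
    have e3 := card_perm_ext _ _ hI.2 hI.1
    rw [Fintype.card_fin] at e3
    rw [e2, mul_one, ← e3, ← nsmul_eq_mul, ← sum_const, sum_filter]
    refine sum_congr rfl fun π _ => ?_
    split_ifs with h1 h2
    · exact hp
    · exact absurd (fun m => h1 (σ m)) h2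
    · simp
    · simp
  · rw [sum_eq_zero fun σ _ => if_neg fun h => H ⟨σ, h⟩, mul_zero]
    refine sum_eq_zero fun π _ => ?_
    split_ifs with h1 h2
    · rw [hp, if_neg]
      intro h3
      obtain ⟨σ, h4⟩ := exists_perm_of_cnt _ _ hI.2 h3
      refine H ⟨σ, funext fun m => Prod.ext ?_ (congrFun h4 m)⟩
      rw [← h2 m, comp_apply, ← h1 (σ m)]
      exact congrArg π (congrFun h4 m)
    · simp
    · simp
    · simp

/-- Identical copies. -/
lemma lemS (hN : k < N) (B : Fm A) (z x : (Fin k → ι × ι) → A) (hz : ∀ I, ¬ Dist I → z I = 0) :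
    ∑ ω : Om ι N, B (∑ I, cR (fun _ => ω) I • z I) (∑ I, cR (fun _ => ω) I • x I) =
      ((Fintype.card ι - k).factorial * N ^ Fintype.card ι) *
        ∑ σ : Equiv.Perm (Fin k), ∑ I, B (z I) (x (I ∘ σ)) := by
  simp only [sesq_sum]
  rw [sum_comm, sum_comm (f := fun (σ : Equiv.Perm (Fin k)) I => B (z I) (x (I ∘ σ))), mul_sum]
  refine sum_congr rfl fun I _ => ?_
  by_cases hI : Dist I
  · rw [sum_comm]
    simp only [← sum_mul, mom hN hI]
    simp only [mul_assoc, ← mul_sum]
    simp only [sum_mul]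
    rw [sum_comm]
    simp
  · simp [hz I hI]

lemma two_slot (t : Fin k → A) (R : Fin k → Om ι N) {i j : Fin k} (hij : i ≠ j)
    (Rel : ι × ι → ι × ι → Prop) [DecidableRel Rel] :
    ∑ I, cR R I • (if Rel (I i) (I j) then Xe e t I else 0) =
      ∑ p, ∑ q, if Rel p q then wX t (update (update (fun m => rr e (R m)) i
        (Dm ℂ (R i) p.1 p.2 • e p.1 p.2)) j (Dm ℂ (R j) q.1 q.2 • e q.1 q.2)) else 0 := by
  have : ∀ p q : ι × ι, wX t (update (update (fun m => rr e (R m)) i
      (Dm ℂ (R i) p.1 p.2 • e p.1 p.2)) j (Dm ℂ (R j) q.1 q.2 • e q.1 q.2)) =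
      ∑ I, if I i = p then if I j = q then cR R I • Xe e t I else 0 else 0 := fun p q => by
    have e1 := wX_exp (e := e) t fun m p' => Dm ℂ (R m) p'.1 p'.2 *
      ((if m = i then if p' = p then 1 else 0 else 1) * (if m = j then if p' = q then 1 else 0 else 1))
    simp only [prod_mul_distrib, prod_ite_eq', mem_univ, if_true] at e1
    convert e1 using 2 with m I
    · funext m
      by_cases h1 : m = j
      · subst h1; simp [hij.symm]
      · by_cases h2 : m = i
        · subst h2; simp [h1]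
        · simp [h1, h2, rr_eq]
    · simp only [cR]; split_ifs <;> simp
  simp only [this]
  have e2 : ∀ p q : ι × ι, (if Rel p q then
      ∑ I, if I i = p then if I j = q then cR R I • Xe e t I else 0 else 0 else 0) =
      ∑ I, if I i = p then if I j = q then
        cR R I • (if Rel p q then Xe e t I else 0) else 0 else 0 := fun p q => by
    split_ifs <;> simp
  simp only [e2]
  rw [sum_congr rfl fun p _ => sum_comm, sum_comm]
  simp

lemma des2 (hN : 1 < N) (B : Fm A) (z : ι × ι → ι × ι → A) :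
    ∑ g : Om ι N, ∑ g' : Om ι N, B (∑ p, ∑ q, (Dm ℂ g p.1 p.2 * Dm ℂ g' q.1 q.2) • z p q)
      (∑ p, ∑ q, (Dm ℂ g p.1 p.2 * Dm ℂ g' q.1 q.2) • z p q) =
      ((Fintype.card (Om ι N) : ℂ) / Fintype.card ι) ^ 2 * ∑ p, ∑ q, B (z p q) (z p q) := by
  have := lemD (k := 2) hN B (fun I => z (I 0) (I 1)) (fun I => z (I 0) (I 1))
  simp only [← (piFinTwoEquiv fun _ => Om ι N).symm.sum_comp,
    ← (piFinTwoEquiv fun _ => ι × ι).symm.sum_comp, Fintype.sum_prod_type (α₁ := Om ι N),
    Fintype.sum_prod_type (α₁ := ι × ι), cR, Fin.prod_univ_two, piFinTwoEquiv_symm_apply,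
    Fin.cons_zero, Fin.cons_one] at this
  exact this

lemma sum_B0 {κ : Type*} [Fintype κ] (z : κ → A) :
    ∑ i, B0 T (z i) (z i) = ((∑ i, ‖T.J (z i)‖ ^ 2 : ℝ) : ℂ) := by
  simp only [B0_apply, ← T.norm_J_sq', Complex.ofReal_sum]

lemma MU.coll1 (h : MU e) (T : Tr A) {t : Fin k → A} (ht : ∀ m, t m ∈ unitary A) {i j : Fin k}
    (hij : i < j) (Rel : ι × ι → ι × ι → Prop) [DecidableRel Rel]
    (hR : ∀ V ∈ unitary A, ∑ p, ∑ q, B0 T (if Rel p q then e p.1 p.2 * V * e q.1 q.2 else 0)
      (if Rel p q then e p.1 p.2 * V * e q.1 q.2 else 0) = Fintype.card ι) :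
    ∑ I, ‖T.J (if Rel (I i) (I j) then Xe e t I else 0)‖ ^ 2 =
      (Fintype.card ι : ℝ) ^ k / Fintype.card ι := by
  have h1 := lemD (N := 2) (by norm_num) (B0 T) (fun I => if Rel (I i) (I j) then Xe e t I else 0)
    (fun I => if Rel (I i) (I j) then Xe e t I else 0)
  have h2 := resample2 i j fun R : Fin k → Om ι 2 => B0 T
    (∑ I, cR R I • if Rel (I i) (I j) then Xe e t I else 0)
    (∑ I, cR R I • if Rel (I i) (I j) then Xe e t I else 0)
  rw [h1, sum_B0] at h2
  have h3 : ∀ R : Fin k → Om ι 2, ∑ g, ∑ g', B0 T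
      (∑ I, cR (update (update R i g) j g') I • if Rel (I i) (I j) then Xe e t I else 0)
      (∑ I, cR (update (update R i g) j g') I • if Rel (I i) (I j) then Xe e t I else 0) =
      ((Fintype.card (Om ι 2) : ℂ) / Fintype.card ι) ^ 2 * Fintype.card ι := fun R => by
    obtain ⟨U, hU, V, hV, Y, hY, -, H⟩ := slots ht (fun m => h.rr_unit (R m)) hij
    have := des2 (N := 2) (by norm_num) (B0 T)
      fun p q => if Rel p q then e p.1 p.2 * V * e q.1 q.2 else 0
    rw [hR V hV] at this
    rw [← this]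
    refine sum_congr rfl fun g _ => sum_congr rfl fun g' _ => ?_
    have e1 : ∀ p q, update (update (fun m => rr e (update (update R i g) j g' m)) i p) j q =
        update (update (fun m => rr e (R m)) i p) j q := fun p q => by
      funext m
      by_cases h1 : m = j
      · simp [h1]
      · by_cases h2 : m = i
        · simp [h2, hij.ne]
        · simp [h1, h2]
    have e2 : ∑ I, cR (update (update R i g) j g') I • (if Rel (I i) (I j) then Xe e t I else 0) =
        U * (∑ p, ∑ q, (Dm ℂ g p.1 p.2 * Dm ℂ g' q.1 q.2) •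
          if Rel p q then e p.1 p.2 * V * e q.1 q.2 else 0) * Y := by
      rw [two_slot t _ hij.ne]
      simp only [e1, H, update_self, update_of_ne hij.ne, mul_sum, sum_mul]
      refine sum_congr rfl fun p _ => sum_congr rfl fun q _ => ?_
      split_ifs <;> simp [smul_smul, mul_comm]
    rw [e2, B0_apply, B0_apply, ← T.norm_J_sq', ← T.norm_J_sq', J_lr hU hY]
  simp only [h3, sum_const, card_univ, Fintype.card_pi, prod_const, Fintype.card_fin,
    nsmul_eq_mul] at h2
  have := h.ne T
  have hm : (Fintype.card (Om ι 2) : ℂ) ≠ 0 := by exact_mod_cast Fintype.card_ne_zero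
  have hn := h.card_ne T
  apply Complex.ofReal_injective
  push_cast at h2 ⊢
  field_simp at h2 ⊢
  rw [div_pow] at h2
  field_simp at h2
  exact h2.symm

end Crest.Agent.H1KR
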