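import Crest.Agent.H1KR.C6

/-! Kadison–Ringrose, tracial part 7: typicality. -/

set_option autoImplicit false
set_option maxHeartbeats 400000
open scoped InnerProductSpace ComplexConjugate
open Finset Function Crest.Agent.H1VN Crest.Agent.H2.KS

noncomputable section
namespace Crest.Agent.H1KR

variable {A : Type*} [CStarAlgebra A] {T : Tr A} {k : ℕ}
variable {ι : Type} [Fintype ι] [DecidableEq ι] {e : ι → ι → A} {N : ℕ} [NeZero N]

lemma MU.B0_sand (h : MU e) (T : Tr A) (V : A) (s t a b : ι) :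
    B0 T (e s t * V * e a b) (e s t * V * e a b) = T.τ (e a a * (Star.star V * (e t t * V))) := by
  simp only [B0_apply, star_mul, h.star, mul_assoc, h.mm']
  rw [T.tr (e b a)]; simp only [mul_assoc, h.mm]
  rw [T.tr (e a a)]; simp only [mul_assoc]

variable (e) in
/-- The collision part. -/
def Xc (t : Fin k → A) (I : Fin k → ι × ι) : A := if Dist I then 0 else Xe e t I

variable (e) in
/-- The collision-free part. -/
def Xd (t : Fin k → A) (I : Fin k → ι × ι) : A := if Dist I then Xe e t I else 0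

lemma Xd_add (t : Fin k → A) (I : Fin k → ι × ι) : Xd e t I + Xc e t I = Xe e t I := by
  simp only [Xd, Xc]; split_ifs <;> simp

lemma MU.coll (h : MU e) (T : Tr A) {t : Fin k → A} (ht : ∀ m, t m ∈ unitary A) :
    ∑ I, ‖T.J (Xc e t I)‖ ^ 2 ≤ (Fintype.card ι : ℝ) ^ k * (2 * k ^ 2 / Fintype.card ι) := by
  have hn := h.card_pos T
  have k1 := fun (i j : Fin k) (hij : i < j) => h.coll1 T ht hij (fun p q => p.1 = q.1) fun V hV => by
    simp only [apply_ite (fun x => B0 T x x), h.B0_sand, map_zero, Fintype.sum_prod_type,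
      sum_ite_irrel, sum_const_zero, sum_ite_eq, mem_univ, if_true, sum_const, card_univ,
      ← smul_sum, ← map_sum, ← mul_sum, ← sum_mul, h.sum, one_mul, hV.1, T.one]
    simp
  have k2 := fun (i j : Fin k) (hij : i < j) => h.coll1 T ht hij (fun p q => p.2 = q.2) fun V hV => by
    simp only [apply_ite (fun x => B0 T x x), h.B0_sand, map_zero, Fintype.sum_prod_type,
      sum_ite_irrel, sum_const_zero, sum_ite_eq, mem_univ, if_true, sum_const, card_univ,
      ← smul_sum, ← map_sum, ← mul_sum, ← sum_mul, h.sum, one_mul, hV.1, T.one]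
    simp only [smul_mul_assoc, mul_smul_comm, one_mul, hV.1, map_nsmul, T.one]
    simp
  have k3 : ∀ I, ‖T.J (Xc e t I)‖ ^ 2 ≤ ∑ p : Fin k × Fin k, if p.1 < p.2 then
      ‖T.J (if (I p.1).1 = (I p.2).1 then Xe e t I else 0)‖ ^ 2 +
      ‖T.J (if (I p.1).2 = (I p.2).2 then Xe e t I else 0)‖ ^ 2 else 0 := fun I => by
    rw [Xc]
    split_ifs with hI
    · simp only [map_zero, norm_zero]
      exact (by norm_num : (0 : ℝ) ^ 2 ≤ 0).trans (sum_nonneg fun p _ => by split_ifs <;> positivity)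
    · obtain ⟨i, j, hij, H⟩ : ∃ i j, i < j ∧ ((I i).1 = (I j).1 ∨ (I i).2 = (I j).2) := by
        by_contra H
        push Not at H
        exact hI ⟨Function.Injective.of_lt_imp_ne fun i j hij => (H i j hij).1,
          Function.Injective.of_lt_imp_ne fun i j hij => (H i j hij).2⟩
      refine le_trans ?_ (single_le_sum (fun p _ => by split_ifs <;> positivity) (mem_univ (i, j)))
      rcases H with H | H <;> simp [hij, H]
  refine (sum_le_sum fun I _ => k3 I).trans ?_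
  rw [sum_comm]
  refine (sum_le_card_nsmul _ _ (2 * ((Fintype.card ι : ℝ) ^ k / Fintype.card ι)) fun p _ => ?_).trans
    (le_of_eq (by simp; ring))
  split_ifs with hp
  · rw [sum_add_distrib, k1 _ _ hp, k2 _ _ hp, two_mul]
  · simp only [sum_const_zero]; positivity

lemma cs_sum {B : Fm A} {C η δ r : ℝ} (hB : Adm T B C η δ) (hC : 0 ≤ C) {κ : Type*} [Fintype κ]
    (z x : κ → A) (hx : ∀ i, x i ∈ unitary A)
    (hz : ∑ i, ‖T.J (z i)‖ ^ 2 ≤ Fintype.card κ * r) :
    ‖∑ i, B (z i) (x i)‖ ≤ Fintype.card κ * (C * √r) := by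
  have h1 : ‖∑ i, B (z i) (x i)‖ ≤ C * ∑ i, ‖T.J (z i)‖ := by
    rw [mul_sum]
    exact (norm_sum_le _ _).trans (sum_le_sum fun i _ => (hB.l2 _ _).trans
      (mul_le_mul_of_nonneg_left (mul_le_of_le_one_right (norm_nonneg _) (nle (hx i))) hC))
  have h2 := (sq_sum_le_card_mul_sum_sq (s := univ) (f := fun i => ‖T.J (z i)‖)).trans
    (mul_le_mul_of_nonneg_left hz (by positivity))
  rw [card_univ, ← mul_assoc, ← sq] at h2
  have h3 := Real.le_sqrt_of_sq_le h2
  rw [Real.sqrt_mul (by positivity), Real.sqrt_sq (by positivity)] at h3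
  rw [mul_left_comm]
  exact h1.trans (mul_le_mul_of_nonneg_left h3 hC)

variable (e) in
/-- Permutation terms. -/
def Tz (B : Fm A) (t : Fin k → A) (z : (Fin k → ι × ι) → A) (σ : Equiv.Perm (Fin k)) : ℂ :=
  (∑ I, B (z I) (Xe e t (I ∘ σ))) / (Fintype.card ι : ℂ) ^ k

lemma Tz_eq (hN : 1 < N) (B : Fm A) (t : Fin k → A) (z : (Fin k → ι × ι) → A)
    (σ : Equiv.Perm (Fin k)) : ∑ R : Fin k → Om ι N, B (∑ I, cR R I • z I) (XR e t (R ∘ σ)) =
      (Fintype.card (Fin k → Om ι N) : ℂ) * Tz e B t z σ := by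
  simp only [XR_perm, lemD hN, Tz, Fintype.card_pi, prod_const, card_univ, Fintype.card_fin]
  push_cast; ring

lemma norm_le_of_card {κ : Type*} [Fintype κ] [Nonempty κ] {a : ℂ} {r : ℝ}
    (h : ‖(Fintype.card κ : ℂ) * a‖ ≤ Fintype.card κ * r) : ‖a‖ ≤ r := by
  rw [norm_mul, Complex.norm_natCast] at h
  exact le_of_mul_le_mul_left h (by exact_mod_cast Fintype.card_pos)

lemma MU.Tz_coll (h : MU e) {B : Fm A} {C η δ : ℝ} (hB : Adm T B C η δ) (hC : 0 ≤ C)
    {t : Fin k → A} (ht : ∀ m, t m ∈ unitary A) (σ : Equiv.Perm (Fin k)) :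
    ‖Tz e B t (Xc e t) σ‖ ≤ C * √(2 * k ^ 2 / Fintype.card ι) := by
  refine norm_le_of_card (κ := Fin k → Om ι 2) ?_
  rw [← Tz_eq (by norm_num)]
  refine cs_sum hB hC _ _ (fun R => h.XR_unit ht _) ?_
  have h1 := lemD (N := 2) (by norm_num) (B0 T) (Xc e t) (Xc e t)
  rw [sum_B0, sum_B0] at h1
  have h2 : ∑ R : Fin k → Om ι 2, ‖T.J (∑ I, cR R I • Xc e t I)‖ ^ 2 =
      ((Fintype.card (Om ι 2) : ℝ) / Fintype.card ι) ^ k * ∑ I, ‖T.J (Xc e t I)‖ ^ 2 := by
    apply Complex.ofReal_injective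
    rw [h1, Complex.ofReal_mul, Complex.ofReal_pow, Complex.ofReal_div, Complex.ofReal_natCast,
      Complex.ofReal_natCast]
  have hn := h.card_pos T
  rw [h2]
  refine (mul_le_mul_of_nonneg_left (h.coll T ht) (by positivity)).trans (le_of_eq ?_)
  rw [Fintype.card_pi, prod_const, card_univ, Fintype.card_fin, div_pow]
  push_cast; field_simp

lemma exists_descent {σ : Equiv.Perm (Fin k)} (h : σ ≠ 1) :
    ∃ i j : Fin k, (j : ℕ) = i + 1 ∧ σ j < σ i := by
  by_contra H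
  push Not at H
  refine h ((Equiv.Perm.monotone_iff σ).1 ?_)
  cases k with
  | zero => exact fun a => a.elim0
  | succ k => exact Fin.monotone_iff_le_succ.2 fun i => H _ _ (by simp)

variable [PartialOrder A] [StarOrderedRing A]

lemma MU.Tz_cross (h : MU e) {B : Fm A} {C η δ l : ℝ} (hB : Adm T B C η δ) (hC : 0 ≤ C)
    (hη : 0 ≤ η) (hl : 0 < l) {t : Fin k → A} (ht : ∀ m, t m ∈ unitary A)
    (hF : ∀ i j, Flat T e (δ * l ^ 2) (Star.star (t i) * t j)) {σ : Equiv.Perm (Fin k)}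
    (hσ : σ ≠ 1) : ‖Tz e B t (Xe e t) σ‖ ≤ C * l + √η := by
  obtain ⟨i, j, hij, hs⟩ := exists_descent hσ
  have hij' : i < j := by rw [Fin.lt_def]; omega
  refine norm_le_of_card (κ := Fin k → Om ι 2) (norm_le_of_card (κ := Om ι 2)
    (norm_le_of_card (κ := Om ι 2) ?_))
  rw [← Tz_eq (by norm_num), ← nsmul_eq_mul, ← nsmul_eq_mul]
  simp only [← XR_eq]
  rw [← resample2 (σ j) (σ i)]
  refine (norm_sum_le _ _).trans ((sum_le_card_nsmul _ _
    ((Fintype.card (Om ι 2) : ℝ) ^ 2 * (C * l + √η)) fun R _ => ?_).trans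
    (le_of_eq (by rw [card_univ, nsmul_eq_mul]; ring)))
  obtain ⟨U, hU, V, hV, Y, hY, -, H⟩ := slots ht (fun m => h.rr_unit (R m)) hs
  obtain ⟨U', hU', V', hV', Y', hY', e0, H'⟩ := slots ht (fun m => h.rr_unit (R (σ m))) hij'
  have := h.cross (hB.pre hU hY hU' hY') hC hη hl hV hV' (e0 hij ▸ hF i j) (N := 2) (by norm_num)
  refine le_of_eq_of_le (congrArg norm (sum_congr rfl fun g _ => sum_congr rfl fun g' _ => ?_)) this
  simp only [Fm.pre_apply, lr_apply, ← H, ← H', XR]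
  congr 3 <;> funext m
  · simp only [update_apply]; split_ifs <;> rfl
  · simp only [update_apply, comp_apply, σ.injective.eq_iff]
    split_ifs with h1 h2 <;> first | rfl | exact absurd (h1.symm.trans h2) hij'.ne

lemma MU.Tz_sum (h : MU e) {B : Fm A} {C η δ l : ℝ} (hB : Adm T B C η δ) (hC : 0 ≤ C)
    (hη : 0 ≤ η) (hl : 0 < l) {t : Fin k → A} (ht : ∀ m, t m ∈ unitary A)
    (hF : ∀ i j, Flat T e (δ * l ^ 2) (Star.star (t i) * t j)) :
    ‖∑ σ, Tz e B t (Xd e t) σ - Tz e B t (Xe e t) 1‖ ≤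
      k.factorial * (C * √(2 * k ^ 2 / Fintype.card ι) + (C * l + √η)) := by
  have e1 : ∀ σ, Tz e B t (Xd e t) σ = Tz e B t (Xe e t) σ - Tz e B t (Xc e t) σ := fun σ => by
    rw [eq_sub_iff_add_eq, Tz, Tz, Tz, ← add_div, ← sum_add_distrib]
    simp only [← LinearMap.add_apply, ← map_add, Xd_add]
  have e2 : ∑ σ, Tz e B t (Xd e t) σ - Tz e B t (Xe e t) 1 =
      ∑ σ, ((if σ = 1 then 0 else Tz e B t (Xe e t) σ) - Tz e B t (Xc e t) σ) := by
    simp only [e1, sum_sub_distrib]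
    rw [← add_sum_erase _ _ (mem_univ 1), ← add_sum_erase _ (fun σ => if σ = 1 then 0 else _)
      (mem_univ 1), sum_congr rfl fun σ hσ => if_neg (ne_of_mem_erase hσ)]
    simp only [if_true]; ring
  rw [e2]
  refine (norm_sum_le _ _).trans ((sum_le_card_nsmul _ _ _ fun σ _ => (norm_sub_le _ _).trans
    (add_le_add (b := C * l + √η) ?_ (h.Tz_coll hB hC ht σ))).trans (le_of_eq ?_))
  · split_ifs with hσ
    · rw [norm_zero]; positivity
    · exact h.Tz_cross hB hC hη hl ht hF hσ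
  · simp [Fintype.card_perm]; ring

theorem MU.typ (h : MU e) {B : Fm A} {C η δ l κ : ℝ} (hB : Adm T B C η δ) (hC : 1 ≤ C)
    (hδ : δ ≤ η) (hη : 0 ≤ η) (hl : 0 < l) {t : Fin k → A} (ht : ∀ m, t m ∈ unitary A)
    (hF : ∀ i j, Flat T e (δ * l ^ 2) (Star.star (t i) * t j)) (hN : k < N) (hN' : 1 < N)
    (hk : k ≤ Fintype.card ι)
    (hκ : k.factorial * (C * √(2 * k ^ 2 / Fintype.card ι) + (C * l + √η)) ≤ κ) (hκ' : κ ≤ 1 / 2) :
    ‖(Fintype.card (Om ι N) : ℂ)⁻¹ * ∑ ω : Om ι N, B (XR e t fun _ => ω) (XR e t fun _ => ω) -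
      (Fintype.card (Fin k → Om ι N) : ℂ)⁻¹ * ∑ R : Fin k → Om ι N, B (XR e t R) (XR e t R)‖ ≤
      C * √κ + 2 * κ * C + 2 * κ := by
  have hC0 : 0 ≤ C := by linarith
  have hκ0 : 0 ≤ κ := le_trans (by positivity) hκ
  have hn := h.card_pos T
  have hn' := h.card_ne T
  have hm : (0 : ℝ) < Fintype.card (Om ι N) := by exact_mod_cast Fintype.card_pos
  have hm' : (Fintype.card (Om ι N) : ℂ) ≠ 0 := by exact_mod_cast Fintype.card_ne_zero
  have hM : (Fintype.card (Fin k → Om ι N) : ℂ) ≠ 0 := by exact_mod_cast Fintype.card_ne_zero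
  let ρ : ℝ := (Fintype.card ι - k).factorial * (Fintype.card ι : ℝ) ^ k / (Fintype.card ι).factorial
  have hρ : 1 ≤ ρ := by
    rw [le_div_iff₀ (by positivity), one_mul, ← Nat.factorial_mul_descFactorial hk]
    exact_mod_cast Nat.mul_le_mul_left _ (Nat.descFactorial_le_pow _ _)
  let X : Om ι N → A := fun ω => XR e t fun _ => ω
  let D : Om ι N → A := fun ω => ∑ I, cR (fun _ => ω) I • Xd e t I
  let Z : Om ι N → A := fun ω => ∑ I, cR (fun _ => ω) I • Xc e t I
  have hX : ∀ ω, X ω = D ω + Z ω := fun ω => by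
    simp only [X, D, Z, XR_eq, ← sum_add_distrib, ← smul_add, Xd_add]
  have hd : ∀ I, ¬ Dist I → Xd e t I = 0 := fun I hI => if_neg hI
  have s1 : ∀ B : Fm A, ∑ ω, B (D ω) (X ω) =
      Fintype.card (Om ι N) * (ρ * ∑ σ, Tz e B t (Xd e t) σ) := fun B => by
    simp only [D, X, XR_eq, lemS hN B _ _ hd, Tz, ← sum_div, card_Om, ρ]
    have : ((Fintype.card ι).factorial : ℂ) ≠ 0 := by exact_mod_cast Nat.factorial_ne_zero _
    push_cast; field_simp
  have s2 : ∑ ω, B0 T (D ω) (Z ω) = 0 := by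
    simp only [D, Z, lemS hN _ _ _ hd]
    rw [sum_eq_zero fun σ _ => sum_eq_zero fun I _ => ?_, mul_zero]
    by_cases hI : Dist I
    · simp [Xc, hI.perm σ]
    · simp [hd I hI]
  have s3 : ∀ B : Fm A, ∑ R : Fin k → Om ι N, B (XR e t R) (XR e t R) =
      Fintype.card (Fin k → Om ι N) * Tz e B t (Xe e t) 1 := fun B => by
    simpa [← XR_eq] using Tz_eq hN' B t (Xe e t) 1
  have s4 : Tz e (B0 T) t (Xe e t) 1 = 1 := by
    have := s3 (B0 T)
    simp only [B0_apply, (h.XR_unit ht _).1, T.one, sum_const, card_univ, nsmul_eq_mul] at this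
    exact (mul_left_cancel₀ hM this).symm
  have s5 := (h.Tz_sum (adm_B0 (T := T) hC hδ) hC0 hη hl ht hF).trans hκ
  rw [s4] at s5
  have s6 : ∀ ω, ‖T.J (Z ω)‖ ^ 2 = 1 - (B0 T (D ω) (X ω)).re - (B0 T (D ω) (Z ω)).re := fun ω => by
    have e1 : ‖T.J (X ω)‖ = 1 := by
      simpa [T.norm_J_one] using T.J_unit_mul (h.XR_unit ht fun _ => ω) 1
    have e2 := norm_add_sq (𝕜 := ℂ) (T.J (D ω)) (T.J (Z ω))
    rw [← map_add, ← hX, e1, T.inner_J] at e2
    rw [hX, map_add, Complex.add_re, B0_apply, B0_apply, ← T.norm_J_sq]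
    simp only [RCLike.re_to_complex] at e2
    linarith
  have s7 : ∑ ω, ‖T.J (Z ω)‖ ^ 2 = Fintype.card (Om ι N) *
      (1 - ρ * (∑ σ, Tz e (B0 T) t (Xd e t) σ).re) := by
    simp only [s6, sum_sub_distrib, ← Complex.re_sum, s1, s2]
    rw [← Complex.ofReal_natCast, Complex.re_ofReal_mul, Complex.re_ofReal_mul, sum_const, card_univ,
      nsmul_eq_mul, Complex.zero_re]
    ring
  have s8 : 1 - κ ≤ (∑ σ, Tz e (B0 T) t (Xd e t) σ).re := by
    have := (abs_le.1 ((Complex.abs_re_le_norm _).trans s5)).1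
    rw [Complex.sub_re, Complex.one_re] at this
    linarith
  have s9 : ρ - 1 ≤ 2 * κ := by
    have : 0 ≤ 1 - ρ * (∑ σ, Tz e (B0 T) t (Xd e t) σ).re :=
      nonneg_of_mul_nonneg_right (s7 ▸ by positivity) hm
    nlinarith
  have s10 := cs_sum hB hC0 Z X (fun ω => h.XR_unit ht _) (r := κ) (by
    rw [s7]; gcongr; nlinarith)
  have s11 := (h.Tz_sum hB hC0 hη hl ht hF).trans hκ
  have s12 : ‖Tz e B t (Xe e t) 1‖ ≤ C := by
    refine norm_le_of_card (κ := Fin k → Om ι N) ?_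
    rw [← s3]
    simpa using cs_sum hB hC0 (fun R : Fin k → Om ι N => XR e t R) (fun R => XR e t R)
      (fun R => h.XR_unit ht _) (r := 1) (le_of_eq (by
        have : ∀ R : Fin k → Om ι N, ‖T.J (XR e t R)‖ = 1 := fun R => by
          simpa [T.norm_J_one] using T.J_unit_mul (h.XR_unit ht R) 1
        simp [this]))
  have s13 : ∑ ω, B (X ω) (X ω) = ∑ ω, B (D ω) (X ω) + ∑ ω, B (Z ω) (X ω) := by
    rw [← sum_add_distrib]
    exact sum_congr rfl fun ω _ => by rw [← LinearMap.add_apply, ← map_add, ← hX]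
  have e : (Fintype.card (Om ι N) : ℂ)⁻¹ * ∑ ω, B (X ω) (X ω) -
      (Fintype.card (Fin k → Om ι N) : ℂ)⁻¹ * ∑ R : Fin k → Om ι N, B (XR e t R) (XR e t R) =
      (Fintype.card (Om ι N) : ℂ)⁻¹ * ∑ ω, B (Z ω) (X ω) +
        ((ρ - 1 : ℝ) : ℂ) * Tz e B t (Xe e t) 1 +
        ρ * (∑ σ, Tz e B t (Xd e t) σ - Tz e B t (Xe e t) 1) := by
    rw [s13, s1, s3]; push_cast; field_simp; ring
  refine e ▸ (norm_add₃_le.trans (add_le_add (add_le_add ?_ ?_) ?_))
  · rw [norm_mul, norm_inv, Complex.norm_natCast, inv_mul_le_iff₀ hm]; exact s10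
  · rw [norm_mul, Complex.norm_real, Real.norm_of_nonneg (by linarith)]; gcongr
  · rw [norm_mul, Complex.norm_real, Real.norm_of_nonneg (by linarith)]
    gcongr; linarith

end Crest.Agent.H1KR
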