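import Crest.Agent.H1KR.C7

/-! Kadison–Ringrose, tracial part 8: time reversal. -/

set_option autoImplicit false
set_option maxHeartbeats 400000
open scoped InnerProductSpace ComplexConjugate
open Finset Function Crest.Agent.H1VN Crest.Agent.H2.KS

noncomputable section
namespace Crest.Agent.H1KR

lemma pow_sub_one_le {z : ℂ} (hz : ‖z‖ = 1) (k : ℕ) : ‖z ^ k - 1‖ ≤ k * ‖z - 1‖ := by
  induction k with
  | zero => simp
  | succ k ih =>
    have : z ^ (k + 1) - 1 = z * (z ^ k - 1) + (z - 1) := by ring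
    rw [this]
    refine (norm_add_le _ _).trans ?_
    rw [norm_mul, hz]; push_cast; linarith

lemma geom_le {z : ℂ} (hz : ‖z‖ = 1) (n : ℕ) : ‖z - 1‖ * ‖∑ k : Fin n, z ^ (k + 1 : ℕ)‖ ≤ 2 := by
  rw [Fin.sum_univ_eq_sum_range (fun k => z ^ (k + 1))]
  simp only [pow_succ, ← sum_mul]
  rw [norm_mul, hz, mul_one, ← norm_mul, mul_geom_sum]
  exact (norm_sub_le _ _).trans (by rw [norm_pow, hz]; norm_num)

lemma block_le {z : ℂ} (hz : ‖z‖ = 1) {n : ℕ} (hn : 0 < n) :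
    ‖∑ k : Fin n, (z ^ (k + 1 : ℕ) - conj z ^ (k + 1 : ℕ))‖ ≤ n * (24 *
      (2 * (n * ‖z - 1‖) / (1 + 2 * (n * ‖z - 1‖)) - n * ‖z - 1‖ / (1 + n * ‖z - 1‖))) := by
  have hz' : ‖conj z‖ = 1 := by simpa using hz
  have hx : ‖conj z - 1‖ = ‖z - 1‖ := by rw [← Complex.norm_conj (z - 1)]; simp
  have hn' : (0 : ℝ) < n := by exact_mod_cast hn
  have h1 : ‖∑ k : Fin n, (z ^ (k + 1 : ℕ) - conj z ^ (k + 1 : ℕ))‖ ≤ n * (2 * (n * ‖z - 1‖)) := by
    refine (norm_sum_le _ _).trans ((sum_le_card_nsmul _ _ (2 * (n * ‖z - 1‖)) fun k _ => ?_).trans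
      (by simp))
    have e1 := pow_sub_one_le hz (k + 1)
    have e2 := pow_sub_one_le hz' (k + 1)
    have e3 := norm_sub_le_norm_sub_add_norm_sub (z ^ (k + 1 : ℕ)) 1 (conj z ^ (k + 1 : ℕ))
    rw [norm_sub_rev 1] at e3
    have e4 : ((k + 1 : ℕ) : ℝ) * ‖z - 1‖ ≤ n * ‖z - 1‖ := by gcongr; exact k.2
    rw [hx] at e2
    linarith
  have h2 : ‖z - 1‖ * ‖∑ k : Fin n, (z ^ (k + 1 : ℕ) - conj z ^ (k + 1 : ℕ))‖ ≤ 4 := by
    have e1 := geom_le hz n
    have e2 := geom_le hz' n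
    rw [hx] at e2
    rw [sum_sub_distrib]
    have := mul_le_mul_of_nonneg_left (norm_sub_le (∑ k : Fin n, z ^ (k + 1 : ℕ))
      (∑ k : Fin n, conj z ^ (k + 1 : ℕ))) (norm_nonneg (z - 1))
    linarith
  have h0 := norm_nonneg (∑ k : Fin n, (z ^ (k + 1 : ℕ) - conj z ^ (k + 1 : ℕ)))
  generalize ‖∑ k : Fin n, (z ^ (k + 1 : ℕ) - conj z ^ (k + 1 : ℕ))‖ = S at *
  have hy : 0 ≤ n * ‖z - 1‖ := by positivity
  have h3 : n * ‖z - 1‖ * S ≤ n * 4 := by rw [mul_assoc]; gcongr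
  generalize n * ‖z - 1‖ = y at *
  have e : n * (24 * (2 * y / (1 + 2 * y) - y / (1 + y))) = n * (24 * y) / ((1 + y) * (1 + 2 * y)) := by
    field_simp; ring
  rw [e, le_div_iff₀ (by positivity)]
  rcases le_total y 1 with h | h
  · have : (1 + y) * (1 + 2 * y) ≤ 6 := by nlinarith
    calc _ ≤ n * (2 * y) * 6 := by gcongr
      _ ≤ _ := by nlinarith
  · have : (1 + y) * (1 + 2 * y) ≤ 6 * y ^ 2 := by nlinarith
    calc _ ≤ S * (6 * y ^ 2) := by gcongr
      _ ≤ _ := by nlinarith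

lemma exists_wt {ε : ℝ} (hε : 0 < ε) : ∃ (κ : Type) (_ : Fintype κ) (p : κ → ℝ) (m : κ → ℕ),
    (∀ i, 0 ≤ p i) ∧ ∑ i, p i = 1 ∧
    ∀ z : ℂ, ‖z‖ = 1 → ‖∑ i, (p i : ℂ) * (z ^ (m i + 1) - conj z ^ (m i + 1))‖ ≤ ε := by
  obtain ⟨J, hJ⟩ := exists_nat_gt (24 / ε)
  have hJ0 : (0 : ℝ) < J := lt_trans (by positivity) hJ
  refine ⟨Σ j : Fin J, Fin (2 ^ (j : ℕ)), inferInstance, fun i => 1 / (J * 2 ^ (i.1 : ℕ)),
    fun i => i.2, fun i => by positivity, ?_, fun z hz => ?_⟩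
  · rw [Fintype.sum_sigma]
    simp only [sum_const, card_univ, Fintype.card_fin, nsmul_eq_mul]
    rw [sum_congr rfl (g := fun _ => 1 / (J : ℝ)) fun j _ => by push_cast; field_simp]
    simp [hJ0.ne']
  · rw [Fintype.sum_sigma]
    simp only [← mul_sum]
    let f : ℕ → ℝ := fun j => 2 ^ j * ‖z - 1‖ / (1 + 2 ^ j * ‖z - 1‖)
    refine (norm_sum_le _ _).trans ((sum_le_sum (g := fun j : Fin J => 24 / J * (f (j + 1) - f j))
      fun j _ => ?_).trans ?_)
    · rw [norm_mul, Complex.norm_real, Real.norm_of_nonneg (by positivity)]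
      refine (mul_le_mul_of_nonneg_left (block_le hz (by positivity)) (by positivity)).trans
        (le_of_eq ?_)
      simp only [f, pow_succ', mul_assoc]
      push_cast; field_simp
    · rw [← mul_sum, Fin.sum_univ_eq_sum_range (fun j => f (j + 1) - f j), sum_range_sub]
      have h1 : f J ≤ 1 := div_le_one_of_le₀ (by linarith) (by positivity)
      have h2 : 0 ≤ f 0 := by positivity
      have h3 : 24 / J ≤ ε := by rw [div_lt_iff₀ hε] at hJ; rw [div_le_iff₀ hJ0]; linarith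
      have h4 : (0 : ℝ) ≤ 24 / J := by positivity
      nlinarith

variable {A : Type*} [CStarAlgebra A] {T : Tr A}

lemma wt_op {κ : Type} [Fintype κ] {p : κ → ℝ} {m : κ → ℕ} {ε : ℝ} (hε : 0 ≤ ε)
    (h : ∀ z : ℂ, ‖z‖ = 1 → ‖∑ i, (p i : ℂ) * (z ^ (m i + 1) - conj z ^ (m i + 1))‖ ≤ ε)
    {W : A} (hW : W ∈ unitary A) :
    ‖∑ i, (p i : ℂ) • (W ^ (m i + 1) - star W ^ (m i + 1))‖ ≤ ε := by
  have := isStarNormal_of_mem_unitary hW
  have e : ∑ i, (p i : ℂ) • (W ^ (m i + 1) - star W ^ (m i + 1)) =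
      cfc (∑ i, fun z : ℂ => (p i : ℂ) * (z ^ (m i + 1) - star z ^ (m i + 1))) W := by
    rw [cfc_sum_univ _ _ fun i => by fun_prop]
    refine sum_congr rfl fun i _ => ?_
    rw [cfc_const_mul _ _ _ (by fun_prop), cfc_sub _ _ _ (by fun_prop) (by fun_prop), cfc_pow_id W,
      cfc_pow _ _ _ (by fun_prop), cfc_star_id W]
  rw [e]
  exact norm_cfc_le hε fun z hz => by
    simpa using h z (spectrum.norm_eq_one_of_unitary hW hz)

lemma chi_pow {M : ℕ} [NeZero M] (θ : ZMod M) (j : ℕ) : chi M θ ^ j = chi M (j * θ) := by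
  induction j with
  | zero => simp [chi_zero]
  | succ j ih => rw [pow_succ, ih, ← chi_add]; push_cast; ring_nf

lemma chi_unit {M : ℕ} [NeZero M] (θ : ZMod M) {W : A} (hW : W ∈ unitary A) :
    chi M θ • W ∈ unitary A := by
  have := chi_mul_conj θ
  constructor <;> simp [smul_smul, hW.1, hW.2, this, mul_comm]

lemma phase {M : ℕ} [NeZero M] (B : Fm A) {W : A} (hW : W ∈ unitary A) {j j' m : ℕ}
    (h1 : j + m < M) (h2 : j' < M) :
    ∑ θ : ZMod M, B (star ((chi M θ • W) ^ j) * (chi M θ • W) ^ j') ((chi M θ • W) ^ m) =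
      if j' = j + m then M * B (W ^ m) (W ^ m) else 0 := by
  have : ∀ θ : ZMod M, B (star ((chi M θ • W) ^ j) * (chi M θ • W) ^ j') ((chi M θ • W) ^ m) =
      chi M ((((j + m : ℕ) : ZMod M) - j') * θ) * B (star (W ^ j) * W ^ j') (W ^ m) := fun θ => by
    simp only [smul_pow, chi_pow, star_smul, smul_mul_smul_comm, map_smulₛₗ, LinearMap.smul_apply,
      RingHom.id_apply, smul_eq_mul, RCLike.star_def, map_mul, conj_chi, ← chi_add, ← mul_assoc]
    congr 2; push_cast; ring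
  simp only [this, ← sum_mul, sum_chi_mul, sub_eq_zero, ZMod.natCast_eq_natCast_iff',
    Nat.mod_eq_of_lt h1, Nat.mod_eq_of_lt h2]
  split_ifs with h3 h4 h4
  · rw [h4, pow_add, u1 (pow_mem hW j)]
  · exact absurd h3.symm h4
  · exact absurd h4.symm h3
  · simp

lemma phase_J (T : Tr A) {M : ℕ} [NeZero M] {W : A} (hW : W ∈ unitary A) {n : ℕ} (h : n ≤ M) :
    ∑ θ : ZMod M, ‖T.J (∑ j ∈ range n, (chi M θ • W) ^ j)‖ ^ 2 = M * n := by
  apply Complex.ofReal_injective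
  rw [← sum_B0]
  simp only [map_sum, LinearMap.sum_apply]
  rw [sum_comm, sum_congr rfl (g := fun _ => (M : ℂ)) fun m hm => ?_]
  · simp [mul_comm]
  · rw [sum_comm, sum_congr rfl (g := fun j' => if j' = m then (M : ℂ) else 0) fun j' hj => ?_]
    · simp [mem_range.1 hm]
    · simpa [-star_pow, (pow_mem hW m).1, T.one] using phase (M := M) (B0 T) hW (j := 0) (j' := j') (m := m)
        (by have := mem_range.1 hm; omega) (by have := mem_range.1 hj; omega)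

/-- Time reversal. -/
theorem reversal {κ : Type} [Fintype κ] {p : κ → ℝ} {m : κ → ℕ} {ε : ℝ} (hε : 0 ≤ ε)
    (h : ∀ z : ℂ, ‖z‖ = 1 → ‖∑ i, (p i : ℂ) * (z ^ (m i + 1) - conj z ^ (m i + 1))‖ ≤ ε)
    {B : Fm A} {C η δ : ℝ} (hB : Adm T B C η δ) (hC : 0 ≤ C) {W : A} (hW : W ∈ unitary A) :
    ‖∑ i, (p i : ℂ) * (B (W ^ (m i + 1)) (W ^ (m i + 1)) -
      B (star W ^ (m i + 1)) (star W ^ (m i + 1)))‖ ≤ 2 * C * ε := by
  set K := univ.sup m + 1 with hK
  have hm : ∀ i, m i + 1 ≤ K := fun i => Nat.succ_le_succ (le_sup (mem_univ i))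
  have hK0 : (0 : ℝ) < K := by rw [hK]; positivity
  let M := 3 * K + 1
  have hM0 : (0 : ℝ) < M := by positivity
  have hWK := Unitary.star_mem (pow_mem hW K)
  set B' := B.pre (lr (star (W ^ K)) 1) (lr (star (W ^ K)) 1) with hB'
  have hA : Adm T B' C η δ := hB.pre hWK (one_mem _) hWK (one_mem _)
  let U : ZMod M → A := fun θ => chi M θ • W
  have hU : ∀ θ, U θ ∈ unitary A := fun θ => chi_unit θ hW
  have e1 : ∀ n ≤ 2 * K, ∑ θ, B' (star (∑ j ∈ range K, U θ ^ j) * ∑ j ∈ range (3 * K), U θ ^ j)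
      (U θ ^ n) = K * M * B' (W ^ n) (W ^ n) := fun n hn => by
    simp only [star_sum, sum_mul, mul_sum, map_sum, LinearMap.sum_apply]
    rw [sum_comm, sum_congr rfl fun _ _ => sum_comm, sum_comm,
      sum_congr rfl (g := fun _ => M * B' (W ^ n) (W ^ n)) fun j hj => ?_]
    · simp [mul_assoc]
    · have := mem_range.1 hj
      rw [sum_congr rfl fun j' hj' => phase (M := M) B' hW (j := j) (j' := j') (m := n)
        (by omega) (by have := mem_range.1 hj'; omega), sum_ite_eq', if_pos (by simp; omega)]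
  have e2 : ∀ {V : A}, V ∈ unitary A → ∀ i, star (V ^ K) * V ^ (K + (m i + 1)) = V ^ (m i + 1) ∧
      star (V ^ K) * V ^ (K - (m i + 1)) = star V ^ (m i + 1) := fun {V} hV i => by
    refine ⟨by rw [pow_add V K, u1 (pow_mem hV K)], ?_⟩
    have : V ^ K = V ^ (K - (m i + 1)) * V ^ (m i + 1) := by rw [← pow_add, Nat.sub_add_cancel (hm i)]
    rw [this, star_mul, mul_assoc, (pow_mem hV _).1, mul_one, star_pow]
  have e3 : ∑ θ, B' (star (∑ j ∈ range K, U θ ^ j) * ∑ j ∈ range (3 * K), U θ ^ j)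
      (∑ i, (p i : ℂ) • (U θ ^ (K + (m i + 1)) - U θ ^ (K - (m i + 1)))) =
      (K * M : ℝ) * ∑ i, (p i : ℂ) * (B (W ^ (m i + 1)) (W ^ (m i + 1)) -
        B (star W ^ (m i + 1)) (star W ^ (m i + 1))) := by
    simp only [map_sum (B' _), map_smul, map_sub, smul_eq_mul]
    rw [sum_comm, mul_sum]
    refine sum_congr rfl fun i _ => ?_
    have := hm i
    rw [← mul_sum, sum_sub_distrib, e1 _ (by omega), e1 _ (by omega)]
    simp only [hB', Fm.pre_apply, lr_apply, mul_one, e2 hW i]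
    push_cast; ring
  have e4 : ∀ θ, ‖B' (star (∑ j ∈ range K, U θ ^ j) * ∑ j ∈ range (3 * K), U θ ^ j)
      (∑ i, (p i : ℂ) • (U θ ^ (K + (m i + 1)) - U θ ^ (K - (m i + 1))))‖ ≤
      C * ε / 2 * (‖T.J (∑ j ∈ range K, U θ ^ j)‖ ^ 2 +
        ‖T.J (∑ j ∈ range (3 * K), U θ ^ j)‖ ^ 2) := fun θ => by
    refine (hA.l1 _ _ _).trans ?_
    have k1 : ‖∑ i, (p i : ℂ) • (U θ ^ (K + (m i + 1)) - U θ ^ (K - (m i + 1)))‖ ≤ ε := by
      rw [← CStarRing.norm_mem_unitary_mul _ (Unitary.star_mem (pow_mem (hU θ) K))]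
      simp only [mul_sum, mul_smul_comm, mul_sub, e2 (hU θ)]
      exact wt_op hε h (hU θ)
    rw [T.J_star]
    generalize ‖T.J (∑ j ∈ range K, U θ ^ j)‖ = a
    generalize ‖T.J (∑ j ∈ range (3 * K), U θ ^ j)‖ = b
    calc _ ≤ C * ((a ^ 2 + b ^ 2) / 2 * ε) := by gcongr; nlinarith [sq_nonneg (a - b)]
      _ = _ := by ring
  have e5 := (norm_sum_le _ _).trans (sum_le_sum fun θ (_ : θ ∈ univ) => e4 θ)
  rw [e3, ← mul_sum, sum_add_distrib, phase_J T hW (by omega), phase_J T hW (by omega), norm_mul,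
    Complex.norm_real, Real.norm_of_nonneg (by positivity)] at e5
  refine le_of_mul_le_mul_left (e5.trans (le_of_eq ?_)) (by positivity : (0 : ℝ) < K * M)
  push_cast; ring

end Crest.Agent.H1KR
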