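import Crest.Agent.H1KR.C8

/-! Kadison–Ringrose, tracial part 9: the invariant mean for admissible forms. -/

set_option autoImplicit false
set_option maxHeartbeats 400000
open scoped InnerProductSpace ComplexConjugate
open Finset Function Crest.Agent.H1VN Crest.Agent.H2.KS

noncomputable section
namespace Crest.Agent.H1KR

variable {A : Type*} [CStarAlgebra A] {T : Tr A}

/-- Functionals represented by a finitely supported mean. -/
def Rep (Λ : (A → ℂ) → ℂ) : Prop := ∃ μ : List (ℝ × A), IsMean μ ∧ ∀ F, ev μ F = Λ F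

lemma Rep.pt {x : A} (hx : x ∈ unitary A) : Rep fun F : A → ℂ => F x :=
  ⟨[(1, x)], ⟨by simpa using hx, by simp⟩, fun F => by simp [ev]⟩

lemma Rep.mix {κ : Type*} [Fintype κ] {p : κ → ℝ} (h0 : ∀ i, 0 ≤ p i) (h1 : ∑ i, p i = 1)
    {Λ : κ → (A → ℂ) → ℂ} (h : ∀ i, Rep (Λ i)) : Rep fun F => ∑ i, (p i : ℂ) * Λ i F := by
  choose μ hμ hΛ using h
  refine ⟨(univ : Finset κ).toList.flatMap fun i => (μ i).map fun q => (p i * q.1, q.2),
    ⟨fun q hq => ?_, ?_⟩, fun F => ?_⟩
  · obtain ⟨i, -, hi⟩ := List.mem_flatMap.1 hq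
    obtain ⟨r, hr, rfl⟩ := List.mem_map.1 hi
    exact ⟨mul_nonneg (h0 i) ((hμ i).1 r hr).1, ((hμ i).1 r hr).2⟩
  · rw [List.map_flatMap, List.flatMap_def, List.sum_flatten, List.map_map, sum_map_toList, ← h1]
    refine sum_congr rfl fun i _ => ?_
    simp only [comp_apply, List.map_map, comp_def, List.sum_map_mul_left]
    rw [show (List.map (fun x : ℝ × A => x.1) (μ i)).sum = 1 from (hμ i).2, mul_one]
  · rw [ev, List.map_flatMap, List.flatMap_def, List.sum_flatten, List.map_map, sum_map_toList]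
    refine sum_congr rfl fun i _ => ?_
    simp only [← hΛ, ev, List.map_map, comp_def, Complex.real_smul, Complex.ofReal_mul, mul_assoc,
      List.sum_map_mul_left]

lemma Rep.avg {κ : Type*} [Fintype κ] [Nonempty κ] {Λ : κ → (A → ℂ) → ℂ} (h : ∀ i, Rep (Λ i)) :
    Rep fun F => (Fintype.card κ : ℂ)⁻¹ * ∑ i, Λ i F := by
  simpa [mul_sum] using Rep.mix (p := fun _ : κ => (Fintype.card κ : ℝ)⁻¹) (fun _ => by positivity)
    (by simp) h

lemma Rep.map {Λ : (A → ℂ) → ℂ} (h : Rep Λ) {f : A → A} (hf : ∀ u ∈ unitary A, f u ∈ unitary A) :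
    Rep fun F => Λ (F ∘ f) := by
  obtain ⟨μ, hμ, h⟩ := h
  refine ⟨μ.map fun q => (q.1, f q.2), ⟨fun q hq => ?_, ?_⟩, fun F => ?_⟩
  · obtain ⟨r, hr, rfl⟩ := List.mem_map.1 hq
    exact ⟨(hμ.1 r hr).1, hf _ (hμ.1 r hr).2⟩
  · rw [List.map_map]; exact hμ.2
  · simp only [← h, ev, List.map_map, comp_def]

lemma mix_le {κ : Type*} [Fintype κ] {p : κ → ℝ} (h0 : ∀ i, 0 ≤ p i) (h1 : ∑ i, p i = 1)
    {f : κ → ℂ} {ε : ℝ} (h : ∀ i, ‖f i‖ ≤ ε) : ‖∑ i, (p i : ℂ) * f i‖ ≤ ε := by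
  refine (norm_sum_le _ _).trans ((sum_le_sum (g := fun i => p i * ε) fun i _ => ?_).trans ?_)
  · rw [norm_mul, Complex.norm_real, Real.norm_of_nonneg (h0 i)]
    exact mul_le_mul_of_nonneg_left (h i) (h0 i)
  · rw [← sum_mul, h1, one_mul]

lemma avg_le {κ : Type*} [Fintype κ] [Nonempty κ] {f : κ → ℂ} {ε : ℝ} (h : ∀ i, ‖f i‖ ≤ ε) :
    ‖(Fintype.card κ : ℂ)⁻¹ * ∑ i, f i‖ ≤ ε := by
  simpa [mul_sum] using mix_le (p := fun _ : κ => (Fintype.card κ : ℝ)⁻¹) (fun _ => by positivity)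
    (by simp) h

variable {ι : Type} [Fintype ι] [DecidableEq ι] (e : ι → ι → A) (N : ℕ) [NeZero N]

/-- The Markov operator of `t r t*`. -/
def Pf (t : A) : Module.End ℂ (A → ℂ) where
  toFun F z := (Fintype.card (Om ι N) : ℂ)⁻¹ * ∑ ω : Om ι N, F (z * (t * rr e ω * star t))
  map_add' F G := by funext z; simp only [Pi.add_apply, sum_add_distrib, mul_add]
  map_smul' c F := by
    funext z; simp only [Pi.smul_apply, smul_eq_mul, ← mul_sum, RingHom.id_apply]; ring

lemma Pf_apply (t : A) (F : A → ℂ) (z : A) : Pf e N t F z =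
    (Fintype.card (Om ι N) : ℂ)⁻¹ * ∑ ω : Om ι N, F (z * (t * rr e ω * star t)) := rfl

/-- Independent words. -/
def Pw (ts : List A) : Module.End ℂ (A → ℂ) := (ts.map (Pf e N)).prod

variable {N} in
/-- Words with identical letters. -/
def Wd (ts : List A) (ω : Om ι N) : A := (ts.map fun t => t * rr e ω * star t).prod

lemma Pw_cons (t : A) (ts : List A) : Pw e N (t :: ts) = Pf e N t * Pw e N ts := by simp [Pw]
lemma Pw_append (ts ts' : List A) : Pw e N (ts ++ ts') = Pw e N ts * Pw e N ts' := by simp [Pw]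
lemma Pw_single (t : A) : Pw e N [t] = Pf e N t := by simp [Pw]

lemma Pw_rep (ts : List A) (k : ℕ) : Pw e N (List.replicate k ts).flatten = Pw e N ts ^ k := by
  induction k with
  | zero => simp [Pw]
  | succ k ih => rw [List.replicate_succ, List.flatten_cons, Pw_append, ih, pow_succ']

lemma Wd_rep (ts : List A) (k : ℕ) (ω : Om ι N) :
    Wd e (List.replicate k ts).flatten ω = Wd e ts ω ^ k := by
  induction k with
  | zero => simp [Wd]
  | succ k ih =>
    rw [List.replicate_succ, List.flatten_cons, pow_succ', ← ih]; simp [Wd]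

lemma Pw_ofFn {k : ℕ} (t : Fin k → A) (F : A → ℂ) (x : A) : Pw e N (List.ofFn t) F x =
    (Fintype.card (Fin k → Om ι N) : ℂ)⁻¹ * ∑ R : Fin k → Om ι N, F (x * XR e t R) := by
  induction k generalizing x with
  | zero => simp [Pw, XR, wX_apply]
  | succ k ih =>
    rw [List.ofFn_succ, Pw_cons, Module.End.mul_apply, Pf_apply]
    simp only [ih, ← mul_sum]
    rw [← (Fin.consEquiv fun _ => Om ι N).sum_comp, Fintype.sum_prod_type (α₁ := Om ι N),
      ← mul_assoc]
    congr 1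
    · simp only [Fintype.card_pi, prod_const, card_univ, Fintype.card_fin, pow_succ']
      push_cast; rw [mul_inv]
    · refine sum_congr rfl fun ω _ => sum_congr rfl fun R _ => ?_
      simp [XR, wX_apply, List.ofFn_succ, mul_assoc, Fin.consEquiv]

lemma Wd_ofFn {k : ℕ} (t : Fin k → A) (ω : Om ι N) : Wd e (List.ofFn t) ω = XR e t fun _ => ω := by
  rw [Wd, XR, wX_apply, List.map_ofFn]; rfl

variable {e N}

lemma MU.star_Wd (h : MU e) (ts : List A) (ω : Om ι N) :
    Star.star (Wd e ts ω) = Wd e ts.reverse (H2.KS.flip ω) := by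
  induction ts with
  | nil => simp [Wd]
  | cons t ts ih => simp only [Wd, mul_assoc] at ih; simp [Wd, ih, h.star_rr, mul_assoc]

lemma MU.Wd_unit (h : MU e) {ts : List A} (ht : ∀ t ∈ ts, t ∈ unitary A) (ω : Om ι N) :
    Wd e ts ω ∈ unitary A :=
  list_prod_mem (List.forall_mem_map.2 fun t h' => conj_unit (ht t h') (h.rr_unit ω))

lemma MU.Pw_le (h : MU e) {ts : List A} (ht : ∀ t ∈ ts, t ∈ unitary A) {G : A → ℂ} {ε : ℝ}
    (hG : ∀ x ∈ unitary A, ‖G x‖ ≤ ε) : ∀ x ∈ unitary A, ‖Pw e N ts G x‖ ≤ ε := by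
  induction ts with
  | nil => simpa [Pw] using hG
  | cons t ts ih =>
    intro x hx
    rw [Pw_cons, Module.End.mul_apply, Pf_apply]
    exact avg_le fun ω => ih (fun s hs => ht s (List.mem_cons_of_mem _ hs)) _
      (mul_mem hx (conj_unit (ht t List.mem_cons_self) (h.rr_unit ω)))

lemma MU.Pw_mean (h : MU e) {ts : List A} (ht : ∀ t ∈ ts, t ∈ unitary A) :
    ∀ x ∈ unitary A, Rep fun F => Pw e N ts F x := by
  induction ts with
  | nil => exact fun x hx => .pt hx
  | cons t ts ih =>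
    intro x hx
    simp only [Pw_cons, Module.End.mul_apply, Pf_apply]
    exact .avg fun ω => ih (fun s hs => ht s (List.mem_cons_of_mem _ hs)) _
      (mul_mem hx (conj_unit (ht t List.mem_cons_self) (h.rr_unit ω)))

/-- The quadratic function of a form. -/
def dg (B : Fm A) (u : A) : ℂ := B u u

/-- Right translation of a form. -/
def rt (B : Fm A) (s : A) : Fm A := B.pre (lr 1 s) (lr 1 s)

lemma Pf_inv (hN : 1 < N) {t s : A} (ht : t ∈ unitary A) (hs : Inv e s) (B : Fm A) :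
    Pf e N t (dg (rt B (t * s * star t))) = Pf e N t (dg B) := by
  funext z
  have := hs.rr hN (B.pre (lr (z * t) (star t)) (lr (z * t) (star t)))
  simp only [Fm.pre_apply, lr_apply, mul_assoc] at this
  simp only [Pf_apply, dg, rt, Fm.pre_apply, lr_apply, one_mul, mul_assoc, u1 ht, this]

lemma Pf_dg (t : A) (B : Fm A) : Pf e N t (dg B) =
    (Fintype.card (Om ι N) : ℂ)⁻¹ • ∑ ω : Om ι N, dg (rt B (t * rr e ω * star t)) := by
  funext z; simp [Pf_apply, dg, rt]

lemma MU.Pf_Pf (h : MU e) (hN : 1 < N) {t : A} (ht : t ∈ unitary A) (B : Fm A) :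
    Pf e N t (Pf e N t (dg B)) = Pf e N t (dg B) := by
  conv_lhs => rw [Pf_dg t B, map_smul, map_sum]
  simp only [rr, Pf_inv hN ht (h.inv_mat (Dm_unit _)), sum_const, card_univ]
  rw [← Nat.cast_smul_eq_nsmul ℂ, smul_smul, inv_mul_cancel₀ (by exact_mod_cast Fintype.card_ne_zero),
    one_smul]

variable (e N) in
/-- The weighted average of powers. -/
def Dl {κ : Type} [Fintype κ] (p : κ → ℝ) (m : κ → ℕ) (ts : List A) : Module.End ℂ (A → ℂ) :=
  ∑ i, (p i : ℂ) • Pw e N ts ^ (m i + 1)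

lemma Dl_apply {κ : Type} [Fintype κ] (p : κ → ℝ) (m : κ → ℕ) (ts : List A) (F : A → ℂ) (x : A) :
    Dl e N p m ts F x = ∑ i, (p i : ℂ) * (Pw e N ts ^ (m i + 1)) F x := by
  simp [Dl]

lemma Dl_rot {κ : Type} [Fintype κ] (p : κ → ℝ) (m : κ → ℕ) (l l' : List A) :
    Dl e N p m (l ++ l') * Pw e N l = Pw e N l * Dl e N p m (l' ++ l) := by
  simp only [Dl, Pw_append, sum_mul, mul_sum, smul_mul_assoc, mul_smul_comm, mul_pow_mul]

theorem MU.core0 (h : MU e) (hN : 1 < N) {C η δ ε ε₁ : ℝ} (hC : 0 ≤ C) (hε : 0 ≤ ε)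
    {κ : Type} [Fintype κ] {p : κ → ℝ} {m : κ → ℕ} (h0 : ∀ i, 0 ≤ p i) (h1 : ∑ i, p i = 1)
    (hw : ∀ z : ℂ, ‖z‖ = 1 → ‖∑ i, (p i : ℂ) * (z ^ (m i + 1) - conj z ^ (m i + 1))‖ ≤ ε)
    {ls : List A} (hl : ∀ t ∈ ls, t ∈ unitary A)
    (typ : ∀ ts : List A, (∀ t ∈ ts, t ∈ ls) → ts.length ≤ (univ.sup m + 1) * ls.length →
      ∀ B, Adm T B C η δ → ∀ x ∈ unitary A, ‖(Fintype.card (Om ι N) : ℂ)⁻¹ *
        ∑ ω : Om ι N, dg B (x * Wd e ts ω) - Pw e N ts (dg B) x‖ ≤ ε₁)
    {s : A} (hs : s ∈ unitary A) (hI : Inv e s) {B : Fm A} (hB : Adm T B C η δ) {t : A}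
    (ht : t ∈ ls) : ‖Dl e N p m ls (dg (rt B (t * s * Star.star t))) 1 - Dl e N p m ls (dg B) 1‖ ≤
      ls.length * (8 * (C * ε + ε₁)) := by
  have T1 : ∀ l : List A, (∀ t ∈ l, t ∈ ls) → l.length = ls.length → ∀ B, Adm T B C η δ →
      ∀ x ∈ unitary A, ‖∑ i, (p i : ℂ) * ((Fintype.card (Om ι N) : ℂ)⁻¹ *
        ∑ ω : Om ι N, dg B (x * Wd e l ω ^ (m i + 1))) - Dl e N p m l (dg B) x‖ ≤ ε₁ := by
    intro l k1 k2 B hB x hx
    rw [Dl_apply, ← sum_sub_distrib]
    simp only [← mul_sub, ← Pw_rep, ← Wd_rep]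
    refine mix_le h0 h1 fun i => typ _ (fun t ht => ?_) ?_ B hB x hx
    · obtain ⟨l', h1, h2⟩ := List.mem_flatten.1 ht
      exact k1 t (List.eq_of_mem_replicate h1 ▸ h2)
    · simp only [List.length_flatten, List.map_replicate, List.sum_replicate, smul_eq_mul, k2]
      exact Nat.mul_le_mul_right _ (Nat.succ_le_succ (le_sup (mem_univ i)))
  have T2 : ∀ l : List A, (∀ t ∈ l, t ∈ ls) → l.length = ls.length → ∀ B, Adm T B C η δ →
      ∀ x ∈ unitary A, ‖Dl e N p m l (dg B) x - Dl e N p m l.reverse (dg B) x‖ ≤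
        2 * (C * ε + ε₁) := by
    intro l k1 k2 B hB x hx
    have a1 := T1 l k1 k2 B hB x hx
    have a2 := T1 l.reverse (by simpa using k1) (by simpa using k2) B hB x hx
    have a3 := avg_le fun ω : Om ι N => reversal hε hw (hB.pre hx (one_mem _) hx (one_mem _)) hC
      (h.Wd_unit (fun t ht => hl t (k1 t ht)) ω)
    simp only [← sum_flip fun ω => dg B (x * Wd e l.reverse ω ^ _), ← h.star_Wd] at a2
    rw [sum_comm] at a3
    simp only [mul_sub, sum_sub_distrib, ← mul_sum, Fm.pre_apply, lr_apply, mul_one] at a3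
    simp only [mul_left_comm _ (Fintype.card (Om ι N) : ℂ)⁻¹, ← mul_sum, dg] at a1 a2
    have a4 := norm_sub_le_norm_sub_add_norm_sub (Dl e N p m l (dg B) x) _ _ |>.trans
      (add_le_add ((norm_sub_rev _ _).trans_le a1)
        ((norm_sub_le_norm_sub_add_norm_sub _ _ _).trans (add_le_add a3 a2)))
    linarith
  have T3 : ∀ t (l : List A), (∀ t' ∈ t :: l, t' ∈ ls) → (t :: l).length = ls.length →
      ∀ B, Adm T B C η δ → ∀ x ∈ unitary A, ‖Dl e N p m (t :: l) (Pf e N t (dg B)) x -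
        Dl e N p m (t :: l) (dg B) x‖ ≤ 4 * (C * ε + ε₁) := by
    intro t l k1 k2 B hB x hx
    have ht := hl t (k1 t List.mem_cons_self)
    have a1 := T2 _ k1 k2 B hB x hx
    have a2 : Dl e N p m (t :: l).reverse (Pf e N t (dg B)) x =
        Dl e N p m (t :: l).reverse (dg B) x := by
      simp only [Dl_apply, List.reverse_cons, Pw_append, Pw_single, pow_succ, Module.End.mul_apply,
        h.Pf_Pf hN ht]
    have a3 := avg_le fun ω : Om ι N => T2 _ k1 k2 (rt B (t * rr e ω * Star.star t))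
      (hB.pre (one_mem _) (conj_unit ht (h.rr_unit ω)) (one_mem _)
        (conj_unit ht (h.rr_unit ω))) x hx
    have a4 : ∀ D : Module.End ℂ (A → ℂ), D (Pf e N t (dg B)) x = (Fintype.card (Om ι N) : ℂ)⁻¹ *
        ∑ ω : Om ι N, D (dg (rt B (t * rr e ω * Star.star t))) x := fun D => by
      rw [Pf_dg, map_smul, map_sum, Pi.smul_apply, Finset.sum_apply, smul_eq_mul]
    rw [sum_sub_distrib, mul_sub, ← a4, ← a4, a2] at a3
    have a5 := (norm_sub_le_norm_sub_add_norm_sub _ _ _).trans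
      (add_le_add a3 ((norm_sub_rev _ _).trans_le a1))
    linarith
  have T4 : ∀ l l' : List A, ls = l ++ l' → ∀ B, Adm T B C η δ →
      ‖Dl e N p m ls (Pw e N l (dg B)) 1 - Dl e N p m ls (dg B) 1‖ ≤
        l.length * (4 * (C * ε + ε₁)) := by
    intro l
    induction l using List.reverseRecOn with
    | nil => simp [Pw]
    | append_singleton l t ih =>
      intro l' k B hB
      have k' : ls = l ++ t :: l' := by simp [k]
      have a1 := ih _ k' B hB
      have a2 := h.Pw_le (N := N) (ts := l) (fun t' h' => hl t' (by simp [k, h']))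
        (G := Dl e N p m (t :: (l' ++ l)) (Pf e N t (dg B)) - Dl e N p m (t :: (l' ++ l)) (dg B))
        (fun x hx => T3 t (l' ++ l) (fun t' h' => by simp [k] at h' ⊢; tauto)
          (by simp [k]; omega) B hB x hx) 1 (one_mem _)
      rw [map_sub, Pi.sub_apply, ← Module.End.mul_apply, ← Module.End.mul_apply (Pw e N l),
        ← List.cons_append, ← Dl_rot, ← k'] at a2
      have a3 := (norm_sub_le_norm_sub_add_norm_sub _ _ _).trans (add_le_add a2 a1)
      rw [Pw_append, Pw_single, List.length_append, List.length_singleton]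
      push_cast
      exact le_of_le_of_eq a3 (by ring)
  obtain ⟨l, l', k⟩ := List.append_of_mem ht
  have k' : ls = (l ++ [t]) ++ l' := by simp [k]
  have hu := conj_unit (hl t ht) hs
  have a1 := T4 _ _ k' B hB
  have a2 := T4 _ _ k' (rt B (t * s * Star.star t)) (hB.pre (one_mem _) hu (one_mem _) hu)
  rw [Pw_append, Pw_single, Module.End.mul_apply] at a1 a2
  rw [Pf_inv hN (hl t ht) hI] at a2
  have a3 := (norm_sub_le_norm_sub_add_norm_sub _ _ _).trans
    (add_le_add ((norm_sub_rev _ _).trans_le a2) a1)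
  have a4 : ((l ++ [t]).length : ℝ) ≤ ls.length := by
    rw [k']; exact_mod_cast List.length_append ▸ Nat.le_add_right _ _
  have a5 : 0 ≤ ε₁ := (norm_nonneg _).trans (typ [] (by simp) (by simp) B hB 1 (one_mem _))
  have a6 : 0 ≤ C * ε + ε₁ := by positivity
  nlinarith

variable [PartialOrder A] [StarOrderedRing A]

theorem core (T : Tr A) (hE : Ext A) {X Z : A} (hP : Pauli X Z) {C ε : ℝ} (hC : 1 ≤ C)
    (hε : 0 < ε) (L : ℕ) : ∃ η > 0, ∀ δ, 0 < δ → δ ≤ η → ∀ ls : List A, ls.length ≤ L →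
      (∀ t ∈ ls, t ∈ unitary A) → ∃ Λ, Rep Λ ∧ ∀ B, Adm T B C η δ → ∀ t ∈ ls,
        ‖Λ (dg (rt B (t * X * star t))) - Λ (dg B)‖ ≤ ε := by
  classical
  have hC0 : 0 < C := by linarith
  set ε₁ := ε / (16 * (L + 1)) with hε₁
  have h1 : 0 < ε₁ := by positivity
  obtain ⟨κ, _, p, m, p0, p1, hw⟩ := exists_wt (ε := ε₁ / C) (by positivity)
  set K := (univ.sup m + 1) * L with hK
  set r := min (1 / 2) (ε₁ / (5 * C)) with hr
  have r0 : 0 < r := by positivity
  have r1 : r ≤ 1 / 2 := min_le_left _ _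
  have r2 : r * (5 * C) ≤ ε₁ := (le_div_iff₀ (by positivity)).1 (min_le_right _ _)
  have hKf : (0 : ℝ) < K.factorial := by positivity
  set l := r ^ 2 / (3 * C * K.factorial) with hl
  have l0 : 0 < l := by positivity
  refine ⟨(C * l) ^ 2, by positivity, fun δ hδ hδ' ls hL hu => ?_⟩
  obtain ⟨n, hn⟩ := exists_nat_ge (2 * K ^ 2 / l ^ 2)
  obtain ⟨s, k1, k2, k3⟩ := exists_flat T hE ⟨Bool, inferInstance, inferInstance, _, pm_mu hP⟩
    ((ls.toFinset ×ˢ ls.toFinset).image fun q => star q.1 * q.2) (fun w hw => by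
      obtain ⟨q, hq, rfl⟩ := mem_image.1 hw
      simp only [mem_product, List.mem_toFinset] at hq
      exact mul_mem (Unitary.star_mem (hu _ hq.1)) (hu _ hq.2)) (θ := δ * l ^ 2) (by positivity)
      (max n K)
  have hn0 := s.mu.card_pos T
  refine ⟨fun F => Dl s.e (K + 2) p m ls F 1, ?_, fun B hB t ht => ?_⟩
  · simp only [Dl_apply, ← Pw_rep]
    refine .mix p0 p1 fun i => s.mu.Pw_mean (fun t ht => ?_) 1 (one_mem _)
    obtain ⟨l', h1, h2⟩ := List.mem_flatten.1 ht
    exact hu t (List.eq_of_mem_replicate h1 ▸ h2)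
  refine (s.mu.core0 (T := T) (by omega) hC0.le (by positivity) p0 p1 hw hu (ε₁ := ε₁)
    (fun ts a1 a2 B hB x hx => ?_) hP.uX (k1.1 _ (pm_inv hP)) hB ht).trans ?_
  · have a3 : ts.length ≤ K := a2.trans (Nat.mul_le_mul_left _ hL)
    have := s.mu.typ (N := K + 2) (hB.pre hx (one_mem _) hx (one_mem _)) hC hδ' (by positivity) l0
      (t := ts.get) (fun i => hu _ (a1 _ (List.get_mem _ _))) (fun i j => k3 _ (mem_image.2
        ⟨(ts.get i, ts.get j), by simp [a1], rfl⟩)) (by omega) (by omega)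
      (a3.trans ((le_max_right _ _).trans k2)) (κ := r ^ 2) ?_ (by nlinarith)
    · conv_lhs => rw [← List.ofFn_get ts]
      simp only [Pw_ofFn, Wd_ofFn, dg]
      simp only [Fm.pre_apply, lr_apply, mul_one, Real.sqrt_sq r0.le] at this
      refine this.trans ?_
      have : r ^ 2 ≤ r := by nlinarith
      nlinarith
    · have b1 : √(2 * ts.length ^ 2 / Fintype.card s.ι) ≤ l := by
        refine Real.sqrt_le_iff.2 ⟨l0.le, ?_⟩
        have b2 : (n : ℝ) ≤ Fintype.card s.ι := by exact_mod_cast (le_max_left _ _).trans k2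
        have b3 := hn.trans b2
        rw [div_le_iff₀ (by positivity)] at b3
        rw [div_le_iff₀ hn0, mul_comm (l ^ 2)]
        exact le_trans (by gcongr) b3
      rw [Real.sqrt_sq (by positivity)]
      calc _ ≤ K.factorial * (C * l + (C * l + C * l)) := by gcongr
        _ = _ := by rw [hl]; field_simp; ring
  · rw [mul_div_cancel₀ _ hC0.ne']
    calc _ ≤ (L + 1 : ℝ) * (8 * (ε₁ + ε₁)) := by gcongr; exact_mod_cast hL.trans (Nat.le_succ L)
      _ = _ := by rw [hε₁]; field_simp; ring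

end Crest.Agent.H1KR
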