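import Crest.Agent.H9.KB3
import Crest.Agent.H9.KA1
import Crest.Agent.H1VN.Proj

/-! Interface definitions for the Kadison–Ringrose cohomology theorem (S0161). -/

set_option autoImplicit false
open scoped InnerProductSpace ComplexConjugate
open Crest.Agent.H2.KS

namespace Crest.Agent.H1KR

variable {K : Type*} [NormedAddCommGroup K] [InnerProductSpace ℂ K] [CompleteSpace K]

/-- An abelian projection of `P`. -/
def Abel (P : Set (K →L[ℂ] K)) (e : K →L[ℂ] K) : Prop :=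
  e ∈ P ∧ IsStarProjection e ∧ ∀ a ∈ P, ∀ b ∈ P, Commute (e * a * e) (e * b * e)

/-- A finite sum of vector functionals. -/
noncomputable def vf (L : List (K × K)) (a : K →L[ℂ] K) : ℂ :=
  (L.map fun p => ⟪p.1, a p.2⟫_ℂ).sum

/-- `z P` contains a unital copy of the Cuntz algebra `O₂`. -/
def TypeP (P : Set (K →L[ℂ] K)) (z : K →L[ℂ] K) : Prop :=
  ∃ s₁ ∈ P, ∃ s₂ ∈ P, star s₁ * s₁ = z ∧ star s₂ * s₂ = z ∧ star s₁ * s₂ = 0 ∧
    s₁ * star s₁ + s₂ * star s₂ = z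

/-- `z` is covered by finitely many pieces of an abelian projection. -/
def TypeI (P : Set (K →L[ℂ] K)) (z : K →L[ℂ] K) : Prop :=
  ∃ (k : ℕ) (e : K →L[ℂ] K) (w : Fin k → (K →L[ℂ] K)), Abel P e ∧
    (∀ i, w i ∈ P ∧ w i * e = w i) ∧ ∑ i, w i * star (w i) = z

/-- `z P` has no abelian projection and carries a faithful normal tracial state. -/
def TypeII (P : Set (K →L[ℂ] K)) (z : K →L[ℂ] K) : Prop :=
  (∀ e, Abel P e → z * e = e → e = 0) ∧ ∃ L : List (K × K),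
    (∀ p ∈ L, z p.1 = p.1 ∧ z p.2 = p.2) ∧ vf L 1 = 1 ∧
    (∀ a ∈ P, ∀ b ∈ P, vf L (a * b) = vf L (b * a)) ∧
    (∀ a ∈ P, vf L (star a) = conj (vf L a)) ∧
    (∀ a ∈ P, 0 ≤ (vf L (star a * a)).re) ∧
    ∀ a ∈ P, vf L (star a * a) = 0 → a * z = 0

/-- Local trichotomy (subtask KR-D). -/
def Trichotomy (C : Set (K →L[ℂ] K)) : Prop :=
  ∀ z₀, IsCP C.centralizer z₀ → z₀ ≠ 0 → ∃ z, IsCP C.centralizer z ∧ z ≠ 0 ∧ z₀ * z = z ∧
    (TypeP C.centralizer z ∨ TypeI C.centralizer z ∨ TypeII C.centralizer z)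

/-- Complete boundedness of a linear map on a concrete operator algebra. -/
def CB (S : StarSubalgebra ℂ (K →L[ℂ] K)) (T : S →ₗ[ℂ] S) (c : ℝ) : Prop :=
  ∀ (J I : Type) [Fintype J] [Fintype I] (x : J → I → S),
    (∀ ξ : I → K, ∑ j, ‖∑ i, (x j i : K →L[ℂ] K) (ξ i)‖ ^ 2 ≤ ∑ i, ‖ξ i‖ ^ 2) →
    ∀ (ζ : J → K) (ξ : I → K), ‖∑ j, ∑ i, ⟪ζ j, (T (x j i) : K →L[ℂ] K) (ξ i)⟫_ℂ‖ ≤
      c * (√(∑ j, ‖ζ j‖ ^ 2) * √(∑ i, ‖ξ i‖ ^ 2))

/-- Averaging of a map along a column `m`: `x ↦ ∑ mᵢ* T(mᵢ x)`. -/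
def cav {A : Type*} [Ring A] [Star A] (m : List A) (T : A → A) (x : A) : A :=
  (m.map fun a => star a * T (a * x)).sum

/-- Asymptotically invariant columns for completely bounded maps (subtask KR-B). -/
def CMean (S : StarSubalgebra ℂ (K →L[ℂ] K)) : Prop :=
  ∃ l : Filter (List S), l.NeBot ∧ (∀ᶠ m in l, (m.map fun a => star a * a).sum = 1) ∧
    ∀ (T : S →ₗ[ℂ] S) (c : ℝ), CB S T c → ∀ (a : S) (ξ η : K), Filter.Tendsto
      (fun m => ⟪η, ((cav m T a - a * cav m T 1 : S) : K →L[ℂ] K) ξ⟫_ℂ) l (nhds 0)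

/-- Averaging of a map along a tensor `ω = ∑ xᵢ ⊗ yᵢ`: `a ↦ ∑ xᵢ T(yᵢ a)`. -/
def tav {A : Type*} [Ring A] (ω : List (A × A)) (T : A → A) (a : A) : A :=
  (ω.map fun p => p.1 * T (p.2 * a)).sum

/-- Asymptotically invariant tensors of projective norm `≤ 1` over the central projection `z`. -/
def ZMean (S : StarSubalgebra ℂ (K →L[ℂ] K)) (z : S) : Prop :=
  ∃ l : Filter (List (S × S)), l.NeBot ∧
    (∀ᶠ ω in l, (ω.map fun p => p.1 * p.2).sum = z ∧ (ω.map fun p => ‖p.1‖ * ‖p.2‖).sum ≤ 1) ∧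
    ∀ (T : S →L[ℂ] S) (a : S) (ξ η : K), Filter.Tendsto
      (fun ω => ⟪η, ((z * (tav ω T a - a * tav ω T 1) : S) : K →L[ℂ] K) ξ⟫_ℂ) l (nhds 0)

/-- A unital system of matrix units. -/
structure MU {A ι : Type*} [Ring A] [StarRing A] [Fintype ι] [DecidableEq ι] (e : ι → ι → A) :
    Prop where
  mul : ∀ a b c d, e a b * e c d = if b = c then e a d else 0
  star : ∀ a b, star (e a b) = e b a
  sum : ∑ a, e a a = 1

/-- Every unital matrix subalgebra has a Pauli pair in its relative commutant. -/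
def Ext (A : Type*) [CStarAlgebra A] : Prop :=
  ∀ (ι : Type) [Fintype ι] [DecidableEq ι] (e : ι → ι → A), MU e →
    ∃ X Z : A, H1VN.Pauli X Z ∧ (∀ a b, Commute X (e a b)) ∧ ∀ a b, Commute Z (e a b)

/-- Expectation with respect to a finitely supported measure. -/
def ev {A V : Type*} [AddCommGroup V] [Module ℝ V] (μ : List (ℝ × A)) (F : A → V) : V :=
  (μ.map fun q => q.1 • F q.2).sum

/-- A finitely supported probability measure on the unitary group. -/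
def IsMean {A : Type*} [Monoid A] [StarMul A] (μ : List (ℝ × A)) : Prop :=
  (∀ q ∈ μ, 0 ≤ q.1 ∧ q.2 ∈ unitary A) ∧ (μ.map Prod.fst).sum = 1

/-- Asymptotically invariant means on the unitary group of a tracial algebra (subtask KR-C). -/
def TrMean (A : Type*) [CStarAlgebra A] : Prop :=
  ∀ T : H1VN.Tr A, Ext A → ∃ l : Filter (List (ℝ × A)), l.NeBot ∧ (∀ᶠ μ in l, IsMean μ) ∧
    ∀ (φ : A →L[ℂ] A) (y a : A), Filter.Tendsto (fun μ => T.τ (y *
      (ev μ (fun u => star u * φ (u * a)) - a * ev μ (fun u => star u * φ u)))) l (nhds 0)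

end Crest.Agent.H1KR
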